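import Crest.Agent.R331.I.Basic
import Crest.Agent.R331.Anova

/-!
Row 331, block Anova.  `M = Uᴴ (Y ⊗ 1) U`, `ρ = ρA ⊗ ρB`; expand
`0 ≤ tr ρ Zᴴ Z`, `Z = M - cA ⊗ 1 - 1 ⊗ cB - m`; the three parts are orthogonal and are the projections
of `M`; `tr ρ Mᴴ M ≤ tr ρ Uᴴ (Yᴴ Y ⊗ 1) U` because `U Uᴴ ≤ 1`.  The second form follows from the first
applied to `Yᴴ`.
-/

set_option autoImplicit false

noncomputable section

namespace Crest.Agent.R331

open Matrix Crest.MathPhysics.Bosonic Crest.Agent.Lib.QEnt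
open scoped ComplexOrder Kronecker

variable {α β γ δ : Type*} [Fintype α] [Fintype β] [Fintype γ] [Fintype δ]
  [DecidableEq α] [DecidableEq β] [DecidableEq γ] [DecidableEq δ]

theorem anova_right {U : Matrix (γ × δ) (α × β) ℂ} (hU : Uᴴ * U = 1) {ρA : Matrix α α ℂ}
    {ρB : Matrix β β ℂ} (hA : Dens ρA) (hB : Dens ρB) (Y : Matrix γ γ ℂ) :
    (ρA * ((cen U ρA ρB Y)ᴴ * cen U ρA ρB Y)).trace.re +
      (ρB * ((cen (sw U) ρB ρA Y)ᴴ * cen (sw U) ρB ρA Y)).trace.re ≤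
      (out U ρA ρB * (Yᴴ * Y)).trace.re := by
  have h := Anova.cen_L hU hA hB Y
  have h0 := Complex.normSq_nonneg (out U ρA ρB * Y).trace
  linarith

theorem anova_left {U : Matrix (γ × δ) (α × β) ℂ} (hU : Uᴴ * U = 1) {ρA : Matrix α α ℂ}
    {ρB : Matrix β β ℂ} (hA : Dens ρA) (hB : Dens ρB) (Y : Matrix γ γ ℂ) :
    (ρA * (cen U ρA ρB Y * (cen U ρA ρB Y)ᴴ)).trace.re +
      (ρB * (cen (sw U) ρB ρA Y * (cen (sw U) ρB ρA Y)ᴴ)).trace.re ≤
      (out U ρA ρB * (Y * Yᴴ)).trace.re := by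
  have h := Anova.cen_R hU hA hB Y
  have h0 := Complex.normSq_nonneg (out U ρA ρB * Y).trace
  linarith

end Crest.Agent.R331

end
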