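import Crest.Agent.R331.I.BS

/-!
Row 331, block Apr: a priori bounds (helper21).
-/

set_option autoImplicit false

noncomputable section

namespace Crest.Agent.R331

open Matrix Crest.MathPhysics.Bosonic Crest.Agent.Lib.QEnt
open scoped ComplexOrder Kronecker

theorem apr_sig_posDef (η : ℝ) {θ : ℝ} (hθ : 0 < θ) {n K : ℕ} {ρA ρB : Mt n K} (hA : Dens ρA)
    (hB : Dens ρB) : (sig η θ ρA ρB).PosDef := by
  refine Matrix.PosDef.posSemidef_add (out_posSemidef _ hA.1 hB.1) ?_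
  exact Matrix.PosDef.one.smul (by exact_mod_cast hθ)

theorem apr_trace_sig {η : ℝ} (h0 : 0 ≤ η) (h1 : η ≤ 1) (θ : ℝ) {n K : ℕ} {ρA ρB : Mt n K}
    (hA : Dens ρA) (hB : Dens ρB) :
    (sig η θ ρA ρB).trace.re = 1 + θ * Fintype.card (Bl n (2 * K)) := by
  rw [sig, trace_add, trace_out (bs_iso h0 h1 n K), hA.2, hB.2, trace_smul, trace_one]
  simp

theorem apr_en_sig (η θ : ℝ) (hθ : 0 ≤ θ) {n K : ℕ} (ρA ρB : Mt n K) :
    en (out (bsU η n K) ρA ρB) ≤ en (sig η θ ρA ρB) ∧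
      en (sig η θ ρA ρB) ≤ en (out (bsU η n K) ρA ρB) + θ * Fintype.card (Bl n (2 * K)) * (2 * K) := by
  have e : en (sig η θ ρA ρB) = en (out (bsU η n K) ρA ρB) + ∑ k : Bl n (2 * K), (tot k.1 : ℝ) * θ := by
    simp only [en, ev, sig, ← Finset.sum_add_distrib]
    refine Finset.sum_congr rfl fun k _ => ?_
    simp [mul_add]
  rw [e]
  refine ⟨le_add_of_nonneg_right (Finset.sum_nonneg fun k _ => by positivity), add_le_add le_rfl ?_⟩
  calc ∑ k : Bl n (2 * K), (tot k.1 : ℝ) * θ ≤ ∑ k : Bl n (2 * K), (2 * K : ℝ) * θ :=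
        Finset.sum_le_sum fun k _ => mul_le_mul_of_nonneg_right (by exact_mod_cast k.2) hθ
    _ = _ := by rw [Finset.sum_const, Finset.card_univ, nsmul_eq_mul]; ring

theorem apr_le_Tm {t : ℝ} (ht : 0 < t) : t ≤ Tm t := by
  have h1 : Real.log (t + 1) - Real.log t ≤ 1 / t := by
    rw [← Real.log_div (by linarith) ht.ne']
    refine (Real.log_le_sub_one_of_pos (by positivity)).trans (le_of_eq ?_)
    field_simp
    ring
  have h2 : 0 < Real.log (t + 1) - Real.log t := sub_pos.2 (Real.log_lt_log ht (by linarith))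
  rw [Tm, le_div_iff₀ h2]
  calc t * (Real.log (t + 1) - Real.log t) ≤ t * (1 / t) := mul_le_mul_of_nonneg_left h1 ht.le
    _ = 1 := by field_simp

theorem apr_ev_nonneg {n K : ℕ} {f : ℕ → ℝ} (hf : ∀ m, 0 ≤ f m) {ρ : Mt n K} (hρ : ρ.PosSemidef) :
    0 ≤ ev f ρ := by
  have := ev_mono (f := fun _ => 0) (g := f) (fun m _ => hf m) hρ
  rwa [ev_const, zero_mul] at this

theorem apr_gib (n : ℕ) {a b : ℝ} (ha : 0 < a) (hb : 0 < b) : ∃ c : ℝ, ∀ (K : ℕ) (ρ : Mt n K), Dens ρ →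
    a * ent ρ ≤ c + b * en ρ := by
  have ht : 0 < a / b := div_pos ha hb
  refine ⟨a * (n * gBose (a / b)), fun K ρ hρ => ?_⟩
  have h1 := gibbs hρ ht
  have h2 := apr_le_Tm ht
  have h3 : 0 ≤ en ρ := apr_ev_nonneg (fun m => Nat.cast_nonneg m) hρ.1
  have h4 : 0 ≤ (n : ℝ) * (a / b) := by positivity
  rcases le_total (ent ρ - n * gBose (a / b)) 0 with h5 | h5
  · nlinarith [mul_nonneg hb.le h3]
  · have h6 : a / b * (ent ρ - n * gBose (a / b)) ≤ en ρ := by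
      nlinarith [mul_le_mul_of_nonneg_right h2 h5]
    rw [div_mul_eq_mul_div, div_le_iff₀ hb] at h6
    linarith

theorem apr_apriori (n : ℕ) {η d tA tB : ℝ} (h0 : 0 < η) (h1 : η < 1) (hd : 0 < d) (htA : 0 < tA)
    (htB : 0 < tB) : ∃ C : ℝ, 0 < C ∧ ∀ (K : ℕ) (ε θ : ℝ), 0 ≤ ε → 0 ≤ θ →
      θ * Fintype.card (Bl n (2 * K)) ≤ 1 → ∀ ρA ρB : Mt n K, Dens ρA → Dens ρB →
      0 ≤ Phi η d ε θ tA tB ρA ρB →
      en ρA ≤ C ∧ en ρB ≤ C ∧ ε * ev pen ρA ≤ C ∧ ε * ev pen ρB ≤ C := by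
  have h1' : 0 < 1 - η := by linarith
  have hTA := Tm_pos htA
  have hTB := Tm_pos htB
  have hTC := Tm_pos (t := η * tA + (1 - η) * tB) (by positivity)
  obtain ⟨cA, hcA⟩ := apr_gib n (a := (1 + d) * (η * Tm tA)) (b := d / 2 * η) (by positivity) (by positivity)
  obtain ⟨cB, hcB⟩ := apr_gib n (a := (1 + d) * ((1 - η) * Tm tB)) (b := d / 2 * (1 - η)) (by positivity) (by positivity)
  obtain ⟨M, hM0, hM⟩ : ∃ M : ℝ, 0 < M ∧ cA + cB - (1 + d) * (η * Tm tA * (n * gBose tA) + (1 - η) * Tm tB * (n * gBose tB)) +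
      Tm (η * tA + (1 - η) * tB) * (2 + n * gBose (η * tA + (1 - η) * tB)) + d * (η * (n * tA) + (1 - η) * (n * tB)) ≤ M :=
    ⟨max 1 _, lt_max_of_lt_left one_pos, le_max_right _ _⟩
  refine ⟨M / (d / 2 * η) + M / (d / 2 * (1 - η)) + M / η + M / (1 - η), by positivity,
    fun K ε θ hε hθ hc ρA ρB hA hB hΦ => ?_⟩
  have eA : 0 ≤ en ρA := apr_ev_nonneg (fun m => Nat.cast_nonneg m) hA.1
  have eB : 0 ≤ en ρB := apr_ev_nonneg (fun m => Nat.cast_nonneg m) hB.1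
  have hp : ∀ m, 0 ≤ pen m := fun m => Finset.sum_nonneg fun i _ => by positivity
  have pA : 0 ≤ ε * ev pen ρA := mul_nonneg hε (apr_ev_nonneg hp hA.1)
  have pB : 0 ≤ ε * ev pen ρB := mul_nonneg hε (apr_ev_nonneg hp hB.1)
  have hσ : (sig η θ ρA ρB).PosSemidef :=
    (out_posSemidef _ hA.1 hB.1).add (Matrix.PosSemidef.one.smul (by exact_mod_cast hθ))
  have hS := ent_ge hσ (by rw [apr_trace_sig h0.le h1.le θ hA hB]; linarith)
  have hS' := mul_le_mul_of_nonneg_left hS hTC.le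
  have gA := hcA K ρA hA
  have gB := hcB K ρB hB
  have key : d / 2 * η * en ρA + d / 2 * (1 - η) * en ρB + η * (ε * ev pen ρA) + (1 - η) * (ε * ev pen ρB) ≤ M := by
    unfold Phi at hΦ
    linarith
  have a1 : 0 ≤ d / 2 * η * en ρA := by positivity
  have a2 : 0 ≤ d / 2 * (1 - η) * en ρB := by positivity
  have a3 : 0 ≤ η * (ε * ev pen ρA) := by positivity
  have a4 : 0 ≤ (1 - η) * (ε * ev pen ρB) := by positivity
  have b1 : en ρA ≤ M / (d / 2 * η) := by rw [le_div_iff₀ (by positivity)]; linarith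
  have b2 : en ρB ≤ M / (d / 2 * (1 - η)) := by rw [le_div_iff₀ (by positivity)]; linarith
  have b3 : ε * ev pen ρA ≤ M / η := by rw [le_div_iff₀ h0]; linarith
  have b4 : ε * ev pen ρB ≤ M / (1 - η) := by rw [le_div_iff₀ h1']; linarith
  exact ⟨by linarith, by linarith, by linarith, by linarith⟩

end Crest.Agent.R331

end
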