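import Crest.Agent.R331.I.Ent

/-! Row 331, block Apr: existence of a maximiser (helper33). -/

set_option autoImplicit false

noncomputable section

namespace Crest.Agent.R331

open Matrix Crest.MathPhysics.Bosonic Crest.Agent.Lib.QEnt
open scoped ComplexOrder Kronecker

theorem aprm_entry {ι : Type*} [Fintype ι] [DecidableEq ι] {ρ : Matrix ι ι ℂ} (hρ : Dens ρ) (i j : ι) : ‖ρ i j‖ ≤ 1 := by
  have hs : ∑ k, (ρ k k).re = 1 := by
    have := congrArg Complex.re hρ.2
    simpa [Matrix.trace, Complex.re_sum] using this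
  have hd : ∀ k, (ρ k k).re ≤ 1 := fun k => hs ▸ Finset.single_le_sum (f := fun k => (ρ k k).re)
    (fun k _ => (Complex.le_def.1 (PosSemidef.diag_nonneg hρ.1 (i := k))).1) (Finset.mem_univ k)
  obtain ⟨B, rfl⟩ := bdb_sqrt hρ.1
  have h2 : ∀ z : ℂ, (star z * z).re = ‖z‖ ^ 2 := fun z => by
    rw [Complex.star_def, Complex.conj_mul', ← Complex.ofReal_pow, Complex.ofReal_re]
  simp only [Matrix.mul_apply, conjTranspose_apply, Complex.re_sum, h2] at hd ⊢
  refine (norm_sum_le _ _).trans ((Finset.sum_le_sum (g := fun k => (‖B k i‖ ^ 2 + ‖B k j‖ ^ 2) / 2) fun k _ => ?_).trans ?_)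
  · rw [norm_mul, norm_star]
    nlinarith [sq_nonneg (‖B k i‖ - ‖B k j‖)]
  · rw [← Finset.sum_div, Finset.sum_add_distrib]
    linarith [hd i, hd j]

theorem aprm_compact {ι : Type*} [Fintype ι] [DecidableEq ι] : IsCompact {ρ : Matrix ι ι ℂ | Dens ρ} := by
  have hK : IsCompact (Set.univ.pi fun _ : ι => Set.univ.pi fun _ : ι => Metric.closedBall (0 : ℂ) 1) :=
    isCompact_univ_pi fun _ => isCompact_univ_pi fun _ => isCompact_closedBall _ _
  have hc : IsClosed {ρ : Matrix ι ι ℂ | Dens ρ} := by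
    have e : {ρ : Matrix ι ι ℂ | Dens ρ} =
        ({ρ | ρᴴ = ρ} ∩ ⋂ v : ι → ℂ, {ρ | 0 ≤ star v ⬝ᵥ (ρ *ᵥ v)}) ∩ {ρ | ρ.trace = 1} := by
      ext ρ
      simp only [Dens, posSemidef_iff_dotProduct_mulVec, Set.mem_setOf_eq, Set.mem_inter_iff, Set.mem_iInter]
      rfl
    rw [e]
    refine ((isClosed_eq continuous_id.matrix_conjTranspose continuous_id).inter (isClosed_iInter fun v => ?_)).inter
      (isClosed_eq continuous_id.matrix_trace continuous_const)
    exact isClosed_le continuous_const (continuous_const.dotProduct (continuous_id.matrix_mulVec continuous_const))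
  exact IsCompact.of_isClosed_subset (X := Matrix ι ι ℂ) hK hc fun ρ hρ i _ j _ => mem_closedBall_zero_iff.2 (aprm_entry hρ i j)

theorem aprm_nonempty (n K : ℕ) : ∃ ρ : Mt n K, Dens ρ := by
  let o : Bl n K := ⟨0, by simp [tot]⟩
  refine ⟨diagonal (Pi.single o 1), PosSemidef.diagonal fun i => ?_, by simp [trace_diagonal]⟩
  by_cases h : i = o
  · subst h; simp
  · simp [Pi.single_eq_of_ne h]

theorem aprm_sig (η θ : ℝ) (n K : ℕ) : Continuous fun p : Mt n K × Mt n K => sig η θ p.1 p.2 := by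
  have h1 : Continuous fun p : Mt n K × Mt n K => p.1 ⊗ₖ p.2 :=
    continuous_matrix fun i j => (continuous_fst.matrix_elem i.1 j.1).mul (continuous_snd.matrix_elem i.2 j.2)
  have h2 := (continuous_const (y := bsU η n K).matrix_mul h1).matrix_mul (continuous_const (y := (bsU η n K)ᴴ))
  refine Continuous.add (continuous_matrix fun i j => ?_) continuous_const
  exact continuous_finset_sum _ fun e _ => h2.matrix_elem (i, e) (j, e)

theorem aprm_exists_max (η d ε θ tA tB : ℝ) (n K : ℕ) :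
    ∃ ρA ρB : Mt n K, Dens ρA ∧ Dens ρB ∧ ∀ ρA' ρB' : Mt n K, Dens ρA' → Dens ρB' →
      Phi η d ε θ tA tB ρA' ρB' ≤ Phi η d ε θ tA tB ρA ρB := by
  obtain ⟨ρ₀, h₀⟩ := aprm_nonempty n K
  have hA : ContinuousOn (fun p : Mt n K × Mt n K => ent p.1) ({ρ | Dens ρ} ×ˢ {ρ | Dens ρ}) :=
    continuousOn_ent.comp continuousOn_fst fun p hp => hp.1.1.1
  have hB : ContinuousOn (fun p : Mt n K × Mt n K => ent p.2) ({ρ | Dens ρ} ×ˢ {ρ | Dens ρ}) :=
    continuousOn_ent.comp continuousOn_snd fun p hp => hp.2.1.1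
  have hC : ContinuousOn (fun p : Mt n K × Mt n K => ent (sig η θ p.1 p.2)) ({ρ | Dens ρ} ×ˢ {ρ | Dens ρ}) :=
    continuousOn_ent.comp (aprm_sig η θ n K).continuousOn fun p hp =>
      (out_posSemidef _ hp.1.1 hp.2.1).1.add (isHermitian_one.smul (by simp [IsSelfAdjoint]))
  have e1 : ∀ f, ContinuousOn (fun p : Mt n K × Mt n K => ev f p.1) ({ρ | Dens ρ} ×ˢ {ρ | Dens ρ}) := fun f =>
    ((continuous_ev f).comp continuous_fst).continuousOn
  have e2 : ∀ f, ContinuousOn (fun p : Mt n K × Mt n K => ev f p.2) ({ρ | Dens ρ} ×ˢ {ρ | Dens ρ}) := fun f =>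
    ((continuous_ev f).comp continuous_snd).continuousOn
  have hP : ContinuousOn (fun p : Mt n K × Mt n K => Phi η d ε θ tA tB p.1 p.2) ({ρ | Dens ρ} ×ˢ {ρ | Dens ρ}) := by
    unfold Phi en
    exact (((continuousOn_const.mul ((continuousOn_const.mul (hA.sub continuousOn_const)).add
      (continuousOn_const.mul (hB.sub continuousOn_const)))).sub (continuousOn_const.mul (hC.sub continuousOn_const))).sub
      (continuousOn_const.mul ((continuousOn_const.mul ((e1 _).sub continuousOn_const)).add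
        (continuousOn_const.mul ((e2 _).sub continuousOn_const))))).sub
      (continuousOn_const.mul ((continuousOn_const.mul (e1 _)).add (continuousOn_const.mul (e2 _))))
  obtain ⟨p, hp, hm⟩ := (aprm_compact.prod aprm_compact).exists_isMaxOn ⟨(ρ₀, ρ₀), h₀, h₀⟩ hP
  exact ⟨p.1, p.2, hp.1, hp.2, fun ρA' ρB' h1 h2 => hm (a := (ρA', ρB')) ⟨h1, h2⟩⟩

end Crest.Agent.R331

end
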