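import Crest.Agent.R331.I.BS
import Crest.Agent.R331.I.AprA
import Crest.Agent.R331.I.AprM

/-!
Row 331, block Apr: existence of a maximiser, a priori bounds and penalty estimates.
-/

set_option autoImplicit false

noncomputable section

namespace Crest.Agent.R331

open Matrix Crest.MathPhysics.Bosonic Crest.Agent.Lib.QEnt
open scoped ComplexOrder Kronecker

/-- compactness of the density matrices, `continuousOn_ent`, `continuous_ev`. -/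
theorem exists_max (η d ε θ tA tB : ℝ) (hθ : 0 ≤ θ) (n K : ℕ) :
    ∃ ρA ρB : Mt n K, Dens ρA ∧ Dens ρB ∧ ∀ ρA' ρB' : Mt n K, Dens ρA' → Dens ρB' →
      Phi η d ε θ tA tB ρA' ρB' ≤ Phi η d ε θ tA tB ρA ρB :=
  aprm_exists_max η d ε θ tA tB n K

/-- `gibbs` at a temperature `t''` with `(1+d) Tm tX ≤ (d/2) Tm t''` (`Tm t ≥ t`), and `ent_ge`. -/
theorem apriori (n : ℕ) {η d tA tB : ℝ} (h0 : 0 < η) (h1 : η < 1) (hd : 0 < d) (htA : 0 < tA)
    (htB : 0 < tB) : ∃ C : ℝ, 0 < C ∧ ∀ (K : ℕ) (ε θ : ℝ), 0 ≤ ε → 0 ≤ θ →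
      θ * Fintype.card (Bl n (2 * K)) ≤ 1 → ∀ ρA ρB : Mt n K, Dens ρA → Dens ρB →
      0 ≤ Phi η d ε θ tA tB ρA ρB →
      en ρA ≤ C ∧ en ρB ≤ C ∧ ε * ev pen ρA ≤ C ∧ ε * ev pen ρB ≤ C := by
  exact apr_apriori n h0 h1 hd htA htB

theorem pen_ge (m : ℕ) : (m : ℝ) ^ 7 ≤ 7 * pen m := by
  induction m with
  | zero => simp [pen]
  | succ m ih =>
    have e : pen (m + 1) = pen m + ((m : ℝ) + 1) ^ 6 := by
      rw [pen, Finset.sum_range_succ, Nat.cast_succ]; rfl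
    have h0 : (0 : ℝ) ≤ m := Nat.cast_nonneg m
    have : ((m : ℝ) + 1) ^ 7 ≤ (m : ℝ) ^ 7 + 7 * ((m : ℝ) + 1) ^ 6 := by
      have : (m : ℝ) ^ 7 + 7 * ((m : ℝ) + 1) ^ 6 - ((m : ℝ) + 1) ^ 7 =
        21 * (m : ℝ) ^ 5 + 70 * m ^ 4 + 105 * m ^ 3 + 84 * m ^ 2 + 35 * m + 6 := by ring
      have h2 : (0 : ℝ) ≤ 21 * (m : ℝ) ^ 5 + 70 * m ^ 4 + 105 * m ^ 3 + 84 * m ^ 2 + 35 * m + 6 := by positivity
      linarith
    rw [e, Nat.cast_succ]
    linarith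

theorem aprp_trace {ι : Type*} [Fintype ι] [DecidableEq ι] (ρ : Matrix ι ι ℂ) (f : ι → ℝ) :
    (ρ * diagonal fun k => ((f k : ℝ) : ℂ)).trace.re = ∑ k, f k * (ρ k k).re := by
  simp [Matrix.trace, Complex.re_sum, mul_comm]

theorem aprp_nonneg {ι : Type*} [Fintype ι] {ρ : Matrix ι ι ℂ} (hρ : Dens ρ) (k : ι) : 0 ≤ (ρ k k).re :=
  (Complex.le_def.1 (PosSemidef.diag_nonneg hρ.1 (i := k))).1

theorem aprp_sum {ι : Type*} [Fintype ι] {ρ : Matrix ι ι ℂ} (hρ : Dens ρ) : ∑ k, (ρ k k).re = 1 := by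
  have := congrArg Complex.re hρ.2
  simpa [Matrix.trace, Complex.re_sum] using this

theorem top_mass {n K : ℕ} {ρ : Mt n K} (hρ : Dens ρ) :
    (K : ℝ) ^ 7 * (ρ * topQ n K).trace.re ≤ 7 * ev pen ρ := by
  rw [topQ, dN, aprp_trace, ev, Finset.mul_sum, Finset.mul_sum]
  refine Finset.sum_le_sum fun k _ => ?_
  rw [← mul_assoc, ← mul_assoc]
  refine mul_le_mul_of_nonneg_right ?_ (aprp_nonneg hρ k)
  split_ifs with h
  · rw [mul_one, h]; exact pen_ge K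
  · rw [mul_zero]; exact le_trans (by positivity) (pen_ge _)

theorem aprp_poly (n : ℕ) {t : ℝ} (ht : 0 < t) (m : ℕ) :
    t * (((m : ℝ) + 1) ^ 6 * (m + n)) - (t + 1) * (m : ℝ) ^ 7 ≤ (32 * t * (n + 6)) ^ 7 + 32 * t * (n + 6) := by
  have h0 : (0 : ℝ) ≤ m := Nat.cast_nonneg m
  have hn : (0 : ℝ) ≤ n := Nat.cast_nonneg n
  have h1 : ((m : ℝ) + 1) ^ 6 * m - (m : ℝ) ^ 7 ≤ 6 * ((m : ℝ) + 1) ^ 6 := by
    have : 6 * ((m : ℝ) + 1) ^ 6 - (((m : ℝ) + 1) ^ 6 * m - (m : ℝ) ^ 7) =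
      21 * (m : ℝ) ^ 5 + 70 * m ^ 4 + 105 * m ^ 3 + 84 * m ^ 2 + 35 * m + 6 := by ring
    have h2 : (0 : ℝ) ≤ 21 * (m : ℝ) ^ 5 + 70 * m ^ 4 + 105 * m ^ 3 + 84 * m ^ 2 + 35 * m + 6 := by positivity
    linarith
  have h2 : ((m : ℝ) + 1) ^ 6 ≤ 32 * ((m : ℝ) ^ 6 + 1) := by
    have := add_pow_le h0 zero_le_one 6
    norm_num at this
    exact this
  have h3 : t * (((m : ℝ) + 1) ^ 6 * (m + n) - (m : ℝ) ^ 7) ≤ 32 * t * (n + 6) * ((m : ℝ) ^ 6 + 1) := by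
    have : ((m : ℝ) + 1) ^ 6 * (m + n) - (m : ℝ) ^ 7 ≤ (n + 6) * (32 * ((m : ℝ) ^ 6 + 1)) :=
      le_trans (by linarith) (mul_le_mul_of_nonneg_left h2 (by positivity))
    linarith [mul_le_mul_of_nonneg_left this ht.le]
  have hB : 0 ≤ 32 * t * ((n : ℝ) + 6) := by positivity
  generalize 32 * t * ((n : ℝ) + 6) = B at h3 hB ⊢
  have h4 : B * (m : ℝ) ^ 6 ≤ B ^ 7 + (m : ℝ) ^ 7 := by
    rcases le_total (m : ℝ) B with h | h
    · have : B * (m : ℝ) ^ 6 ≤ B * B ^ 6 := by gcongr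
      linarith [pow_nonneg h0 7]
    · have : B * (m : ℝ) ^ 6 ≤ m * (m : ℝ) ^ 6 := by gcongr
      linarith [pow_nonneg hB 7]
  linarith

theorem aprp_term {n K : ℕ} {ρ : Mt n K} (hρ : Dens ρ) (t : ℝ) (j : Fin n) :
    ((df ρ t (low n K j))ᴴ * (low n K j * dN n K pen - dN n K pen * low n K j)).trace.re =
      ∑ k : Bl n K, (t * (((tot k.1 : ℝ) + 1) ^ 6 * if tot k.1 < K then (k.1 j : ℝ) + 1 else 0) -
        (t + 1) * ((k.1 j : ℝ) * (tot k.1 : ℝ) ^ 6)) * (ρ k k).re := by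
  have e1 : ((low n K j)ᴴ * ρ * (low n K j * dN n K fun m => (m : ℝ) ^ 6)).trace.re =
      ∑ k : Bl n K, (((tot k.1 : ℝ) + 1) ^ 6 * if tot k.1 < K then (k.1 j : ℝ) + 1 else 0) * (ρ k k).re := by
    rw [low_mul_dN, Matrix.mul_assoc, trace_mul_comm, Matrix.mul_assoc, Matrix.mul_assoc, low_mul_conjTranspose, dN,
      diagonal_mul_diagonal, ← aprp_trace]
    simp only [← Complex.ofReal_mul, Nat.cast_succ]
  have e2 : (ρ * (low n K j)ᴴ * (low n K j * dN n K fun m => (m : ℝ) ^ 6)).trace.re =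
      ∑ k : Bl n K, ((k.1 j : ℝ) * (tot k.1 : ℝ) ^ 6) * (ρ k k).re := by
    rw [Matrix.mul_assoc, ← Matrix.mul_assoc _ (low n K j), low_conjTranspose_mul, dN, diagonal_mul_diagonal,
      ← aprp_trace]
    simp only [← Complex.ofReal_mul]
  rw [low_comm_pen, df, conjTranspose_sub, conjTranspose_smul, conjTranspose_smul, conjTranspose_mul, conjTranspose_mul,
    hρ.1.1.eq, Matrix.sub_mul, Matrix.smul_mul, Matrix.smul_mul, trace_sub, trace_smul, trace_smul, Complex.star_def,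
    Complex.conj_ofReal, Complex.conj_ofReal, smul_eq_mul, smul_eq_mul, Complex.sub_re, Complex.re_ofReal_mul,
    Complex.re_ofReal_mul, e1, e2, Finset.mul_sum, Finset.mul_sum, ← Finset.sum_sub_distrib]
  exact Finset.sum_congr rfl fun k _ => by ring

/-- the sum is `ev (m ↦ t (m+n) (m+1)^6 1[m<K] - (t+1) m^7)`, bounded above independently of `K`. -/
theorem pen_drift (n : ℕ) {t : ℝ} (ht : 0 < t) : ∃ C : ℝ, 0 ≤ C ∧ ∀ (K : ℕ) (ρ : Mt n K), Dens ρ →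
    ∑ j, ((df ρ t (low n K j))ᴴ * (low n K j * dN n K pen - dN n K pen * low n K j)).trace.re ≤ C := by
  refine ⟨(32 * t * (n + 6)) ^ 7 + 32 * t * (n + 6), by positivity, fun K ρ hρ => ?_⟩
  simp only [aprp_term hρ]
  rw [Finset.sum_comm]
  refine (Finset.sum_le_sum (g := fun k => ((32 * t * (n + 6)) ^ 7 + 32 * t * (n + 6)) * (ρ k k).re) fun k _ => ?_).trans ?_
  · rw [← Finset.sum_mul]
    refine mul_le_mul_of_nonneg_right (le_trans ?_ (aprp_poly n ht (tot k.1))) (aprp_nonneg hρ k)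
    have e : ∑ j, (k.1 j : ℝ) = tot k.1 := by rw [tot, Nat.cast_sum]
    rw [Finset.sum_sub_distrib, ← Finset.mul_sum, ← Finset.mul_sum, ← Finset.mul_sum, ← Finset.sum_mul, e, ← pow_succ']
    gcongr
    split_ifs
    · rw [Finset.sum_add_distrib, e]; simp
    · rw [Finset.sum_const_zero]; positivity
  · rw [← Finset.mul_sum, aprp_sum hρ, mul_one]

theorem penm_cs {n K : ℕ} {ρ : Mt n K} (hρ : ρ.PosSemidef) (j : Fin n) :
    ‖(ρ * (low n K j * dN n K (fun m => (m : ℝ) ^ 6))).trace‖ ^ 2 ≤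
      ev (fun m => ((m : ℝ) + 1) ^ 6) ρ * (7 * ev pen ρ) := by
  have hH : ∀ f : ℕ → ℝ, (dN n K f)ᴴ = dN n K f := fun f => by
    simp [dN, diagonal_conjTranspose, Pi.star_def]
  have hM : ∀ f g : ℕ → ℝ, dN n K f * dN n K g = dN n K fun m => f m * g m := fun f g => by
    simp [dN, diagonal_mul_diagonal]
  have h1 := cs_state hρ (dN n K fun m => ((m : ℝ) + 1) ^ 3) (low n K j * dN n K fun m => (m : ℝ) ^ 3)
  have e1 : (dN n K fun m => ((m : ℝ) + 1) ^ 3) * (low n K j * dN n K fun m => (m : ℝ) ^ 3) =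
      low n K j * dN n K (fun m => (m : ℝ) ^ 6) := by
    have := low_mul_dN n K j fun m => (m : ℝ) ^ 3
    push_cast at this
    rw [← Matrix.mul_assoc, ← this, Matrix.mul_assoc, hM]
    congr 2
    funext m
    ring
  rw [hH, e1, hM, ev_eq_trace] at h1
  have e2 : (fun m : ℕ => ((m : ℝ) + 1) ^ 3 * ((m : ℝ) + 1) ^ 3) = fun m : ℕ => ((m : ℝ) + 1) ^ 6 := by
    funext m
    ring
  have hd : ∀ k, 0 ≤ (ρ k k).re := fun k => (Complex.le_def.1 (hρ.diag_nonneg (i := k))).1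
  rw [e2] at h1
  refine h1.trans (mul_le_mul_of_nonneg_left ?_ (Finset.sum_nonneg fun k _ => mul_nonneg (by positivity) (hd k)))
  rw [conjTranspose_mul, hH, Matrix.mul_assoc, ← Matrix.mul_assoc (low n K j)ᴴ, low_conjTranspose_mul, dN,
    diagonal_mul_diagonal, diagonal_mul_diagonal, trace, Complex.re_sum, ev, Finset.mul_sum]
  refine Finset.sum_le_sum fun k _ => ?_
  rw [diag_apply, mul_diagonal, ← Complex.ofReal_mul, ← Complex.ofReal_mul, Complex.re_mul_ofReal, mul_comm, ← mul_assoc 7]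
  refine mul_le_mul_of_nonneg_right (le_trans ?_ (pen_ge _)) (hd k)
  have h2 : (k.1 j : ℝ) ≤ tot k.1 := by exact_mod_cast bsl_le k.1 j
  calc (tot k.1 : ℝ) ^ 3 * (k.1 j * (tot k.1 : ℝ) ^ 3) ≤ (tot k.1 : ℝ) ^ 3 * (tot k.1 * (tot k.1 : ℝ) ^ 3) := by gcongr
    _ = _ := by ring

theorem penm_pow {M : ℝ} (hM : 1 ≤ M) (m : ℕ) : ((m : ℝ) + 1) ^ 6 ≤ 448 / M * pen m + (M + 1) ^ 6 := by
  have h1 := pen_ge m
  have h0 : (0 : ℝ) ≤ (m : ℝ) ^ 7 := by positivity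
  rcases le_total (m : ℝ) M with h | h
  · have : ((m : ℝ) + 1) ^ 6 ≤ (M + 1) ^ 6 := by gcongr
    have : 0 ≤ 448 / M * pen m := mul_nonneg (by positivity) (by linarith)
    linarith
  · have h2 : ((m : ℝ) + 1) ^ 6 ≤ (2 * m) ^ 6 := by gcongr; linarith
    have h3 : (2 * (m : ℝ)) ^ 6 ≤ 448 / M * pen m := by
      rw [div_mul_eq_mul_div, le_div_iff₀ (by positivity)]
      calc (2 * (m : ℝ)) ^ 6 * M ≤ (2 * (m : ℝ)) ^ 6 * m := by gcongr
        _ = 64 * (m : ℝ) ^ 7 := by ring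
        _ ≤ _ := by linarith
    have : 0 ≤ (M + 1) ^ 6 := by positivity
    linarith

/-- `a N^6 = (N+1)^3 · a N^3`, `cs_state`, `N^7 ≤ 7 pen`, `(m+1)^6 ≤ η' pen m + C(η')`. -/
theorem pen_mean {C δ : ℝ} (hC : 0 < C) (hδ : 0 < δ) : ∃ ε₀ : ℝ, 0 < ε₀ ∧ ∀ ε : ℝ, 0 ≤ ε → ε ≤ ε₀ →
    ∀ (n K : ℕ) (ρ : Mt n K), Dens ρ → ε * ev pen ρ ≤ C → ∀ j,
      ε * ‖(ρ * (low n K j * dN n K pen - dN n K pen * low n K j)).trace‖ ≤ δ := by
  set M : ℝ := 1 + 448 * 14 * C ^ 2 / δ ^ 2 with hM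
  have hM0 : 0 ≤ 448 * 14 * C ^ 2 / δ ^ 2 := by positivity
  have hM1 : 1 ≤ M := by linarith
  refine ⟨δ ^ 2 / (14 * C * (M + 1) ^ 6), by positivity, fun ε h0 h1 n K ρ hρ hP j => ?_⟩
  rw [low_comm_pen]
  have h2 := penm_cs hρ.1 j
  have h3 : ev (fun m => ((m : ℝ) + 1) ^ 6) ρ ≤ 448 / M * ev pen ρ + (M + 1) ^ 6 := by
    refine (ev_mono (fun m _ => penm_pow hM1 m) hρ.1).trans (le_of_eq ?_)
    have := ev_const ((M + 1) ^ 6) ρ
    rw [hρ.2, Complex.one_re, mul_one] at this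
    simp only [ev, add_mul, Finset.sum_add_distrib, Finset.mul_sum, mul_assoc] at this ⊢
    rw [this]
  have h4 : 0 ≤ ev pen ρ := by
    have := ev_mono (f := fun _ => 0) (g := pen) (fun m _ => by
      have := pen_ge m
      have : (0 : ℝ) ≤ (m : ℝ) ^ 7 := by positivity
      linarith) hρ.1
    rwa [ev_const, zero_mul] at this
  refine (pow_le_pow_iff_left₀ (by positivity) hδ.le two_ne_zero).1 ?_
  have h5 : 448 / M * C * (7 * C) ≤ δ ^ 2 / 2 := by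
    rw [div_mul_eq_mul_div, div_mul_eq_mul_div, div_le_iff₀ (by positivity), hM]
    have : δ ^ 2 / 2 * (448 * 14 * C ^ 2 / δ ^ 2) = 448 * C * (7 * C) := by field_simp; ring
    nlinarith [sq_nonneg δ]
  have h6 : ε * (M + 1) ^ 6 * (7 * C) ≤ δ ^ 2 / 2 := by
    rw [le_div_iff₀ (by positivity)] at h1
    linarith
  calc (ε * ‖(ρ * (low n K j * dN n K fun m => (m : ℝ) ^ 6)).trace‖) ^ 2
      ≤ ε ^ 2 * ((448 / M * ev pen ρ + (M + 1) ^ 6) * (7 * ev pen ρ)) := by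
        rw [mul_pow]
        gcongr
        exact h2.trans (by gcongr)
    _ = (448 / M * (ε * ev pen ρ) + ε * (M + 1) ^ 6) * (7 * (ε * ev pen ρ)) := by ring
    _ ≤ (448 / M * C + ε * (M + 1) ^ 6) * (7 * C) := by gcongr
    _ ≤ δ ^ 2 := by linarith

/-- the eigenvalues of `σ` lie in `[θ, 2]`. -/
theorem bd_mlog_sig {η : ℝ} (h0 : 0 ≤ η) (h1 : η ≤ 1) {n K : ℕ} {L : ℝ} (hL : 1 ≤ L)
    (hc : Real.exp (-L) * Fintype.card (Bl n (2 * K)) ≤ 1) {ρA ρB : Mt n K} (hA : Dens ρA)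
    (hB : Dens ρB) : Bd (mlog (sig η (Real.exp (-L)) ρA ρB)) L := by
  have hP := out_posSemidef (bsU η n K) hA.1 hB.1
  obtain ⟨V, l, h⟩ := exists_isDiag hP.1
  have hs : ∑ i, l i = 1 := by rw [← h.trace_re, trace_out (bs_iso h0 h1 n K), hA.2, hB.2]; simp
  have h2 := h.add_smul_one (Real.exp (-L))
  rw [add_comm] at h2
  refine Bd.of_isDiag (isDiag_mlog h2) fun i => abs_le.2 ⟨?_, ?_⟩
  · exact (Real.le_log_iff_exp_le (by linarith [h.nonneg hP i, Real.exp_pos (-L)])).2 (by linarith [h.nonneg hP i])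
  · linarith [Real.log_le_sub_one_of_pos (show 0 < Real.exp (-L) + l i by linarith [h.nonneg hP i, Real.exp_pos (-L)]),
      Finset.single_le_sum (fun j _ => h.nonneg hP j) (Finset.mem_univ i), Real.exp_le_one_iff.2 (show -L ≤ 0 by linarith)]

theorem sig_posDef (η : ℝ) {θ : ℝ} (hθ : 0 < θ) {n K : ℕ} {ρA ρB : Mt n K} (hA : Dens ρA)
    (hB : Dens ρB) : (sig η θ ρA ρB).PosDef := by
  exact apr_sig_posDef η hθ hA hB

theorem trace_sig {η : ℝ} (h0 : 0 ≤ η) (h1 : η ≤ 1) (θ : ℝ) {n K : ℕ} {ρA ρB : Mt n K}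
    (hA : Dens ρA) (hB : Dens ρB) :
    (sig η θ ρA ρB).trace.re = 1 + θ * Fintype.card (Bl n (2 * K)) := by
  exact apr_trace_sig h0 h1 θ hA hB

theorem en_sig (η θ : ℝ) (hθ : 0 ≤ θ) {n K : ℕ} (ρA ρB : Mt n K) :
    en (out (bsU η n K) ρA ρB) ≤ en (sig η θ ρA ρB) ∧
      en (sig η θ ρA ρB) ≤ en (out (bsU η n K) ρA ρB) + θ * Fintype.card (Bl n (2 * K)) * (2 * K) := by
  exact apr_en_sig η θ hθ ρA ρB

/-- `poly(K) e^{-K} → 0` -/
theorem tendsto_card_exp (n m : ℕ) : Filter.Tendsto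
    (fun K : ℕ => Real.exp (-(K : ℝ)) * Fintype.card (Bl n (2 * K)) * ((K : ℝ) + 1) ^ m)
    Filter.atTop (nhds 0) := by
  have h := ((Real.tendsto_pow_mul_exp_neg_atTop_nhds_zero (n + m)).comp
    (Filter.tendsto_atTop_add_const_right _ 1 tendsto_natCast_atTop_atTop)).const_mul (2 ^ n * Real.exp 1)
  rw [mul_zero] at h
  refine squeeze_zero (fun K => by positivity) (fun K => ?_) h
  have h1 : (Fintype.card (Bl n (2 * K)) : ℝ) ≤ (2 * ((K : ℝ) + 1)) ^ n :=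
    (Nat.cast_le.2 (card_Bl_le n _)).trans (by push_cast; gcongr; linarith)
  have h2 : Real.exp (-(K : ℝ)) = Real.exp 1 * Real.exp (-((K : ℝ) + 1)) := by rw [← Real.exp_add]; congr 1; ring
  calc _ ≤ Real.exp (-(K : ℝ)) * (2 * ((K : ℝ) + 1)) ^ n * ((K : ℝ) + 1) ^ m := by gcongr
    _ = _ := by rw [h2, mul_pow, Function.comp_apply, pow_add]; ring

end Crest.Agent.R331

end
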