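import Crest.Agent.R331.I.Pad
import Crest.Agent.R331.Out.Amp

/-!
Row 331, block BS: raising and lowering identities of the beam-splitter amplitudes (helper99).
-/

set_option autoImplicit false

noncomputable section

namespace Crest.Agent.R331

open Matrix Crest.MathPhysics.Bosonic Crest.Agent.Lib.QEnt Crest.Agent.R331.Out
open scoped ComplexOrder Kronecker

theorem bsa_zero (α β : ℝ) {k l p : ℕ} (h : k + l < p) : ampa_c α β k l p = 0 :=
  Finset.sum_eq_zero fun i hi => if_neg (by rw [Finset.mem_range] at hi; omega)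

open Polynomial in
theorem bsa_coeff (α β : ℝ) (k l p : ℕ) :
    ampa_c α β k l p = ((C α * X - C β) ^ k * (C β * X + C α) ^ l).coeff p := by
  have h : ((C α * X - C β) ^ k * (C β * X + C α) ^ l : ℝ[X]) =
      ∑ p ∈ Finset.range (k + l + 1), monomial p (ampa_c α β k l p) :=
    Polynomial.funext fun x => by simpa [eval_finsetSum] using ampa_hom α β x 1 k l
  rw [h, finsetSum_coeff]
  simp only [coeff_monomial, Finset.sum_ite_eq', Finset.mem_range]
  split_ifs with hp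
  · rfl
  · exact bsa_zero α β (by omega)

open Polynomial in
theorem bsa_lin (a b : ℝ) (P : ℝ[X]) (p : ℕ) :
    ((C a * X + C b) * P).coeff p = a * (if p = 0 then 0 else P.coeff (p - 1)) + b * P.coeff p := by
  rw [add_mul, coeff_add, mul_assoc, coeff_C_mul, coeff_C_mul]
  cases p <;> simp [coeff_X_mul]

open Polynomial in
theorem bsa_succA (α β : ℝ) (k l p : ℕ) : ampa_c α β (k + 1) l p =
    α * (if p = 0 then 0 else ampa_c α β k l (p - 1)) + -β * ampa_c α β k l p := by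
  simp only [bsa_coeff]
  rw [← bsa_lin]; congr 1
  rw [C_neg]; ring

open Polynomial in
theorem bsa_succB (α β : ℝ) (k l p : ℕ) : ampa_c α β k (l + 1) p =
    β * (if p = 0 then 0 else ampa_c α β k l (p - 1)) + α * ampa_c α β k l p := by
  simp only [bsa_coeff]
  rw [← bsa_lin]; congr 1
  ring

/-- `√(n!)` -/
def bsaF (n : ℕ) : ℝ := Real.sqrt (n.factorial : ℝ)

theorem bsaF_pos (n : ℕ) : 0 < bsaF n := Real.sqrt_pos.2 (by exact_mod_cast n.factorial_pos)

theorem bsaF_succ (n : ℕ) : bsaF (n + 1) = Real.sqrt ((n + 1 : ℕ) : ℝ) * bsaF n := by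
  rw [bsaF, Nat.factorial_succ, Nat.cast_mul, Real.sqrt_mul (Nat.cast_nonneg _), bsaF]

theorem bsaF_sq (n : ℕ) : bsaF n * bsaF n = n.factorial := Real.mul_self_sqrt (Nat.cast_nonneg _)

/-- the amplitude for general coefficients -/
def bsaA (α β : ℝ) (k l p q : ℕ) : ℝ :=
  if p + q = k + l then bsaF p * bsaF q / (bsaF k * bsaF l) * ampa_c α β k l p else 0

theorem bsaA_eq (η : ℝ) (k l p q : ℕ) : bsAmp η k l p q = bsaA (Real.sqrt η) (Real.sqrt (1 - η)) k l p q := by
  unfold bsAmp bsaA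
  split_ifs
  · rw [Real.sqrt_div (Nat.cast_nonneg _), Nat.cast_mul, Nat.cast_mul, Real.sqrt_mul (Nat.cast_nonneg _),
      Real.sqrt_mul (Nat.cast_nonneg _)]
    rfl
  · rfl

theorem bsaA_symm (α β : ℝ) (k l p q : ℕ) : bsaA α β k l p q = bsaA α (-β) p q k l := by
  unfold bsaA
  by_cases h : p + q = k + l
  · rw [if_pos h, if_pos h.symm]
    have h1 := ampa_symm' α β (m := k + l) (b := k) (p := p) (by omega) (by omega)
    rw [show k + l - p = q by omega, show k + l - k = l by omega, Nat.cast_mul, Nat.cast_mul, ← bsaF_sq, ← bsaF_sq,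
      ← bsaF_sq, ← bsaF_sq] at h1
    have := bsaF_pos p
    have := bsaF_pos q
    have := bsaF_pos k
    have := bsaF_pos l
    field_simp
    linear_combination h1
  · rw [if_neg h, if_neg fun e => h e.symm]

theorem bsa_up (a b α β : ℝ) (k l p q : ℕ) (h : p + q = k + l + 1) :
    bsaF p * bsaF q / (bsaF k * bsaF l) *
        (a * (if p = 0 then 0 else ampa_c α β k l (p - 1)) + b * ampa_c α β k l p) =
      a * (Real.sqrt p * bsaA α β k l (p - 1) q) + b * (Real.sqrt q * bsaA α β k l p (q - 1)) := by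
  rw [mul_add]
  congr 1
  · cases p with
    | zero => simp
    | succ p =>
      rw [bsaA, if_neg (by omega), Nat.add_sub_cancel, if_pos (by omega), bsaF_succ]; ring
  · cases q with
    | zero => rw [bsa_zero α β (by omega)]; simp
    | succ q =>
      rw [bsaA, Nat.add_sub_cancel, if_pos (by omega), bsaF_succ]; ring

theorem bsa_up0 (a b α β : ℝ) (k l p q : ℕ) (h : p + q ≠ k + l + 1) :
    a * (Real.sqrt p * bsaA α β k l (p - 1) q) + b * (Real.sqrt q * bsaA α β k l p (q - 1)) = 0 := by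
  have h1 : Real.sqrt p * bsaA α β k l (p - 1) q = 0 := by
    cases p with
    | zero => simp
    | succ p => rw [bsaA, if_neg (by omega), mul_zero]
  have h2 : Real.sqrt q * bsaA α β k l p (q - 1) = 0 := by
    cases q with
    | zero => simp
    | succ q => rw [bsaA, if_neg (by omega), mul_zero]
  rw [h1, h2]; simp

theorem bsa_upA (α β : ℝ) (k l p q : ℕ) : Real.sqrt ((k + 1 : ℕ) : ℝ) * bsaA α β (k + 1) l p q =
    α * (Real.sqrt p * bsaA α β k l (p - 1) q) + -β * (Real.sqrt q * bsaA α β k l p (q - 1)) := by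
  by_cases h : p + q = k + l + 1
  · rw [← bsa_up _ _ _ _ _ _ _ _ h, ← bsa_succA, bsaA, if_pos (by omega), bsaF_succ]
    have : 0 < Real.sqrt ((k + 1 : ℕ) : ℝ) := by positivity
    have := bsaF_pos k
    have := bsaF_pos l
    field_simp
  · rw [bsa_up0 _ _ _ _ _ _ _ _ h, bsaA, if_neg (by omega), mul_zero]

theorem bsa_upB (α β : ℝ) (k l p q : ℕ) : Real.sqrt ((l + 1 : ℕ) : ℝ) * bsaA α β k (l + 1) p q =
    β * (Real.sqrt p * bsaA α β k l (p - 1) q) + α * (Real.sqrt q * bsaA α β k l p (q - 1)) := by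
  by_cases h : p + q = k + l + 1
  · rw [← bsa_up _ _ _ _ _ _ _ _ h, ← bsa_succB, bsaA, if_pos (by omega), bsaF_succ]
    have : 0 < Real.sqrt ((l + 1 : ℕ) : ℝ) := by positivity
    have := bsaF_pos k
    have := bsaF_pos l
    field_simp
  · rw [bsa_up0 _ _ _ _ _ _ _ _ h, bsaA, if_neg (by omega), mul_zero]

theorem bsa_lowA {α β : ℝ} (h : α ^ 2 + β ^ 2 = 1) (k l p q : ℕ) : Real.sqrt k * bsaA α β (k - 1) l p q =
    α * (Real.sqrt ((p + 1 : ℕ) : ℝ) * bsaA α β k l (p + 1) q) -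
      β * (Real.sqrt ((q + 1 : ℕ) : ℝ) * bsaA α β k l p (q + 1)) := by
  rw [bsaA_symm α β k, bsaA_symm α β k, bsa_upA, bsa_upB, bsaA_symm]
  linear_combination (-(Real.sqrt k * bsaA α (-β) p q (k - 1) l)) * h

theorem bsa_lowB {α β : ℝ} (h : α ^ 2 + β ^ 2 = 1) (k l p q : ℕ) : Real.sqrt l * bsaA α β k (l - 1) p q =
    β * (Real.sqrt ((p + 1 : ℕ) : ℝ) * bsaA α β k l (p + 1) q) +
      α * (Real.sqrt ((q + 1 : ℕ) : ℝ) * bsaA α β k l p (q + 1)) := by
  rw [bsaA_symm α β k l, bsaA_symm α β k l, bsa_upA, bsa_upB, bsaA_symm]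
  linear_combination (-(Real.sqrt l * bsaA α (-β) p q k (l - 1))) * h

/-! ### `n` modes -/

variable {n : ℕ}

theorem bsa_occ (η : ℝ) (j : Fin n) (a b p q : Occ n) {a' b' p' q' : Occ n}
    (h : ∀ i, i ≠ j → a' i = a i ∧ b' i = b i ∧ p' i = p i ∧ q' i = q i) :
    ampOcc η a' b' p' q' = bsaA (Real.sqrt η) (Real.sqrt (1 - η)) (a' j) (b' j) (p' j) (q' j) *
      ∏ i ∈ Finset.univ.erase j, bsAmp η (a i) (b i) (p i) (q i) := by
  rw [ampOcc, ← Finset.mul_prod_erase _ _ (Finset.mem_univ j), bsaA_eq]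
  congr 1
  refine Finset.prod_congr rfl fun i hi => ?_
  obtain ⟨h1, h2, h3, h4⟩ := h i (Finset.ne_of_mem_erase hi)
  rw [h1, h2, h3, h4]

theorem bsa_occ_upA (η : ℝ) (j : Fin n) (a b p q : Occ n) :
    Real.sqrt ((a j + 1 : ℕ) : ℝ) * ampOcc η (a + Pi.single j 1) b p q =
      Real.sqrt η * (Real.sqrt (p j) * ampOcc η a b (p - Pi.single j 1) q) -
        Real.sqrt (1 - η) * (Real.sqrt (q j) * ampOcc η a b p (q - Pi.single j 1)) := by
  rw [bsa_occ η j a b p q (fun i hi => by simp [hi]), bsa_occ η j a b p q (fun i hi => by simp [hi]),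
    bsa_occ η j a b p q (q' := q - Pi.single j 1) (fun i hi => by simp [hi])]
  simp only [Pi.add_apply, Pi.sub_apply, Pi.single_eq_same]
  rw [← mul_assoc, bsa_upA]; ring

theorem bsa_occ_upB (η : ℝ) (j : Fin n) (a b p q : Occ n) :
    Real.sqrt ((b j + 1 : ℕ) : ℝ) * ampOcc η a (b + Pi.single j 1) p q =
      Real.sqrt (1 - η) * (Real.sqrt (p j) * ampOcc η a b (p - Pi.single j 1) q) +
        Real.sqrt η * (Real.sqrt (q j) * ampOcc η a b p (q - Pi.single j 1)) := by
  rw [bsa_occ η j a b p q (fun i hi => by simp [hi]), bsa_occ η j a b p q (fun i hi => by simp [hi]),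
    bsa_occ η j a b p q (q' := q - Pi.single j 1) (fun i hi => by simp [hi])]
  simp only [Pi.add_apply, Pi.sub_apply, Pi.single_eq_same]
  rw [← mul_assoc, bsa_upB]; ring

theorem bsa_sq {η : ℝ} (h0 : 0 ≤ η) (h1 : η ≤ 1) : Real.sqrt η ^ 2 + Real.sqrt (1 - η) ^ 2 = 1 := by
  rw [Real.sq_sqrt h0, Real.sq_sqrt (sub_nonneg.2 h1)]; ring

theorem bsa_occ_lowA {η : ℝ} (h0 : 0 ≤ η) (h1 : η ≤ 1) (j : Fin n) (a b p q : Occ n) :
    Real.sqrt (a j) * ampOcc η (a - Pi.single j 1) b p q =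
      Real.sqrt η * (Real.sqrt ((p j + 1 : ℕ) : ℝ) * ampOcc η a b (p + Pi.single j 1) q) -
        Real.sqrt (1 - η) * (Real.sqrt ((q j + 1 : ℕ) : ℝ) * ampOcc η a b p (q + Pi.single j 1)) := by
  rw [bsa_occ η j a b p q (fun i hi => by simp [hi]), bsa_occ η j a b p q (fun i hi => by simp [hi]),
    bsa_occ η j a b p q (q' := q + Pi.single j 1) (fun i hi => by simp [hi])]
  simp only [Pi.add_apply, Pi.sub_apply, Pi.single_eq_same]
  rw [← mul_assoc, bsa_lowA (bsa_sq h0 h1)]; ring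

theorem bsa_occ_lowB {η : ℝ} (h0 : 0 ≤ η) (h1 : η ≤ 1) (j : Fin n) (a b p q : Occ n) :
    Real.sqrt (b j) * ampOcc η a (b - Pi.single j 1) p q =
      Real.sqrt (1 - η) * (Real.sqrt ((p j + 1 : ℕ) : ℝ) * ampOcc η a b (p + Pi.single j 1) q) +
        Real.sqrt η * (Real.sqrt ((q j + 1 : ℕ) : ℝ) * ampOcc η a b p (q + Pi.single j 1)) := by
  rw [bsa_occ η j a b p q (fun i hi => by simp [hi]), bsa_occ η j a b p q (fun i hi => by simp [hi]),
    bsa_occ η j a b p q (q' := q + Pi.single j 1) (fun i hi => by simp [hi])]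
  simp only [Pi.add_apply, Pi.sub_apply, Pi.single_eq_same]
  rw [← mul_assoc, bsa_lowB (bsa_sq h0 h1)]; ring

theorem bsa_tot (k : Occ n) (j : Fin n) : tot (k + Pi.single j 1) = tot k + 1 := by
  simp [tot, Finset.sum_add_distrib]

theorem bsa_dn {K : ℕ} (j : Fin n) (a : Bl n K) (F : Occ n → ℝ) :
    ∑ a' : Bl n K, low n K j a' a * (F a'.1 : ℂ) = ((Real.sqrt (a.1 j) * F (a.1 - Pi.single j 1) : ℝ) : ℂ) := by
  by_cases h0 : a.1 j = 0
  · simp [low, h0]
  have e : a.1 = (a.1 - Pi.single j 1) + Pi.single j 1 := by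
    funext i
    by_cases hi : i = j
    · subst hi
      simp only [Pi.add_apply, Pi.sub_apply, Pi.single_eq_same]
      omega
    · simp [Pi.single_eq_of_ne hi]
  have hm : tot (a.1 - Pi.single j 1) ≤ K := by
    have h1 := bsa_tot (a.1 - Pi.single j 1) j
    rw [← e] at h1
    have := a.2
    omega
  rw [Finset.sum_eq_single ⟨_, hm⟩ (fun m _ hm' => ?_) (by simp)]
  · simp only [low, of_apply, ← e, if_true, Complex.ofReal_mul]
  · have : low n K j m a = 0 := if_neg fun h => hm' (Subtype.ext (add_right_cancel (h.symm.trans e)))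
    rw [this, zero_mul]

theorem bsa_upv {K : ℕ} (j : Fin n) (a : Bl n K) (F : Occ n → ℝ) :
    ∑ a' : Bl n K, low n K j a a' * (F a'.1 : ℂ) =
      if tot a.1 = K then 0 else ((Real.sqrt ((a.1 j + 1 : ℕ) : ℝ) * F (a.1 + Pi.single j 1) : ℝ) : ℂ) := by
  have h2 := a.2
  split_ifs with h0
  · refine Finset.sum_eq_zero fun m _ => ?_
    have : low n K j a m = 0 := if_neg fun h => by
      have h1 := bsa_tot a.1 j
      rw [← h] at h1
      have := m.2
      omega
    rw [this, zero_mul]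
  · have hm : tot (a.1 + Pi.single j 1) ≤ K := by
      rw [bsa_tot]
      omega
    rw [Finset.sum_eq_single ⟨_, hm⟩ (fun m _ hm' => ?_) (by simp)]
    · simp [low]
    · have : low n K j a m = 0 := if_neg fun h => hm' (Subtype.ext h)
      rw [this, zero_mul]

section kron
variable {α β γ : Type*} [Fintype α] [Fintype β] [DecidableEq α] [DecidableEq β]

omit [DecidableEq α] in
theorem bsa_k1 (U : Matrix γ (α × β) ℂ) (A : Matrix α α ℂ) (x : γ) (a : α) (b : β) :
    (U * (A ⊗ₖ (1 : Matrix β β ℂ))) x (a, b) = ∑ a', A a' a * U x (a', b) := by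
  simp [Matrix.mul_apply, Fintype.sum_prod_type, one_apply, mul_comm]

omit [DecidableEq β] in
theorem bsa_k2 (U : Matrix γ (α × β) ℂ) (B : Matrix β β ℂ) (x : γ) (a : α) (b : β) :
    (U * ((1 : Matrix α α ℂ) ⊗ₖ B)) x (a, b) = ∑ b', B b' b * U x (a, b') := by
  rw [Matrix.mul_apply, Fintype.sum_prod_type, Finset.sum_comm]
  simp [one_apply, mul_comm]

omit [DecidableEq α] in
theorem bsa_k3 (U : Matrix (α × β) γ ℂ) (A : Matrix α α ℂ) (x : γ) (a : α) (b : β) :
    ((A ⊗ₖ (1 : Matrix β β ℂ)) * U) (a, b) x = ∑ a', A a a' * U (a', b) x := by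
  simp [Matrix.mul_apply, Fintype.sum_prod_type, one_apply]

omit [DecidableEq β] in
theorem bsa_k4 (U : Matrix (α × β) γ ℂ) (B : Matrix β β ℂ) (x : γ) (a : α) (b : β) :
    (((1 : Matrix α α ℂ) ⊗ₖ B) * U) (a, b) x = ∑ b', B b b' * U (a, b') x := by
  rw [Matrix.mul_apply, Fintype.sum_prod_type, Finset.sum_comm]
  simp [one_apply]

end kron

theorem bsa_ct (n K : ℕ) (j : Fin n) (k l : Bl n K) : (low n K j)ᴴ k l = low n K j l k := by
  simp only [conjTranspose_apply, low, of_apply]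
  split_ifs <;> simp

theorem bsa_top {K : ℕ} (η : ℝ) (j : Fin n) (a b : Bl n K) (p q : Bl n (2 * K)) :
    (∑ p', low n (2 * K) j p p' * (ampOcc η a.1 b.1 p'.1 q.1 : ℂ) =
      ((Real.sqrt ((p.1 j + 1 : ℕ) : ℝ) * ampOcc η a.1 b.1 (p.1 + Pi.single j 1) q.1 : ℝ) : ℂ)) ∧
    ∑ q', low n (2 * K) j q q' * (ampOcc η a.1 b.1 p.1 q'.1 : ℂ) =
      ((Real.sqrt ((q.1 j + 1 : ℕ) : ℝ) * ampOcc η a.1 b.1 p.1 (q.1 + Pi.single j 1) : ℝ) : ℂ) := by
  have ha := a.2
  have hb := b.2
  constructor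
  · rw [bsa_upv j p fun x => ampOcc η a.1 b.1 x q.1]
    split_ifs with h
    · rw [show ampOcc η a.1 b.1 (p.1 + Pi.single j 1) q.1 = 0 from by_contra fun h' => by
        have := padM_tot h'
        rw [bsa_tot] at this
        omega]
      simp
    · rfl
  · rw [bsa_upv j q fun x => ampOcc η a.1 b.1 p.1 x]
    split_ifs with h
    · rw [show ampOcc η a.1 b.1 p.1 (q.1 + Pi.single j 1) = 0 from by_contra fun h' => by
        have := padM_tot h'
        rw [bsa_tot] at this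
        omega]
      simp
    · rfl

theorem bsa_diag {K : ℕ} : (1 : Mt n K) - topQ n K = diagonal fun k => if tot k.1 = K then 0 else 1 := by
  rw [topQ, dN, ← diagonal_one, diagonal_sub]
  congr 1
  funext k
  split_ifs <;> simp

/-- the inclusion of a ball in a box -/
def bsaB (K : ℕ) (k : Bl n K) : Box n K := toBox K k.1 fun j =>
  (Finset.single_le_sum (f := k.1) (fun _ _ => Nat.zero_le _) (Finset.mem_univ j)).trans k.2

theorem bsaB_inj (K : ℕ) : Function.Injective (bsaB (n := n) K) := fun _ _ h => Subtype.ext (congrArg emb h)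

theorem bsa_sum {L : ℕ} (F : Occ n → ℝ) (h : ∀ k, L < tot k → F k = 0) :
    ∑ k : Bl n L, F k.1 = ∑ k : Box n L, F (emb k) :=
  Fintype.sum_of_injective (bsaB L) (bsaB_inj L) _ _
    (fun k hk => h _ (lt_of_not_ge fun h' => hk ⟨⟨emb k, h'⟩, rfl⟩)) fun _ => rfl

theorem bsa_iso {η : ℝ} (h0 : 0 ≤ η) (h1 : η ≤ 1) (n K : ℕ) : (bsU η n K)ᴴ * bsU η n K = 1 := by
  ext ⟨a, b⟩ ⟨a', b'⟩
  have h := bsAmpN_orth (η := η) ⟨h0, h1⟩ (bsaB K a) (bsaB K b) (bsaB K a') (bsaB K b')
  have ha := a.2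
  have hb := b.2
  have e : ∑ p : Bl n (2 * K), ∑ q : Bl n (2 * K), ampOcc η a.1 b.1 p.1 q.1 * ampOcc η a'.1 b'.1 p.1 q.1 =
      ∑ p : Box n (2 * K), ∑ q : Box n (2 * K),
        ampOcc η a.1 b.1 (emb p) (emb q) * ampOcc η a'.1 b'.1 (emb p) (emb q) := by
    rw [bsa_sum (fun p => ∑ q : Bl n (2 * K), ampOcc η a.1 b.1 p q.1 * ampOcc η a'.1 b'.1 p q.1) fun p hp =>
      Finset.sum_eq_zero fun q _ => mul_eq_zero_of_left (by_contra fun h' => by have := padM_tot h'; omega) _]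
    exact Finset.sum_congr rfl fun p _ =>
      bsa_sum (fun q => ampOcc η a.1 b.1 (emb p) q * ampOcc η a'.1 b'.1 (emb p) q) fun q hq =>
        mul_eq_zero_of_left (by_contra fun h' => by have := padM_tot h'; omega) _
  simp only [(bsaB_inj K).eq_iff] at h
  have h2 := congrArg (fun x : ℝ => (x : ℂ)) (e.trans h)
  simp only [Complex.ofReal_sum, Complex.ofReal_mul] at h2
  simp only [Matrix.mul_apply, Fintype.sum_prod_type, conjTranspose_apply, bsU, of_apply, Complex.star_def,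
    Complex.conj_ofReal, h2, one_apply, Prod.mk.injEq]
  split_ifs <;> simp

theorem bsa_BS {η : ℝ} (h0 : 0 ≤ η) (h1 : η ≤ 1) (n K : ℕ) (j : Fin n) :
    BS (bsU η n K) (low n K j) (topQ n K) (low n K j) (topQ n K) (low n (2 * K) j) (low n (2 * K) j)
      (Real.sqrt η) (Real.sqrt (1 - η)) := by
  have Qh : (topQ n K)ᴴ = topQ n K := by
    rw [topQ, dN, diagonal_conjTranspose]
    congr 1
    funext k
    simp
  have Qi : topQ n K * topQ n K = topQ n K := by
    rw [topQ, dN, diagonal_mul_diagonal]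
    congr 1
    funext k
    split_ifs <;> simp
  have Qa : topQ n K * low n K j = 0 := by
    ext k l
    rw [topQ, dN, diagonal_mul]
    simp only [low, of_apply, Matrix.zero_apply]
    split_ifs with h h'
    · have h3 := bsa_tot k.1 j
      have := l.2
      rw [← h'] at h3
      omega
    all_goals simp
  refine ⟨bsa_iso h0 h1 n K, bsa_sq h0 h1, ?_, ?_, ?_, ?_, Qh, Qi, Qa, Qh, Qi, Qa⟩
  · ext ⟨p, q⟩ ⟨a, b⟩
    rw [Matrix.sub_mul, Matrix.smul_mul, Matrix.smul_mul, Matrix.sub_apply, Matrix.smul_apply, Matrix.smul_apply,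
      bsa_k1, bsa_k3, bsa_k4]
    simp only [bsU, of_apply]
    rw [bsa_dn j a fun x => ampOcc η x b.1 p.1 q.1, (bsa_top η j a b p q).1, (bsa_top η j a b p q).2,
      bsa_occ_lowA h0 h1]
    simp
  · ext ⟨p, q⟩ ⟨a, b⟩
    rw [Matrix.add_mul, Matrix.smul_mul, Matrix.smul_mul, Matrix.add_apply, Matrix.smul_apply, Matrix.smul_apply,
      bsa_k2, bsa_k3, bsa_k4]
    simp only [bsU, of_apply]
    rw [bsa_dn j b fun x => ampOcc η a.1 x p.1 q.1, (bsa_top η j a b p q).1, (bsa_top η j a b p q).2,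
      bsa_occ_lowB h0 h1]
    simp
  · ext ⟨p, q⟩ ⟨a, b⟩
    rw [bsa_diag, ← diagonal_one (n := Bl n K), diagonal_kronecker_diagonal, mul_diagonal, diagonal_one,
      conjTranspose_sub, conjTranspose_smul, conjTranspose_smul, conjTranspose_kronecker, conjTranspose_kronecker,
      conjTranspose_one, Matrix.sub_mul, Matrix.smul_mul, Matrix.smul_mul, Matrix.sub_apply, Matrix.smul_apply,
      Matrix.smul_apply, bsa_k1, bsa_k3, bsa_k4]
    simp only [bsU, of_apply, bsa_ct]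
    rw [bsa_upv j a fun x => ampOcc η x b.1 p.1 q.1, bsa_dn j p fun x => ampOcc η a.1 b.1 x q.1,
      bsa_dn j q fun x => ampOcc η a.1 b.1 p.1 x, bsa_occ_upA]
    split_ifs <;> simp
  · ext ⟨p, q⟩ ⟨a, b⟩
    rw [bsa_diag, ← diagonal_one (n := Bl n K), diagonal_kronecker_diagonal, mul_diagonal, diagonal_one,
      conjTranspose_add, conjTranspose_smul, conjTranspose_smul, conjTranspose_kronecker, conjTranspose_kronecker,
      conjTranspose_one, Matrix.add_mul, Matrix.smul_mul, Matrix.smul_mul, Matrix.add_apply, Matrix.smul_apply,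
      Matrix.smul_apply, bsa_k2, bsa_k3, bsa_k4]
    simp only [bsU, of_apply, bsa_ct]
    rw [bsa_upv j b fun x => ampOcc η a.1 x p.1 q.1, bsa_dn j p fun x => ampOcc η a.1 b.1 x q.1,
      bsa_dn j q fun x => ampOcc η a.1 b.1 p.1 x, bsa_occ_upB]
    split_ifs <;> simp

end Crest.Agent.R331

end
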