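import Crest.Agent.R331.Lim.Emb

/-!
Row 331, block BS: padding between cut-offs (auxiliary lemmas for `I/BS`).
-/

set_option autoImplicit false

noncomputable section

namespace Crest.Agent.R331

open Matrix Crest.MathPhysics.Bosonic Crest.Agent.Lib.QEnt
open scoped ComplexOrder Kronecker

/-- the padding matrix (same as `padE`) -/
def padM (n K L : ℕ) : Matrix (Bl n L) (Bl n K) ℂ := Matrix.of fun l k => if l.1 = k.1 then 1 else 0

theorem padM_ct (n K L : ℕ) : (padM n K L)ᴴ = padM n L K := by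
  ext k l
  simp only [padM, conjTranspose_apply, of_apply, eq_comm (a := k.1)]
  split_ifs <;> simp

theorem padM_sum {n K : ℕ} (l : Occ n) (f : Bl n K → ℂ) :
    ∑ k : Bl n K, (if l = k.1 then (1 : ℂ) else 0) * f k = if h : tot l ≤ K then f ⟨l, h⟩ else 0 := by
  split_ifs with h
  · rw [Finset.sum_eq_single ⟨l, h⟩ (fun k _ hk => by rw [if_neg fun h' => hk (Subtype.ext h'.symm), zero_mul])
      (fun h' => absurd (Finset.mem_univ _) h'), if_pos rfl, one_mul]
  · exact Finset.sum_eq_zero fun k _ => by rw [if_neg fun h' => h (by rw [h']; exact k.2), zero_mul]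

theorem padM_mul_apply {n K L : ℕ} {γ : Type*} (M : Matrix (Bl n K) γ ℂ) (l : Bl n L) (c : γ) :
    (padM n K L * M) l c = if h : tot l.1 ≤ K then M ⟨l.1, h⟩ c else 0 :=
  padM_sum l.1 fun k => M k c

theorem mul_padM_apply {n K L : ℕ} {γ : Type*} (M : Matrix γ (Bl n K) ℂ) (c : γ) (l : Bl n L) :
    (M * padM n L K) c l = if h : tot l.1 ≤ K then M c ⟨l.1, h⟩ else 0 := by
  rw [← padM_sum l.1 fun k => M c k, Matrix.mul_apply]
  exact Finset.sum_congr rfl fun k _ => by simp only [padM, of_apply, eq_comm (a := k.1), mul_comm]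

theorem padM_rs {n K : ℕ} (L : ℕ) (ρ : Mt n K) : rs L ρ = padM n K L * ρ * padM n L K := by
  ext k l
  rw [mul_padM_apply]
  simp only [padM_mul_apply, rs, of_apply]
  by_cases h1 : tot k.1 ≤ K <;> by_cases h2 : tot l.1 ≤ K <;> simp [h1, h2]

theorem padM_iso {n K L : ℕ} (h : K ≤ L) : (padM n K L)ᴴ * padM n K L = 1 := by
  ext k k'
  rw [padM_ct, padM_mul_apply, dif_pos (k.2.trans h)]
  simp only [padM, of_apply, one_apply, Subtype.ext_iff]

theorem padM_sum_le {n K L : ℕ} (h : K ≤ L) {M : Type*} [AddCommMonoid M] (g : Bl n K → M) :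
    ∑ l : Bl n L, (if h : tot l.1 ≤ K then g ⟨l.1, h⟩ else 0) = ∑ k, g k := by
  refine (Fintype.sum_of_injective (fun k : Bl n K => (⟨k.1, k.2.trans h⟩ : Bl n L))
    (fun k k' hk => Subtype.ext (congrArg (fun x : Bl n L => x.1) hk)) _ _ (fun l hl => ?_) fun k => ?_).symm
  · exact dif_neg fun h' => hl ⟨⟨l.1, h'⟩, rfl⟩
  · rw [dif_pos k.2]

theorem padM_ev {n K L : ℕ} (h : K ≤ L) (f : ℕ → ℝ) (ρ : Mt n K) : ev f (rs L ρ) = ev f ρ := by
  unfold ev
  rw [← padM_sum_le h]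
  refine Finset.sum_congr rfl fun l _ => ?_
  by_cases h1 : tot l.1 ≤ K <;> simp [rs, h1]

theorem padM_dens {n K L : ℕ} (h : K ≤ L) {ρ : Mt n K} (hρ : Dens ρ) : Dens (rs L ρ) := by
  rw [padM_rs, ← padM_ct n K L]
  refine ⟨hρ.1.mul_mul_conjTranspose_same _, ?_⟩
  rw [trace_mul_cycle, padM_iso h, Matrix.one_mul, hρ.2]

theorem padM_tot {η : ℝ} {n : ℕ} {a b p q : Occ n} (h : ampOcc η a b p q ≠ 0) : tot p + tot q = tot a + tot b := by
  unfold tot
  rw [← Finset.sum_add_distrib, ← Finset.sum_add_distrib]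
  refine Finset.sum_congr rfl fun j _ => ?_
  have h1 := Finset.prod_ne_zero_iff.1 h j (Finset.mem_univ j)
  unfold bsAmp at h1
  by_contra h3
  exact h1 (if_neg h3)

theorem padM_bsU (η : ℝ) {n K L : ℕ} (h : K ≤ L) :
    bsU η n L * (padM n K L ⊗ₖ padM n K L) = (padM n (2 * K) (2 * L) ⊗ₖ padM n (2 * K) (2 * L)) * bsU η n K := by
  ext ⟨p, q⟩ ⟨a, b⟩
  have e1 : (bsU η n L * (padM n K L ⊗ₖ padM n K L)) (p, q) (a, b) = ((ampOcc η a.1 b.1 p.1 q.1 : ℝ) : ℂ) := by
    have h1 := padM_sum (K := L) a.1 fun a' =>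
      ∑ b' : Bl n L, (if b.1 = b'.1 then (1 : ℂ) else 0) * ((ampOcc η a'.1 b'.1 p.1 q.1 : ℝ) : ℂ)
    rw [dif_pos (a.2.trans h), padM_sum (K := L) b.1, dif_pos (b.2.trans h)] at h1
    rw [← h1, Matrix.mul_apply, Fintype.sum_prod_type]
    refine Finset.sum_congr rfl fun a' _ => ?_
    rw [Finset.mul_sum]
    refine Finset.sum_congr rfl fun b' _ => ?_
    simp only [bsU, padM, kroneckerMap_apply, of_apply, eq_comm (a := a.1), eq_comm (a := b.1)]
    ring
  have e2 : ((padM n (2 * K) (2 * L) ⊗ₖ padM n (2 * K) (2 * L)) * bsU η n K) (p, q) (a, b) =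
      if tot p.1 ≤ 2 * K then if tot q.1 ≤ 2 * K then ((ampOcc η a.1 b.1 p.1 q.1 : ℝ) : ℂ) else 0 else 0 := by
    have h1 := padM_sum (K := 2 * K) p.1 fun p' =>
      ∑ q' : Bl n (2 * K), (if q.1 = q'.1 then (1 : ℂ) else 0) * ((ampOcc η a.1 b.1 p'.1 q'.1 : ℝ) : ℂ)
    refine Eq.trans ?_ (h1.trans (by simp only [padM_sum (K := 2 * K) q.1]; rfl))
    rw [Matrix.mul_apply, Fintype.sum_prod_type]
    refine Finset.sum_congr rfl fun a' _ => ?_
    rw [Finset.mul_sum]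
    refine Finset.sum_congr rfl fun b' _ => ?_
    simp only [bsU, padM, kroneckerMap_apply, of_apply]
    ring
  rw [e1, e2]
  by_cases h0 : ampOcc η a.1 b.1 p.1 q.1 = 0
  · simp [h0]
  · have h1 := padM_tot h0
    have := a.2
    have := b.2
    rw [if_pos (by omega), if_pos (by omega)]

theorem padM_out (η : ℝ) {n K L : ℕ} (h : K ≤ L) (ρA ρB : Mt n K) :
    out (bsU η n L) (rs L ρA) (rs L ρB) = rs (2 * L) (out (bsU η n K) ρA ρB) := by
  rw [padM_rs, padM_rs, padM_rs, ← padM_ct n K L, ← padM_ct n (2 * K) (2 * L), out, out,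
    ← Lim.ptr2_pad _ _ (padM_iso (n := n) (by omega : 2 * K ≤ 2 * L))]
  congr 1
  rw [mul_kronecker_mul, mul_kronecker_mul, ← conjTranspose_kronecker]
  have h1 := padM_bsU η (n := n) h
  have h2 := congrArg conjTranspose h1
  rw [conjTranspose_mul, conjTranspose_mul] at h2
  calc bsU η n L * (padM n K L ⊗ₖ padM n K L * ρA ⊗ₖ ρB * (padM n K L ⊗ₖ padM n K L)ᴴ) * (bsU η n L)ᴴ
      = (bsU η n L * (padM n K L ⊗ₖ padM n K L)) * ρA ⊗ₖ ρB *
          ((padM n K L ⊗ₖ padM n K L)ᴴ * (bsU η n L)ᴴ) := by simp only [Matrix.mul_assoc]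
    _ = _ := by rw [h1, h2]; simp only [Matrix.mul_assoc]

end Crest.Agent.R331

end
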