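import Crest.Agent.R331.I.Ent
import Crest.Agent.R331.I.Pad
import Crest.Agent.R331.I.BSa

/-!
Row 331, block BS: the truncated beam splitter.  `bsAmp η k l p q` is `√(p!q!/(k!l!))` times the
coefficient of `x^p y^q` in `(√η x - √(1-η) y)^k (√(1-η) x + √η y)^l`; raising = multiplication by a
linear form, lowering = directional derivative; isometry by induction from the two (or from
`R331/Out`, `R331/F/Amp` if already there).
-/

set_option autoImplicit false

noncomputable section

namespace Crest.Agent.R331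

open Matrix Crest.MathPhysics.Bosonic Crest.Agent.Lib.QEnt
open scoped ComplexOrder Kronecker

theorem bs_iso {η : ℝ} (h0 : 0 ≤ η) (h1 : η ≤ 1) (n K : ℕ) : (bsU η n K)ᴴ * bsU η n K = 1 :=
  bsa_iso h0 h1 n K

theorem bs_BS {η : ℝ} (h0 : 0 ≤ η) (h1 : η ≤ 1) (n K : ℕ) (j : Fin n) :
    BS (bsU η n K) (low n K j) (topQ n K) (low n K j) (topQ n K) (low n (2 * K) j) (low n (2 * K) j)
      (Real.sqrt η) (Real.sqrt (1 - η)) :=
  bsa_BS h0 h1 n K j

theorem bsl_tot {n : ℕ} (k : Occ n) (j : Fin n) : tot (k + Pi.single j 1) = tot k + 1 := by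
  simp [tot, Finset.sum_add_distrib]

theorem bsl_le {n : ℕ} (k : Occ n) (j : Fin n) : k j ≤ tot k :=
  Finset.single_le_sum (f := k) (fun _ _ => Nat.zero_le _) (Finset.mem_univ j)

theorem bsl_sq (x : ℕ) : ((Real.sqrt x : ℝ) : ℂ) * ((Real.sqrt x : ℝ) : ℂ) = ((x : ℝ) : ℂ) := by
  rw [← Complex.ofReal_mul, Real.mul_self_sqrt (Nat.cast_nonneg x)]

theorem bsl_star (n K : ℕ) (j : Fin n) (k l : Bl n K) : star (low n K j k l) = low n K j k l := by
  simp only [low, of_apply]
  split_ifs <;> simp

theorem low_conjTranspose_mul (n K : ℕ) (j : Fin n) :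
    (low n K j)ᴴ * low n K j = diagonal fun k => ((k.1 j : ℝ) : ℂ) := by
  ext k l
  simp only [mul_apply, conjTranspose_apply, bsl_star]
  by_cases h0 : k.1 j = 0
  · rw [Finset.sum_eq_zero fun m _ => ?_]
    · rw [diagonal_apply]
      split_ifs
      · simp [h0]
      · rfl
    · simp [low, h0]
  · have e : k.1 = (k.1 - Pi.single j 1) + Pi.single j 1 := by
      funext i
      by_cases hi : i = j
      · subst hi
        simp only [Pi.add_apply, Pi.sub_apply, Pi.single_eq_same]
        omega
      · simp [Pi.single_eq_of_ne hi]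
    have hm : tot (k.1 - Pi.single j 1) ≤ K := by
      have h1 := bsl_tot (k.1 - Pi.single j 1) j
      rw [← e] at h1
      have := k.2
      omega
    rw [Finset.sum_eq_single ⟨_, hm⟩ (fun m _ hm' => ?_) (by simp)]
    · simp only [low, of_apply, ← e, if_true, diagonal_apply]
      by_cases hkl : k = l
      · subst hkl
        simp only [if_true, bsl_sq]
      · rw [if_neg fun h => hkl (Subtype.ext h.symm), if_neg hkl, mul_zero]
    · have : low n K j m k = 0 := if_neg fun h => hm' (Subtype.ext (add_right_cancel (h.symm.trans e)))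
      rw [this, zero_mul]

theorem low_mul_conjTranspose (n K : ℕ) (j : Fin n) :
    low n K j * (low n K j)ᴴ =
      diagonal fun k => ((if tot k.1 < K then (k.1 j : ℝ) + 1 else 0 : ℝ) : ℂ) := by
  ext k l
  simp only [mul_apply, conjTranspose_apply, bsl_star]
  by_cases h0 : tot k.1 < K
  · have hm : tot (k.1 + Pi.single j 1) ≤ K := by
      rw [bsl_tot]
      omega
    rw [Finset.sum_eq_single ⟨_, hm⟩ (fun m _ hm' => ?_) (by simp)]
    · simp only [low, of_apply, if_true, diagonal_apply, if_pos h0]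
      by_cases hkl : k = l
      · subst hkl
        simp only [if_true, bsl_sq]
        simp
      · rw [if_neg fun h => hkl (Subtype.ext (add_right_cancel h)), if_neg hkl, mul_zero]
    · have : low n K j k m = 0 := if_neg fun h => hm' (Subtype.ext h)
      rw [this, zero_mul]
  · rw [Finset.sum_eq_zero fun m _ => ?_]
    · rw [diagonal_apply]
      split_ifs
      · simp
      · rfl
    · have : low n K j k m = 0 := if_neg fun h => by
        have h1 := bsl_tot k.1 j
        rw [← h] at h1
        have := m.2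
        omega
      rw [this, zero_mul]

theorem low_mul_dN (n K : ℕ) (j : Fin n) (f : ℕ → ℝ) :
    low n K j * dN n K f = dN n K (fun m => f (m + 1)) * low n K j := by
  ext k l
  simp only [dN, mul_diagonal, diagonal_mul, low, of_apply]
  split_ifs with h
  · rw [h, bsl_tot, mul_comm]
  · simp

theorem low_comm_num (n K : ℕ) (j : Fin n) :
    low n K j * dN n K (fun m => (m : ℝ)) - dN n K (fun m => (m : ℝ)) * low n K j = low n K j := by
  ext k l
  simp only [dN, Matrix.sub_apply, mul_diagonal, diagonal_mul, low, of_apply]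
  split_ifs with h
  · rw [show tot l.1 = tot k.1 + 1 by rw [h, bsl_tot]]
    push_cast
    ring
  · simp

theorem low_comm_pen (n K : ℕ) (j : Fin n) :
    low n K j * dN n K pen - dN n K pen * low n K j = low n K j * dN n K (fun m => (m : ℝ) ^ 6) := by
  ext k l
  simp only [dN, Matrix.sub_apply, mul_diagonal, diagonal_mul, low, of_apply]
  split_ifs with h
  · rw [show tot l.1 = tot k.1 + 1 by rw [h, bsl_tot], pen, Finset.sum_range_succ, ← pen]
    push_cast
    ring
  · simp

theorem low_bd (n K : ℕ) (j : Fin n) : Bd (low n K j) (Real.sqrt K) := by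
  rw [Bd, low_conjTranspose_mul, Real.sq_sqrt (Nat.cast_nonneg K), smul_one_eq_diagonal, diagonal_sub]
  refine PosSemidef.diagonal fun k => ?_
  have : (k.1 j : ℝ) ≤ K := by exact_mod_cast (bsl_le k.1 j).trans k.2
  simp only [Pi.zero_apply]
  rw [← Complex.ofReal_sub]
  exact Complex.zero_le_real.2 (sub_nonneg.2 this)

theorem sum_trace_low {n K : ℕ} (ρ : Mt n K) :
    ∑ j, (ρ * ((low n K j)ᴴ * low n K j)).trace.re = en ρ := by
  simp only [low_conjTranspose_mul, trace, diag_apply, mul_diagonal, Complex.re_sum, Complex.re_mul_ofReal, en, ev, tot,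
    Nat.cast_sum, Finset.sum_mul]
  rw [Finset.sum_comm]
  simp only [mul_comm]

/-- padding the inputs pads the output -/
theorem out_rs (η : ℝ) {n K L : ℕ} (h : K ≤ L) (ρA ρB : Mt n K) :
    out (bsU η n L) (rs L ρA) (rs L ρB) = rs (2 * L) (out (bsU η n K) ρA ρB) := by
  exact padM_out η h ρA ρB

/-- the padding isometry -/
def padE (n K L : ℕ) : Matrix (Bl n L) (Bl n K) ℂ := Matrix.of fun l k => if l.1 = k.1 then 1 else 0

theorem padE_iso {n K L : ℕ} (h : K ≤ L) : (padE n K L)ᴴ * padE n K L = 1 := by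
  exact padM_iso h

theorem rs_eq_pad {n K L : ℕ} (h : K ≤ L) (ρ : Mt n K) :
    rs L ρ = padE n K L * ρ * (padE n K L)ᴴ := by
  exact (padM_rs L ρ).trans (by rw [← padM_ct n K L]; rfl)

theorem rs_eq_compress {n K L : ℕ} (h : K ≤ L) (ρ : Mt n L) :
    rs K ρ = (padE n K L)ᴴ * ρ * padE n K L := by
  exact (padM_rs K ρ).trans (by rw [← padM_ct n K L]; rfl)

theorem ev_rs {n K L : ℕ} (h : K ≤ L) (f : ℕ → ℝ) (ρ : Mt n K) : ev f (rs L ρ) = ev f ρ := by
  exact padM_ev h f ρ

theorem dens_rs {n K L : ℕ} (h : K ≤ L) {ρ : Mt n K} (hρ : Dens ρ) : Dens (rs L ρ) := by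
  exact padM_dens h hρ

end Crest.Agent.R331

end
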