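import Crest.Agent.R331.Defs

/-!
Row 331, block Basic: functional calculus through `IsDiag`, partial trace, Schroedinger/Heisenberg duality.
-/

set_option autoImplicit false

noncomputable section

namespace Crest.Agent.R331

open Matrix Crest.MathPhysics.Bosonic Crest.Agent.Lib.QEnt
open scoped ComplexOrder Kronecker

variable {α β γ δ : Type*} [Fintype α] [Fintype β] [Fintype γ] [Fintype δ]
  [DecidableEq α] [DecidableEq β] [DecidableEq γ] [DecidableEq δ]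

theorem isDiag_cfc {A V : Matrix α α ℂ} {l : α → ℝ} (h : IsDiag A V l) (g : ℝ → ℝ) :
    IsDiag (cfc g A) V (fun i => g (l i)) := by
  have hA := h.isHermitian
  have h' := isDiag_eigenvalues hA
  have e0 : cfc g A = (hA.eigenvectorUnitary : Matrix α α ℂ) * diagonal (fun i => (g (hA.eigenvalues i) : ℂ)) *
      (hA.eigenvectorUnitary : Matrix α α ℂ)ᴴ := by
    rw [hA.cfc_eq, Matrix.IsHermitian.cfc, Unitary.conjStarAlgAut_apply]
    simp [star_eq_conjTranspose, Function.comp_def]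
  generalize (hA.eigenvectorUnitary : Matrix α α ℂ) = W at h' e0
  generalize hA.eigenvalues = μ at h' e0
  have e1 : diagonal (fun i => (l i : ℂ)) * (Vᴴ * W) = Vᴴ * W * diagonal (fun i => (μ i : ℂ)) := by
    rw [← h.conj, ← h'.conj]
    calc Vᴴ * A * V * (Vᴴ * W) = Vᴴ * A * (V * Vᴴ) * W := by simp only [Matrix.mul_assoc]
      _ = Vᴴ * (W * Wᴴ) * A * W := by rw [h.uni', h'.uni', Matrix.mul_one, Matrix.mul_one]
      _ = _ := by simp only [Matrix.mul_assoc]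
  have e2 : diagonal (fun i => (g (l i) : ℂ)) * (Vᴴ * W) = Vᴴ * W * diagonal (fun i => (g (μ i) : ℂ)) := by
    ext i j
    have := congrFun (congrFun e1 i) j
    rw [diagonal_mul, mul_diagonal] at this ⊢
    by_cases hij : l i = μ j
    · rw [hij, mul_comm]
    · have h0 : (Vᴴ * W) i j = 0 := by
        by_contra h0
        rw [mul_comm] at this
        exact hij (Complex.ofReal_injective (mul_left_cancel₀ h0 this))
      rw [h0, mul_zero, zero_mul]
  refine ⟨h.uni, ?_⟩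
  rw [e0]
  calc W * diagonal (fun i => (g (μ i) : ℂ)) * Wᴴ
      = V * Vᴴ * W * diagonal (fun i => (g (μ i) : ℂ)) * Wᴴ := by rw [h.uni', Matrix.one_mul]
    _ = V * (Vᴴ * W * diagonal (fun i => (g (μ i) : ℂ))) * Wᴴ := by simp only [Matrix.mul_assoc]
    _ = V * diagonal (fun i => (g (l i) : ℂ)) * Vᴴ * (W * Wᴴ) := by rw [← e2]; simp only [Matrix.mul_assoc]
    _ = _ := by rw [h'.uni', Matrix.mul_one]

theorem isDiag_mlog {A V : Matrix α α ℂ} {l : α → ℝ} (h : IsDiag A V l) :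
    IsDiag (mlog A) V (fun i => Real.log (l i)) := isDiag_cfc h _

theorem isDiag_ent {A V : Matrix α α ℂ} {l : α → ℝ} (h : IsDiag A V l) :
    ent A = ∑ i, Real.negMulLog (l i) := h.trf _

theorem isDiag_pos {A V : Matrix α α ℂ} {l : α → ℝ} (h : IsDiag A V l) (hA : A.PosDef) (i : α) :
    0 < l i := by
  refine lt_of_le_of_ne (h.nonneg hA.posSemidef i) fun h0 => hA.det_pos.ne' ?_
  rw [h.det, Finset.prod_eq_zero (Finset.mem_univ i) h0.symm, Complex.ofReal_zero]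

theorem isDiag_posDef {A V : Matrix α α ℂ} {l : α → ℝ} (h : IsDiag A V l) (hl : ∀ i, 0 < l i) :
    A.PosDef := by
  rw [h.eq]
  refine (PosDef.diagonal fun i => ?_).mul_mul_conjTranspose_same ?_
  · exact_mod_cast hl i
  · exact Matrix.vecMul_injective_of_isUnit ((isUnit_iff_isUnit_det _).2 (isUnit_det_of_left_inverse h.uni))

theorem isDiag_posSemidef {A V : Matrix α α ℂ} {l : α → ℝ} (h : IsDiag A V l) (hl : ∀ i, 0 ≤ l i) :
    A.PosSemidef := by
  rw [h.eq]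
  refine (PosSemidef.diagonal fun i => ?_).mul_mul_conjTranspose_same V
  exact Complex.zero_le_real.2 (hl i)

theorem trace_ptr2 (M : Matrix (α × β) (α × β) ℂ) : (ptr2 M).trace = M.trace := by
  simp [ptr2, Matrix.trace, Fintype.sum_prod_type]

theorem trace_mul_ptr2 (X : Matrix α α ℂ) (M : Matrix (α × β) (α × β) ℂ) :
    (X * ptr2 M).trace = ((X ⊗ₖ (1 : Matrix β β ℂ)) * M).trace := by
  have : ptr2 ((X ⊗ₖ (1 : Matrix β β ℂ)) * M) = X * ptr2 M := by
    ext i j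
    simp only [ptr2, Matrix.of_apply, Matrix.mul_apply, Fintype.sum_prod_type, Matrix.kroneckerMap_apply, Matrix.one_apply,
      mul_ite, mul_one, mul_zero, ite_mul, zero_mul, Finset.sum_ite_eq, Finset.mem_univ, if_true, Finset.mul_sum]
    exact Finset.sum_comm
  rw [← this, trace_ptr2]

theorem ptr2_mul_left (X : Matrix α α ℂ) (M : Matrix (α × β) (α × β) ℂ) :
    ptr2 ((X ⊗ₖ (1 : Matrix β β ℂ)) * M) = X * ptr2 M := by
  ext i j
  simp only [ptr2, Matrix.of_apply, Matrix.mul_apply, Fintype.sum_prod_type, Matrix.kroneckerMap_apply, Matrix.one_apply,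
    mul_ite, mul_one, mul_zero, ite_mul, zero_mul, Finset.sum_ite_eq, Finset.mem_univ, if_true, Finset.mul_sum]
  exact Finset.sum_comm

theorem ptr2_mul_right (X : Matrix α α ℂ) (M : Matrix (α × β) (α × β) ℂ) :
    ptr2 (M * (X ⊗ₖ (1 : Matrix β β ℂ))) = ptr2 M * X := by
  ext i j
  simp only [ptr2, Matrix.of_apply, Matrix.mul_apply, Fintype.sum_prod_type, Matrix.kroneckerMap_apply, Matrix.one_apply,
    mul_ite, mul_one, mul_zero, Finset.sum_ite_eq', Finset.mem_univ, if_true, Finset.sum_mul]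
  exact Finset.sum_comm

theorem ptr2_cyc (Y : Matrix β β ℂ) (M : Matrix (α × β) (α × β) ℂ) :
    ptr2 (((1 : Matrix α α ℂ) ⊗ₖ Y) * M) = ptr2 (M * ((1 : Matrix α α ℂ) ⊗ₖ Y)) := by
  ext i j
  have e1 : ∀ e, (((1 : Matrix α α ℂ) ⊗ₖ Y) * M) (i, e) (j, e) = ∑ f, Y e f * M (i, f) (j, e) := fun e => by
    simp [Matrix.mul_apply, Fintype.sum_prod_type, Matrix.one_apply]
  have e2 : ∀ e, (M * ((1 : Matrix α α ℂ) ⊗ₖ Y)) (i, e) (j, e) = ∑ f, Y f e * M (i, e) (j, f) := fun e => by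
    simp [Matrix.mul_apply, Fintype.sum_prod_type, Matrix.one_apply, mul_comm]
  simp only [ptr2, Matrix.of_apply, e1, e2]
  exact Finset.sum_comm

theorem ptr2_kron (X : Matrix α α ℂ) (Y : Matrix β β ℂ) : ptr2 (X ⊗ₖ Y) = Y.trace • X := by
  ext i j
  simp [ptr2, Matrix.trace, Finset.mul_sum, mul_comm]

theorem ptr2_add (M M' : Matrix (α × β) (α × β) ℂ) : ptr2 (M + M') = ptr2 M + ptr2 M' := by
  ext i j
  simp [ptr2, Finset.sum_add_distrib]

theorem ptr2_sub (M M' : Matrix (α × β) (α × β) ℂ) : ptr2 (M - M') = ptr2 M - ptr2 M' := by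
  ext i j
  simp [ptr2]

theorem ptr2_smul (z : ℂ) (M : Matrix (α × β) (α × β) ℂ) : ptr2 (z • M) = z • ptr2 M := by
  ext i j
  simp [ptr2, Finset.mul_sum]

theorem ptr2_conjTranspose (M : Matrix (α × β) (α × β) ℂ) : (ptr2 M)ᴴ = ptr2 Mᴴ := by
  ext i j
  simp [ptr2]

theorem ptr2_posSemidef {M : Matrix (α × β) (α × β) ℂ} (h : M.PosSemidef) : (ptr2 M).PosSemidef := by
  have : ptr2 M = ∑ e, M.submatrix (fun i => (i, e)) fun i => (i, e) := by
    ext i j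
    simp [ptr2, Matrix.sum_apply]
  rw [this]
  exact Matrix.posSemidef_sum _ fun e _ => h.submatrix _

theorem sw_iso {U : Matrix (γ × δ) (α × β) ℂ} (hU : Uᴴ * U = 1) : (sw U)ᴴ * sw U = 1 := by
  rw [sw, conjTranspose_submatrix, ← submatrix_mul _ _ _ _ _ Function.bijective_id, hU]
  exact submatrix_one _ Prod.swap_injective

theorem out_sw (U : Matrix (γ × δ) (α × β) ℂ) (X : Matrix α α ℂ) (Y : Matrix β β ℂ) :
    out (sw U) Y X = out U X Y := by
  have e : Y ⊗ₖ X = (X ⊗ₖ Y).submatrix Prod.swap Prod.swap := by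
    ext ⟨b, a⟩ ⟨b', a'⟩
    simp [kroneckerMap_apply, mul_comm]
  rw [out, out, sw, conjTranspose_submatrix, e, ← submatrix_mul _ _ _ _ _ Prod.swap_bijective,
    ← submatrix_mul _ _ _ _ _ Prod.swap_bijective, submatrix_id_id]

theorem out_posSemidef (U : Matrix (γ × δ) (α × β) ℂ) {X : Matrix α α ℂ} {Y : Matrix β β ℂ}
    (hX : X.PosSemidef) (hY : Y.PosSemidef) : (out U X Y).PosSemidef := by
  exact ptr2_posSemidef ((hX.kronecker hY).mul_mul_conjTranspose_same U)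

theorem trace_out {U : Matrix (γ × δ) (α × β) ℂ} (hU : Uᴴ * U = 1) (X : Matrix α α ℂ)
    (Y : Matrix β β ℂ) : (out U X Y).trace = X.trace * Y.trace := by
  rw [out, trace_ptr2, trace_mul_cycle, hU, Matrix.one_mul, trace_kronecker]

theorem trace_out_mul (U : Matrix (γ × δ) (α × β) ℂ) (X : Matrix α α ℂ) (Z : Matrix β β ℂ)
    (Y : Matrix γ γ ℂ) :
    (out U X Z * Y).trace = ((X ⊗ₖ Z) * (Uᴴ * (Y ⊗ₖ (1 : Matrix δ δ ℂ)) * U)).trace := by
  rw [trace_mul_comm, out, trace_mul_ptr2, trace_mul_comm, Matrix.mul_assoc, Matrix.mul_assoc, trace_mul_comm,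
    Matrix.mul_assoc]

theorem trace_mul_adj (U : Matrix (γ × δ) (α × β) ℂ) (X : Matrix α α ℂ) (Z : Matrix β β ℂ)
    (Y : Matrix γ γ ℂ) : (X * adj U Z Y).trace = (out U X Z * Y).trace := by
  rw [trace_out_mul, adj, trace_mul_ptr2, ← Matrix.mul_assoc, ← mul_kronecker_mul, Matrix.mul_one, Matrix.one_mul]

theorem adj_conjTranspose (U : Matrix (γ × δ) (α × β) ℂ) {Z : Matrix β β ℂ} (hZ : Z.IsHermitian)
    (Y : Matrix γ γ ℂ) : (adj U Z Y)ᴴ = adj U Z Yᴴ := by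
  rw [adj, adj, ptr2_conjTranspose, ptr2_cyc, conjTranspose_mul, conjTranspose_mul, conjTranspose_mul,
    conjTranspose_kronecker, conjTranspose_kronecker, conjTranspose_conjTranspose, conjTranspose_one, conjTranspose_one, hZ.eq,
    ← Matrix.mul_assoc Uᴴ]

theorem adj_add (U : Matrix (γ × δ) (α × β) ℂ) (Z : Matrix β β ℂ) (Y Y' : Matrix γ γ ℂ) :
    adj U Z (Y + Y') = adj U Z Y + adj U Z Y' := by
  rw [adj, adj, adj, add_kronecker, Matrix.mul_add, Matrix.add_mul, Matrix.mul_add, ptr2_add]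

theorem adj_smul (U : Matrix (γ × δ) (α × β) ℂ) (Z : Matrix β β ℂ) (z : ℂ) (Y : Matrix γ γ ℂ) :
    adj U Z (z • Y) = z • adj U Z Y := by
  rw [adj, adj, smul_kronecker, Matrix.mul_smul, Matrix.smul_mul, Matrix.mul_smul, ptr2_smul]

theorem cen_add (U : Matrix (γ × δ) (α × β) ℂ) (X : Matrix α α ℂ) (Z : Matrix β β ℂ)
    (Y Y' : Matrix γ γ ℂ) : cen U X Z (Y + Y') = cen U X Z Y + cen U X Z Y' := by
  rw [cen, cen, cen, adj_add, Matrix.mul_add, trace_add, add_smul]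
  abel

theorem cen_smul (U : Matrix (γ × δ) (α × β) ℂ) (X : Matrix α α ℂ) (Z : Matrix β β ℂ) (z : ℂ)
    (Y : Matrix γ γ ℂ) : cen U X Z (z • Y) = z • cen U X Z Y := by
  rw [cen, cen, adj_smul, Matrix.mul_smul, trace_smul, smul_sub, smul_assoc]

theorem trace_mul_cen (U : Matrix (γ × δ) (α × β) ℂ) {X : Matrix α α ℂ} (hX : X.trace = 1)
    (Z : Matrix β β ℂ) (Y : Matrix γ γ ℂ) : (X * cen U X Z Y).trace = 0 := by
  rw [cen, Matrix.mul_sub, trace_sub, trace_mul_adj, Matrix.mul_smul, trace_smul, Matrix.mul_one, hX, smul_eq_mul, mul_one,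
    sub_self]

/-- `cen` as a linear map. -/
def cenL (U : Matrix (γ × δ) (α × β) ℂ) (X : Matrix α α ℂ) (Z : Matrix β β ℂ) :
    Matrix γ γ ℂ →ₗ[ℂ] Matrix α α ℂ where
  toFun := cen U X Z
  map_add' := cen_add U X Z
  map_smul' := cen_smul U X Z

open scoped MatrixOrder in
theorem bdb_sqrt {ρ : Matrix α α ℂ} (hρ : ρ.PosSemidef) : ∃ B : Matrix α α ℂ, ρ = Bᴴ * B :=
  CStarAlgebra.nonneg_iff_eq_star_mul_self.mp hρ.nonneg

/-- a matrix as a vector of the Hilbert-Schmidt space -/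
def bdb_vec (X : Matrix β α ℂ) : EuclideanSpace ℂ (β × α) := WithLp.toLp 2 fun p => X p.1 p.2

theorem bdb_inner (X Y : Matrix β α ℂ) : inner ℂ (bdb_vec X) (bdb_vec Y) = (Xᴴ * Y).trace := by
  simp only [bdb_vec, PiLp.inner_apply, RCLike.inner_apply, Matrix.trace, Matrix.diag, Matrix.mul_apply,
    conjTranspose_apply, Fintype.sum_prod_type]
  rw [Finset.sum_comm]
  exact Finset.sum_congr rfl fun i _ => Finset.sum_congr rfl fun j _ => by rw [mul_comm]; rfl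

/-- Cauchy-Schwarz for the Hilbert-Schmidt form. -/
theorem cs_hs (X Y : Matrix β α ℂ) :
    ‖(Xᴴ * Y).trace‖ ^ 2 ≤ (Xᴴ * X).trace.re * (Yᴴ * Y).trace.re := by
  have h : ∀ Z : Matrix β α ℂ, (Zᴴ * Z).trace.re = ‖bdb_vec Z‖ ^ 2 := fun Z => by
    rw [← bdb_inner, ← inner_self_eq_norm_sq (𝕜 := ℂ)]; rfl
  rw [h, h, ← bdb_inner, ← mul_pow]
  exact pow_le_pow_left₀ (norm_nonneg _) (norm_inner_le_norm _ _) 2

/-- Cauchy-Schwarz in a state. -/
theorem cs_state {ρ : Matrix α α ℂ} (hρ : ρ.PosSemidef) (X Y : Matrix β α ℂ) :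
    ‖(ρ * (Xᴴ * Y)).trace‖ ^ 2 ≤ (ρ * (Xᴴ * X)).trace.re * (ρ * (Yᴴ * Y)).trace.re := by
  obtain ⟨B, rfl⟩ := bdb_sqrt hρ
  have h : ∀ Z W : Matrix β α ℂ, (Bᴴ * B * (Zᴴ * W)).trace = ((Z * Bᴴ)ᴴ * (W * Bᴴ)).trace := fun Z W => by
    rw [conjTranspose_mul, conjTranspose_conjTranspose, Matrix.mul_assoc Bᴴ, Matrix.trace_mul_comm Bᴴ]
    simp only [Matrix.mul_assoc]
  rw [h, h, h]
  exact cs_hs _ _


theorem trace_mul_nonneg {ρ X : Matrix α α ℂ} (hρ : ρ.PosSemidef) (hX : X.PosSemidef) :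
    0 ≤ (ρ * X).trace.re := by
  obtain ⟨B, rfl⟩ := bdb_sqrt hρ
  rw [Matrix.mul_assoc, Matrix.trace_mul_comm]
  exact (Complex.nonneg_iff.1 (hX.mul_mul_conjTranspose_same B).trace_nonneg).1


theorem bdb_dot (v : α → ℂ) :
    star v ⬝ᵥ v = ((‖(WithLp.toLp 2 v : EuclideanSpace ℂ α)‖ ^ 2 : ℝ) : ℂ) := by
  have h := inner_self_eq_norm_sq_to_K (𝕜 := ℂ) (WithLp.toLp 2 v : EuclideanSpace ℂ α)
  rw [EuclideanSpace.inner_eq_star_dotProduct, dotProduct_comm] at h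
  rw [Complex.ofReal_pow]
  exact h

/-- `Bd` on vectors. -/
theorem bd_iff {X : Matrix α β ℂ} {κ : ℝ} : Bd X κ ↔ ∀ v : β → ℂ,
    ‖(WithLp.toLp 2 (X *ᵥ v) : EuclideanSpace ℂ α)‖ ^ 2 ≤ κ ^ 2 * ‖(WithLp.toLp 2 v : EuclideanSpace ℂ β)‖ ^ 2 := by
  have hH : (((κ ^ 2 : ℝ) : ℂ) • (1 : Matrix β β ℂ) - Xᴴ * X).IsHermitian :=
    (isHermitian_one.smul (by simp [IsSelfAdjoint])).sub (isHermitian_conjTranspose_mul_self X)
  have h : ∀ v : β → ℂ, star v ⬝ᵥ ((((κ ^ 2 : ℝ) : ℂ) • (1 : Matrix β β ℂ) - Xᴴ * X) *ᵥ v) =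
      ((κ ^ 2 * ‖(WithLp.toLp 2 v : EuclideanSpace ℂ β)‖ ^ 2 -
        ‖(WithLp.toLp 2 (X *ᵥ v) : EuclideanSpace ℂ α)‖ ^ 2 : ℝ) : ℂ) := fun v => by
    rw [sub_mulVec, dotProduct_sub, smul_mulVec, one_mulVec, dotProduct_smul, ← mulVec_mulVec, dotProduct_mulVec,
      vecMul_conjTranspose, star_star, bdb_dot, bdb_dot, smul_eq_mul]
    push_cast
    ring
  rw [Bd, posSemidef_iff_dotProduct_mulVec, and_iff_right hH]
  refine forall_congr' fun v => ?_
  rw [h, Complex.zero_le_real, sub_nonneg]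

theorem bd_iff' {X : Matrix α β ℂ} {κ : ℝ} (hκ : 0 ≤ κ) : Bd X κ ↔ ∀ v : β → ℂ,
    ‖(WithLp.toLp 2 (X *ᵥ v) : EuclideanSpace ℂ α)‖ ≤ κ * ‖(WithLp.toLp 2 v : EuclideanSpace ℂ β)‖ := by
  rw [bd_iff]
  refine forall_congr' fun v => ?_
  rw [← mul_pow, pow_le_pow_iff_left₀ (norm_nonneg _) (by positivity) two_ne_zero]

theorem Bd.trace_le {ρ : Matrix β β ℂ} (hρ : ρ.PosSemidef) {X : Matrix α β ℂ} {κ : ℝ} (h : Bd X κ) :
    (ρ * (Xᴴ * X)).trace.re ≤ κ ^ 2 * ρ.trace.re := by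
  have h1 := trace_mul_nonneg hρ h
  rw [Matrix.mul_sub, trace_sub, Matrix.mul_smul, Matrix.mul_one, trace_smul, smul_eq_mul, Complex.sub_re,
    Complex.re_ofReal_mul] at h1
  linarith


theorem Bd.mul {X : Matrix α β ℂ} {Y : Matrix β γ ℂ} {κ μ : ℝ} (hX : Bd X κ) (hY : Bd Y μ) :
    Bd (X * Y) (κ * μ) := by
  rw [bd_iff] at *
  intro v
  rw [← mulVec_mulVec, mul_pow, mul_assoc]
  exact (hX _).trans (mul_le_mul_of_nonneg_left (hY v) (sq_nonneg _))


theorem Bd.add {X Y : Matrix α β ℂ} {κ μ : ℝ} (hκ : 0 ≤ κ) (hμ : 0 ≤ μ) (hX : Bd X κ) (hY : Bd Y μ) :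
    Bd (X + Y) (κ + μ) := by
  rw [bd_iff' (add_nonneg hκ hμ)]
  intro v
  rw [add_mulVec, WithLp.toLp_add, add_mul]
  exact (norm_add_le _ _).trans (add_le_add ((bd_iff' hκ).1 hX v) ((bd_iff' hμ).1 hY v))


theorem Bd.smul {X : Matrix α β ℂ} {κ : ℝ} (z : ℂ) (hX : Bd X κ) : Bd (z • X) (‖z‖ * κ) := by
  rw [bd_iff] at *
  intro v
  rw [smul_mulVec, WithLp.toLp_smul, norm_smul, mul_pow, mul_pow, mul_assoc]
  exact mul_le_mul_of_nonneg_left (hX v) (sq_nonneg _)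


theorem Bd.mono {X : Matrix α β ℂ} {κ μ : ℝ} (hκ : 0 ≤ κ) (h : κ ≤ μ) (hX : Bd X κ) : Bd X μ := by
  rw [bd_iff] at *
  intro v
  exact (hX v).trans (by gcongr)


theorem Bd.conjTranspose {X : Matrix α β ℂ} {κ : ℝ} (hX : Bd X κ) : Bd Xᴴ κ := by
  unfold Bd at hX ⊢
  rw [conjTranspose_conjTranspose]
  by_cases hκ : κ = 0
  · subst hκ
    have h1 := hX.trace_nonneg
    have h2 := (posSemidef_conjTranspose_mul_self X).trace_nonneg
    simp only [ne_eq, OfNat.ofNat_ne_zero, not_false_eq_true, zero_pow, Complex.ofReal_zero, zero_smul, zero_sub,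
      trace_neg, Left.nonneg_neg_iff] at h1 ⊢
    rw [trace_conjTranspose_mul_self_eq_zero_iff.1 (le_antisymm h1 h2)]
    simpa using PosSemidef.zero
  · have h1 := (hX.mul_mul_conjTranspose_same X).add
      (posSemidef_conjTranspose_mul_self (((κ ^ 2 : ℝ) : ℂ) • (1 : Matrix α α ℂ) - X * Xᴴ))
    have h0 : (0 : ℂ) ≤ (((κ ^ 2)⁻¹ : ℝ) : ℂ) := by exact_mod_cast (by positivity : (0 : ℝ) ≤ (κ ^ 2)⁻¹)
    convert h1.smul h0 using 1
    have h2 : ((κ ^ 2 : ℝ) : ℂ) ≠ 0 := by exact_mod_cast pow_ne_zero 2 hκ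
    rw [Complex.ofReal_inv, eq_inv_smul_iff₀ h2]
    simp only [conjTranspose_sub, conjTranspose_smul, conjTranspose_one, conjTranspose_mul, conjTranspose_conjTranspose,
      Complex.star_def, Complex.conj_ofReal, Matrix.mul_sub, Matrix.sub_mul, Matrix.mul_smul, Matrix.smul_mul,
      Matrix.mul_one, Matrix.one_mul, Matrix.mul_assoc, smul_sub]
    abel

theorem Bd.kron_one {X : Matrix α α ℂ} {κ : ℝ} (hX : Bd X κ) :
    Bd (X ⊗ₖ (1 : Matrix β β ℂ)) κ := by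
  unfold Bd at hX ⊢
  refine (congrArg PosSemidef ?_).mpr (hX.kronecker (PosSemidef.one (n := β)))
  rw [conjTranspose_kronecker, ← mul_kronecker_mul, sub_eq_add_neg _ (Xᴴ * X), add_kronecker, smul_kronecker,
    one_kronecker_one, conjTranspose_one, Matrix.mul_one, ← neg_one_smul ℂ (Xᴴ * X), smul_kronecker, neg_one_smul,
    sub_eq_add_neg]

theorem Bd.one_kron {X : Matrix β β ℂ} {κ : ℝ} (hX : Bd X κ) :
    Bd ((1 : Matrix α α ℂ) ⊗ₖ X) κ := by
  unfold Bd at hX ⊢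
  refine (congrArg PosSemidef ?_).mpr ((PosSemidef.one (n := α)).kronecker hX)
  rw [conjTranspose_kronecker, ← mul_kronecker_mul, sub_eq_add_neg _ (Xᴴ * X), kronecker_add, kronecker_smul,
    one_kronecker_one, conjTranspose_one, Matrix.mul_one, ← neg_one_smul ℂ (Xᴴ * X), kronecker_smul, neg_one_smul,
    sub_eq_add_neg]

theorem Bd.of_iso {U : Matrix α β ℂ} (hU : Uᴴ * U = 1) : Bd U 1 := by
  unfold Bd
  rw [hU]
  simpa using PosSemidef.zero

theorem Bd.norm_trace_le {X : Matrix α α ℂ} {κ : ℝ} (hκ : 0 ≤ κ) (hX : Bd X κ) :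
    ‖X.trace‖ ≤ Fintype.card α * κ := by
  refine (norm_sum_le _ _).trans ((Finset.sum_le_card_nsmul _ _ κ fun i _ => ?_).trans (by simp))
  have h1 := (Complex.le_def.1 (PosSemidef.diag_nonneg hX (i := i))).1
  have h2 : ∀ z : ℂ, (star z * z).re = ‖z‖ ^ 2 := fun z => by
    rw [Complex.star_def, Complex.conj_mul', ← Complex.ofReal_pow, Complex.ofReal_re]
  simp only [Matrix.sub_apply, Matrix.smul_apply, one_apply_eq, smul_eq_mul, mul_one, Matrix.mul_apply, conjTranspose_apply, Complex.sub_re,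
    Complex.ofReal_re, Complex.re_sum, Complex.zero_re, h2] at h1
  have h3 := Finset.single_le_sum (f := fun k => ‖X k i‖ ^ 2) (fun k _ => sq_nonneg _) (Finset.mem_univ i)
  exact (pow_le_pow_iff_left₀ (norm_nonneg _) hκ two_ne_zero).1 (by simpa using h3.trans (sub_nonneg.1 h1))

theorem Bd.of_isDiag {A V : Matrix α α ℂ} {l : α → ℝ} (h : IsDiag A V l) {κ : ℝ}
    (hl : ∀ i, |l i| ≤ κ) : Bd A κ := by
  unfold Bd
  have h1 : (diagonal fun i => ((κ ^ 2 - l i ^ 2 : ℝ) : ℂ)).PosSemidef := PosSemidef.diagonal fun i => by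
    have := sq_le_sq' (abs_le.1 (hl i)).1 (abs_le.1 (hl i)).2
    exact Complex.zero_le_real.2 (sub_nonneg.2 this)
  convert h1.mul_mul_conjTranspose_same V using 1
  have h2 : (diagonal fun i => ((κ ^ 2 - l i ^ 2 : ℝ) : ℂ)) = ((κ ^ 2 : ℝ) : ℂ) • (1 : Matrix α α ℂ) -
      diagonal (fun i => (l i : ℂ)) * diagonal (fun i => (l i : ℂ)) := by
    rw [diagonal_mul_diagonal, smul_one_eq_diagonal, diagonal_sub]
    congr 1
    funext i
    push_cast
    ring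
  rw [h.isHermitian.eq, h2, Matrix.mul_sub, Matrix.sub_mul, Matrix.mul_smul, Matrix.mul_one, Matrix.smul_mul, h.uni']
  congr 1
  rw [h.eq]
  simp only [Matrix.mul_assoc]
  rw [← Matrix.mul_assoc Vᴴ V, h.uni, Matrix.one_mul]

theorem Tm_pos {t : ℝ} (ht : 0 < t) : 0 < Tm t := by
  exact one_div_pos.2 (sub_pos.2 (Real.log_lt_log ht (lt_add_one t)))

theorem lm_pos {x y : ℝ} (hx : 0 < x) (hy : 0 < y) : 0 < lm x y := by
  unfold lm
  split_ifs with h
  · exact hx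
  · rcases lt_or_gt_of_ne h with h | h
    · exact div_pos_of_neg_of_neg (sub_neg.2 h) (sub_neg.2 (Real.log_lt_log hx h))
    · exact div_pos (sub_pos.2 h) (sub_pos.2 (Real.log_lt_log hy h))

theorem lm_comm (x y : ℝ) : lm x y = lm y x := by
  unfold lm
  by_cases h : x = y
  · rw [h]
  · rw [if_neg h, if_neg (Ne.symm h), ← neg_div_neg_eq, neg_sub, neg_sub]

theorem lm_mul_log {x y : ℝ} (hx : 0 < x) (hy : 0 < y) :
    lm x y * (Real.log x - Real.log y) = x - y := by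
  unfold lm
  split_ifs with h
  · rw [h, sub_self, sub_self, mul_zero]
  · exact div_mul_cancel₀ _ (sub_ne_zero.2 fun h' => h (Real.log_injOn_pos hx hy h'))

theorem lm_smul {c x y : ℝ} (hc : 0 < c) (hx : 0 < x) (hy : 0 < y) :
    lm (c * x) (c * y) = c * lm x y := by
  unfold lm
  by_cases h : x = y
  · rw [if_pos h, if_pos (by rw [h])]
  · rw [if_neg h, if_neg fun h' => h (mul_left_cancel₀ hc.ne' h'), Real.log_mul hc.ne' hx.ne', Real.log_mul hc.ne' hy.ne',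
      add_sub_add_left_eq_sub, ← mul_sub, mul_div_assoc]

theorem lm_Tm {t : ℝ} (ht : 0 < t) : lm t (t + 1) = Tm t := by
  rw [lm_comm, lm, if_neg (lt_add_one t).ne', Tm, add_sub_cancel_left]

theorem gBose_eq {t : ℝ} (ht : 0 < t) : gBose t = t / Tm t + Real.log (t + 1) := by
  rw [gBose, Tm, one_div, div_inv_eq_mul]
  ring

end Crest.Agent.R331

end
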