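import Crest.Agent.R331.I.BS
import Crest.Agent.R331.Close.C
import Crest.Agent.R331.Close.C

/-!
Row 331, block Close: a state with small thermal defects has almost thermal energy and entropy.
Energy: `Small` with `G = low j`: `tr cᴴ df = t tr σ c cᴴ - (t+1) tr σ cᴴ c`, `c cᴴ ≤ cᴴ c + 1`.
Entries: `Small` with matrix units gives `|df_{kl}|² ≤ 4 w`; `df_{k,l} = t √l_j σ_{k,l-e_j} -
(t+1) √(k_j+1) σ_{k+e_j,l}` (for `|k| < L`), so by induction on `|k|+|l|` (and Hermiticity) the block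
`|k|,|l| ≤ M` of `σ` is `σ₀₀ diag(q^{|k|}) + O_M(√w)`, `q = t/(t+1)`; the mass outside the block is
`≤ E₀/M`, so `σ₀₀ → (1-q)^n`.  `ent_compress`, `continuousOn_ent` at the diagonal block, and
`∑_{|k| ≤ M} negMulLog ((1-q)^n q^{|k|}) → n g(t)`.
-/

set_option autoImplicit false

noncomputable section

namespace Crest.Agent.R331

open Matrix Crest.MathPhysics.Bosonic Crest.Agent.Lib.QEnt
open scoped ComplexOrder Kronecker

theorem close_energy {n L : ℕ} {σ : Mt n L} (hσ : σ.PosSemidef) {t w : ℝ} (ht : 0 < t) (hw : 0 ≤ w)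
    (hs : ∀ j, Small σ t (low n L j) w) :
    en σ ≤ n * t * σ.trace.re + n * Real.sqrt (w * (2 * en σ + σ.trace.re)) := by
  have h := cl_energy hσ ht.le hw le_rfl hs
  linarith

theorem close_ent (n : ℕ) {t : ℝ} (ht : 0 < t) (E₀ : ℝ) {δ : ℝ} (hδ : 0 < δ) :
    ∃ w : ℝ, 0 < w ∧ ∃ M : ℕ, ∀ L : ℕ, M ≤ L → ∀ σ : Mt n L, σ.PosSemidef → 1 ≤ σ.trace.re →
      σ.trace.re ≤ 1 + w → en σ ≤ E₀ → (∀ j, Small σ t (low n L j) w) →
      n * gBose t - δ ≤ ent σ := by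
  obtain ⟨M, w, hw, h⟩ := close_bl n ht E₀ hδ
  exact ⟨w, hw, M, fun L hL σ hσ h1 h2 hE hs => (h L hL σ hσ (abs_le.2 ⟨by linarith, by linarith⟩) hE hs).1⟩

end Crest.Agent.R331

end
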