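import Crest.Agent.R331.Defs

/-!
Row 331, block Ent: padding by an isometry and compression (auxiliary proofs).
-/

set_option autoImplicit false

noncomputable section

namespace Crest.Agent.R331

open Matrix Crest.Agent.Lib.QEnt
open scoped ComplexOrder

variable {α β : Type*} [Fintype α] [Fintype β] [DecidableEq α] [DecidableEq β]

theorem entC_trf_comm {g : ℝ → ℝ} (hg : g 0 = 0) (X : Matrix β α ℂ) (Y : Matrix α β ℂ) :
    trf g (X * Y) = trf g (Y * X) := by
  have h := charpoly_mul_comm' X Y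
  have key : ∀ {ι : Type _} [Fintype ι] [DecidableEq ι] (M : Matrix ι ι ℂ) (k : ℕ),
      (((Polynomial.X ^ k * M.charpoly).roots).map (fun z : ℂ => g z.re)).sum = trf g M := by
    intro ι _ _ M k
    rw [Polynomial.roots_mul (mul_ne_zero (pow_ne_zero _ Polynomial.X_ne_zero)
      M.charpoly_monic.ne_zero), Polynomial.roots_X_pow, Multiset.map_add, Multiset.sum_add,
      Multiset.map_nsmul, Multiset.sum_nsmul]
    simp [hg, trf]
  have key' : ∀ (M : Matrix α α ℂ) (k : ℕ),
      (((Polynomial.X ^ k * M.charpoly).roots).map (fun z : ℂ => g z.re)).sum = trf g M := by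
    intro M k
    rw [Polynomial.roots_mul (mul_ne_zero (pow_ne_zero _ Polynomial.X_ne_zero)
      M.charpoly_monic.ne_zero), Polynomial.roots_X_pow, Multiset.map_add, Multiset.sum_add,
      Multiset.map_nsmul, Multiset.sum_nsmul]
    simp [hg, trf]
  rw [← key (X * Y) (Fintype.card α), ← key' (Y * X) (Fintype.card β), h]

theorem entC_iso {E : Matrix β α ℂ} (hE : Eᴴ * E = 1) (A : Matrix α α ℂ) :
    ent (E * A * Eᴴ) = ent A := by
  unfold ent
  rw [entC_trf_comm Real.negMulLog_zero, ← Matrix.mul_assoc, hE, Matrix.one_mul]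

theorem entC_mono {x y : ℝ} (hx : 0 ≤ x) (hxy : x ≤ y) (hy : y ≤ 2) :
    Real.negMulLog x + 2 * x ≤ Real.negMulLog y + 2 * y := by
  have hd : ∀ z ∈ interior (Set.Icc (0 : ℝ) 2),
      HasDerivAt (fun u => Real.negMulLog u + 2 * u) (-Real.log z - 1 + 2 * 1) z := by
    intro z hz
    rw [interior_Icc] at hz
    exact (Real.hasDerivAt_negMulLog hz.1.ne').add ((hasDerivAt_id z).const_mul 2)
  have hm : MonotoneOn (fun u => Real.negMulLog u + 2 * u) (Set.Icc (0 : ℝ) 2) := by
    refine monotoneOn_of_deriv_nonneg (convex_Icc 0 2) (by fun_prop) ?_ ?_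
    · intro z hz
      exact (hd z hz).differentiableAt.differentiableWithinAt
    · intro z hz
      rw [(hd z hz).deriv]
      rw [interior_Icc] at hz
      have := Real.log_le_sub_one_of_pos hz.1
      linarith [hz.2]
  exact hm ⟨hx, hxy.trans hy⟩ ⟨hx.trans hxy, hy⟩ hxy

theorem entC_concave : ConcaveOn ℝ (Set.Ici (0 : ℝ)) (fun u => Real.negMulLog u + 2 * u) := by
  refine Real.concaveOn_negMulLog.add ?_
  refine ⟨convex_Ici 0, ?_⟩
  intro x _ y _ a b _ _ _
  simp only [smul_eq_mul]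
  nlinarith

theorem entC_trf {A : Matrix α α ℂ} (hA : A.IsHermitian) :
    trf (fun u => Real.negMulLog u + 2 * u) A = ent A + 2 * A.trace.re := by
  obtain ⟨U, l, h⟩ := exists_isDiag hA
  unfold ent
  rw [h.trf, h.trf, h.trace_re, Finset.sum_add_distrib, Finset.mul_sum]

theorem entC_compress {E : Matrix β α ℂ} (hE : Eᴴ * E = 1) {A : Matrix β β ℂ}
    (hA : A.PosSemidef) (h2 : A.trace.re ≤ 2) :
    ent (Eᴴ * A * E) + 2 * (Eᴴ * A * E).trace.re ≤ ent A + 2 * A.trace.re := by
  obtain ⟨U, l, h⟩ := exists_isDiag hA.isHermitian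
  have hl : ∀ i, 0 ≤ l i := h.nonneg hA
  have hl2 : ∀ i, l i ≤ 2 := by
    intro i
    have h1 : l i ≤ ∑ j, l j := Finset.single_le_sum (fun j _ => hl j) (Finset.mem_univ i)
    rw [h.trace_re] at h2
    linarith
  set D : Matrix β β ℂ := diagonal (fun i => ((Real.sqrt (l i) : ℝ) : ℂ)) with hD
  have hDh : Dᴴ = D := by
    rw [hD, diagonal_conjTranspose]
    congr 1
    funext i
    simp
  have hDD : D * D = diagonal (fun i => (l i : ℂ)) := by
    rw [hD, diagonal_mul_diagonal]
    congr 1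
    funext i
    rw [← Complex.ofReal_mul, Real.mul_self_sqrt (hl i)]
  set B : Matrix β β ℂ := U * D with hB
  have hBB : B * Bᴴ = A := by
    rw [hB, conjTranspose_mul, hDh, h.eq, ← hDD]
    simp only [Matrix.mul_assoc]
  have hBB' : Bᴴ * B = diagonal (fun i => (l i : ℂ)) := by
    rw [hB, conjTranspose_mul, hDh, ← hDD]
    calc D * Uᴴ * (U * D) = D * (Uᴴ * U) * D := by simp only [Matrix.mul_assoc]
      _ = D * D := by rw [h.uni, Matrix.mul_one]
  clear_value B
  set X : Matrix β β ℂ := (Bᴴ * E) * (Eᴴ * B) with hX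
  have hXp : X.PosSemidef := by
    have : X = (Eᴴ * B)ᴴ * (Eᴴ * B) := by
      rw [hX, conjTranspose_mul, conjTranspose_conjTranspose]
    rw [this]
    exact posSemidef_conjTranspose_mul_self _
  have hYX : (Bᴴ * B - X).PosSemidef := by
    have : Bᴴ * B - X = ((1 - E * Eᴴ) * B)ᴴ * ((1 - E * Eᴴ) * B) := by
      have hP : (1 - E * Eᴴ) * (1 - E * Eᴴ) = 1 - E * Eᴴ := by
        have : E * Eᴴ * (E * Eᴴ) = E * Eᴴ := by
          calc E * Eᴴ * (E * Eᴴ) = E * (Eᴴ * E) * Eᴴ := by simp only [Matrix.mul_assoc]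
            _ = E * Eᴴ := by rw [hE, Matrix.mul_one]
        rw [Matrix.sub_mul, Matrix.mul_sub, Matrix.mul_sub, this]
        simp
      have hPh : (1 - E * Eᴴ)ᴴ = 1 - E * Eᴴ := by
        rw [conjTranspose_sub, conjTranspose_one, conjTranspose_mul, conjTranspose_conjTranspose]
      rw [conjTranspose_mul, hPh, Matrix.mul_assoc, ← Matrix.mul_assoc (1 - E * Eᴴ), hP, hX,
        Matrix.sub_mul, Matrix.mul_sub, Matrix.one_mul]
      simp only [Matrix.mul_assoc]
    rw [this]
    exact posSemidef_conjTranspose_mul_self _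
  have hEA : (Eᴴ * A * E).PosSemidef := hA.conjTranspose_mul_mul_same E
  rw [← entC_trf hEA.isHermitian, ← entC_trf hA.isHermitian, h.trf]
  have hsw : trf (fun u => Real.negMulLog u + 2 * u) (Eᴴ * A * E)
      = trf (fun u => Real.negMulLog u + 2 * u) X := by
    have : Eᴴ * A * E = (Eᴴ * B) * (Bᴴ * E) := by
      rw [← hBB]
      simp only [Matrix.mul_assoc]
    rw [this, hX]
    exact entC_trf_comm (by simp) _ _
  rw [hsw]
  obtain ⟨W, m, hW⟩ := exists_isDiag hXp.isHermitian
  rw [hW.trf]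
  have h1 : (1 : Matrix β β ℂ)ᴴ * 1 = 1 := by simp
  refine (hW.peierls_concave h1 entC_concave (fun i => hW.nonneg hXp i)).trans ?_
  refine Finset.sum_le_sum fun k _ => ?_
  refine entC_mono (dg_nonneg _ hXp k) ?_ (hl2 k)
  have h3 := dg_nonneg (1 : Matrix β β ℂ) hYX k
  rw [dg_sub, hBB'] at h3
  have h4 : dg (1 : Matrix β β ℂ) (diagonal (fun i => (l i : ℂ))) k = l k := by
    simp [dg]
  linarith

end Crest.Agent.R331

end
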