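import Crest.Agent.R331.I.Basic
import Crest.Agent.R331.I.EntC
import Crest.Agent.R331.Lim.Emb

/-!
Row 331, block Ent: entropy of finite matrices (continuity, padding, compression, Gibbs bound).
-/

set_option autoImplicit false

noncomputable section

namespace Crest.Agent.R331

open Matrix Crest.MathPhysics.Bosonic Crest.Agent.Lib.QEnt
open scoped ComplexOrder Kronecker

variable {α β γ δ : Type*} [Fintype α] [Fintype β] [Fintype γ] [Fintype δ]
  [DecidableEq α] [DecidableEq β] [DecidableEq γ] [DecidableEq δ]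

theorem enta_continuousOn_cfc {f : ℝ → ℝ} (hf : Continuous f) :
    ContinuousOn (fun A : Matrix α α ℂ => cfc f A) {A | A.IsHermitian} := by
  open scoped Matrix.Norms.L2Operator in
  let _ : NormedAlgebra ℝ (Matrix α α ℂ) :=
    { (inferInstance : Algebra ℝ (Matrix α α ℂ)) with
      norm_smul_le := fun r x => by
        have := norm_smul_le (r : ℂ) x
        rwa [Complex.coe_smul, Complex.norm_real] at this }
  open scoped Matrix.Norms.L2Operator in
  have : CompleteSpace (Matrix α α ℂ) := FiniteDimensional.complete ℂ _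
  open scoped Matrix.Norms.L2Operator in
  refine ContinuousOn.cfc_of_mem_nhdsSet (s := Set.univ) f ?_ continuousOn_id (fun x hx => hx) hf.continuousOn
  exact Filter.univ_mem

theorem enta_negMulLog_add {p θ : ℝ} (hp : 0 ≤ p) (hθ : 0 ≤ θ) :
    Real.negMulLog (θ + p) ≤ Real.negMulLog p + Real.negMulLog θ := by
  have key : ∀ x y : ℝ, 0 ≤ x → 0 ≤ y → x * Real.log x ≤ x * Real.log (x + y) := fun x y hx hy => by
    rcases hx.eq_or_lt with h | h
    · rw [← h, zero_mul, zero_mul]
    · exact mul_le_mul_of_nonneg_left (Real.log_le_log h (by linarith)) hx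
  have h1 := key p θ hp hθ
  have h2 := key θ p hθ hp
  rw [add_comm p θ] at h1
  simp only [Real.negMulLog]
  linarith

/-- eigenvalues depend continuously on a Hermitian matrix (`cfc` is jointly continuous, or: uniform
polynomial approximation of `negMulLog` on a compact interval, `trf (x^k) A = tr A^k`). -/
theorem continuousOn_ent : ContinuousOn (ent : Matrix α α ℂ → ℝ) {A | A.IsHermitian} := by
  have h : ContinuousOn (fun A : Matrix α α ℂ => (cfc Real.negMulLog A).trace.re) {A | A.IsHermitian} :=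
    (Complex.continuous_re.comp (continuous_id.matrix_trace)).comp_continuousOn
      (enta_continuousOn_cfc Real.continuous_negMulLog)
  refine h.congr fun A hA => ?_
  obtain ⟨U, l, hd⟩ := exists_isDiag hA
  exact (isDiag_ent hd).trans (isDiag_cfc hd _).trace_re.symm

/-- padding by an isometry (`charpoly_mul_comm'`-type identity or extend a diagonalisation;
`negMulLog 0 = 0`). -/
theorem ent_iso {E : Matrix β α ℂ} (hE : Eᴴ * E = 1) {A : Matrix α α ℂ} (hA : A.IsHermitian) :
    ent (E * A * Eᴴ) = ent A := by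
  have _ := hA
  exact Lim.ent_pad E hE A

/-- `negMulLog (p+θ) ≤ negMulLog p + negMulLog θ` on each eigenvalue. -/
theorem ent_add_smul_le {A : Matrix α α ℂ} (hA : A.PosSemidef) {θ : ℝ} (hθ : 0 ≤ θ) :
    ent (A + (θ : ℂ) • (1 : Matrix α α ℂ)) ≤ ent A + Fintype.card α * Real.negMulLog θ := by
  obtain ⟨U, l, hd⟩ := exists_isDiag hA.isHermitian
  rw [add_comm A, isDiag_ent (hd.add_smul_one θ), isDiag_ent hd, ← Finset.card_univ, ← nsmul_eq_mul,
    ← Finset.sum_const, ← Finset.sum_add_distrib]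
  exact Finset.sum_le_sum fun i _ => enta_negMulLog_add (hd.nonneg hA i) hθ

theorem ent_ge {A : Matrix α α ℂ} (hA : A.PosSemidef) (h2 : A.trace.re ≤ 2) : -2 ≤ ent A := by
  obtain ⟨U, l, hd⟩ := exists_isDiag hA.isHermitian
  rw [hd.trace_re] at h2
  rw [isDiag_ent hd]
  refine (neg_le_neg h2).trans ?_
  rw [← Finset.sum_neg_distrib]
  refine Finset.sum_le_sum fun i _ => ?_
  have h0 := hd.nonneg hA i
  have h1 : l i ≤ 2 := (Finset.single_le_sum (fun j _ => hd.nonneg hA j) (Finset.mem_univ i)).trans h2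
  rcases h0.eq_or_lt with h | h
  · simp [← h]
  · have := Real.log_le_sub_one_of_pos h
    simp only [Real.negMulLog]
    nlinarith

/-- compression: `g x = negMulLog x + 2 x` is monotone on `[0,2]`, `g 0 = 0`, and the eigenvalues of
a compression are dominated one by one (`card_eig_le`, or: with `A = B Bᴴ`, `Eᴴ B Bᴴ E` and
`Bᴴ E Eᴴ B ≤ Bᴴ B` have the same non-zero spectrum; for `0 ≤ X ≤ Y`, and `g` concave monotone,
`tr g X ≤ ∑ g (X_kk in the eigenbasis of Y) ≤ tr g Y` by `IsDiag.peierls_concave`). -/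
theorem ent_compress {E : Matrix β α ℂ} (hE : Eᴴ * E = 1) {A : Matrix β β ℂ} (hA : A.PosSemidef)
    (h2 : A.trace.re ≤ 2) :
    ent (Eᴴ * A * E) + 2 * (Eᴴ * A * E).trace.re ≤ ent A + 2 * A.trace.re :=
  entC_compress hE hA h2

theorem card_Bl_le (n K : ℕ) : Fintype.card (Bl n K) ≤ (K + 1) ^ n := by
  have h : Function.Injective (fun (k : Bl n K) (j : Fin n) =>
      (⟨k.1 j, Nat.lt_succ_of_le ((Finset.single_le_sum (f := k.1) (fun _ _ => Nat.zero_le _)
        (Finset.mem_univ j)).trans k.2)⟩ : Fin (K + 1))) := by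
    intro k l hkl
    refine Subtype.ext (funext fun j => ?_)
    exact congrArg Fin.val (congrFun hkl j)
  simpa using Fintype.card_le_of_injective _ h

theorem ev_eq_trace {n K : ℕ} (f : ℕ → ℝ) (ρ : Mt n K) : (ρ * dN n K f).trace.re = ev f ρ := by
  simp only [ev, dN, Matrix.trace, diag_apply, Matrix.mul_diagonal, Complex.re_sum]
  refine Finset.sum_congr rfl fun k _ => ?_
  simp [mul_comm]

theorem ev_mono {n K : ℕ} {f g : ℕ → ℝ} (h : ∀ m, m ≤ K → f m ≤ g m) {ρ : Mt n K}
    (hρ : ρ.PosSemidef) : ev f ρ ≤ ev g ρ := by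
  refine Finset.sum_le_sum fun k _ => mul_le_mul_of_nonneg_right (h _ k.2) ?_
  exact (Complex.nonneg_iff.1 (hρ.diag_nonneg (i := k))).1

theorem ev_const {n K : ℕ} (c : ℝ) (ρ : Mt n K) : ev (fun _ => c) ρ = c * ρ.trace.re := by
  simp [ev, Matrix.trace, Complex.re_sum, Finset.mul_sum]

theorem continuous_ev {n K : ℕ} (f : ℕ → ℝ) : Continuous (ev f : Mt n K → ℝ) := by
  unfold ev
  fun_prop

/-- `∑_{|k| ≤ K} q^{|k|} ≤ (1-q)^{-n}`. -/
theorem sum_pow_tot_le (n K : ℕ) {q : ℝ} (h0 : 0 ≤ q) (h1 : q < 1) :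
    ∑ k : Bl n K, q ^ tot k.1 ≤ ((1 - q)⁻¹) ^ n := by
  exact Lim.sum_pow_occ_le (e := fun k : Bl n K => k.1) Subtype.val_injective h0 h1

/-- Gibbs bound: Peierls in the number basis, then `-p log p ≤ -p log r + r - p` with
`r = (1-q)^n q^{|k|}`, `q = t/(t+1)`. -/
theorem gibbs {n K : ℕ} {ρ : Mt n K} (hρ : Dens ρ) {t : ℝ} (ht : 0 < t) :
    Tm t * (ent ρ - n * gBose t) ≤ en ρ - n * t := by
  exact Lim.gibbs_ball hρ ht

end Crest.Agent.R331

end
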