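import Crest.Agent.R331.I.Max
import Crest.Agent.R331.FD
import Crest.Agent.R331.Lim.Fin

/-!
Row 331, block Fin: pad fixed inputs to cut-off `K → ∞` (`out_rs`, `ent_iso`, `ent_add_smul_le`,
`tendsto_card_exp`), then `δ → 0`, `d → 0`; finally embed the box `Fin n → Fin (K+1)` in the ball of
radius `n K` (`ent_iso` with the inclusion isometries, `vnEntropy_eq`, `Tmp = Tm`).
-/

set_option autoImplicit false

noncomputable section

namespace Crest.Agent.R331

open Matrix Crest.MathPhysics.Bosonic Crest.Agent.Lib.QEnt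
open scoped ComplexOrder Kronecker

theorem s_FD : S_FD := by
  refine Lim.fd_of_phi fun n η tA tB h0 h1 htA htB δ hδ => ⟨δ, hδ.le, le_rfl, fun K0 => ?_⟩
  obtain ⟨K₁, hK₁⟩ := max_main n h0 h1 hδ htA htB hδ
  have e1 := (tendsto_card_exp n 1).eventually (gt_mem_nhds hδ)
  have e2 := (tendsto_one_div_atTop_nhds_zero_nat (𝕜 := ℝ)).eventually (gt_mem_nhds hδ)
  obtain ⟨K, ⟨⟨h3, h4⟩, h5⟩, h6⟩ := (((e1.and e2).and (Filter.eventually_ge_atTop K0)).and
    (Filter.eventually_ge_atTop K₁)).exists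
  refine ⟨K, h5, 1 / K, Real.exp (-K), by positivity, h4.le, (Real.exp_pos _).le, ?_, hK₁ K h6⟩
  refine le_trans ?_ h3.le
  rw [Real.negMulLog, Real.log_exp, pow_one]
  have h7 : 0 ≤ Real.exp (-(K : ℝ)) * Fintype.card (Bl n (2 * K)) := by positivity
  nlinarith

end Crest.Agent.R331

end
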