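import Crest.Agent.R331.I.M3

/-!
Row 331, block Gap.  Diagonalise the three states.  At the matrix unit `(k,l)` put `y = p k`, `x = p l`,
`J = lm x y`, `u = t J/T`, `v = (t+1) J/T` (`lm u v = J`), `κ = kap ![x,y,u,v]`, `s = T x/J`,
`s' = T y/J`, `t' = t+1`.  Entries: `sc = (1 - s' + s) a`, `df = (t y - t' x) a`.  The map
`Y ↦ (cA Y, cB Y)` (in the eigenbases, index `(α×α) ⊕ (β×β)`) is `Good` with constant `1` for `x`, `y`,
with constant `1+d` for `x, y, u, v`, hence for `κ`.  The form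
`Q(z₁,z₂) = (y+v)|z₁|² + (x+u)|z₂|² + κ|z₂-z₁|²` is nonnegative; polarised at
`w = ((s-t)a, (t'-s')a)` it gives `(t' x - t y) conj a (z₁+z₂)` (use `kap_id`), and `Q(w,w) = fi`.
Feed `Y₁ = (s-t)c`, `Y₂ = (t'-s')c` (`Y₁+Y₂ = sc σ c`): A side `Q(z) ≥ 2 l Re Q(w,z) - l² Q(w)`, C side
`≤ (1+d) fi - d ∑ (y|Y₁|² + x|Y₂|²)`.  Finally `t' x - t y = (J/T)(s'(s-t) + s(t'-s'))`, so
`(t'x-ty)² ≤ (x+y)(y(s-t)² + x(t'-s')²)` (Cauchy-Schwarz), and Cauchy-Schwarz over `(k,l)` gives `Small`.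
-/

set_option autoImplicit false

noncomputable section

namespace Crest.Agent.R331

open Matrix Crest.MathPhysics.Bosonic Crest.Agent.Lib.QEnt
open scoped ComplexOrder Kronecker

variable {α β γ δ : Type*} [Fintype α] [Fintype β] [Fintype γ] [Fintype δ]
  [DecidableEq α] [DecidableEq β] [DecidableEq γ] [DecidableEq δ]

/-- coordinates in the basis `V` -/
def gpCo (V Y : Matrix α α ℂ) : α × α → ℂ := fun kl => (Vᴴ * Y * V) kl.1 kl.2
/-- matrix with given coordinates -/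
def gpUn (V : Matrix α α ℂ) (Y : α × α → ℂ) : Matrix α α ℂ := V * (Matrix.of fun k l => Y (k, l)) * Vᴴ

theorem gpCo_add (V Y Z : Matrix α α ℂ) : gpCo V (Y + Z) = gpCo V Y + gpCo V Z := by
  funext kl; simp [gpCo, Matrix.mul_add, Matrix.add_mul]
theorem gpCo_sub (V Y Z : Matrix α α ℂ) : gpCo V (Y - Z) = gpCo V Y - gpCo V Z := by
  funext kl; simp [gpCo, Matrix.mul_sub, Matrix.sub_mul]
theorem gpCo_smul (V Y : Matrix α α ℂ) (z : ℂ) : gpCo V (z • Y) = z • gpCo V Y := by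
  funext kl; simp [gpCo]
theorem gpUn_add (V : Matrix α α ℂ) (Y Z : α × α → ℂ) : gpUn V (Y + Z) = gpUn V Y + gpUn V Z := by
  have : (Matrix.of fun k l => (Y + Z) (k, l)) =
      (Matrix.of fun k l => Y (k, l)) + Matrix.of fun k l => Z (k, l) := by ext; simp
  rw [gpUn, this, Matrix.mul_add, Matrix.add_mul]; rfl
theorem gpUn_smul (V : Matrix α α ℂ) (Y : α × α → ℂ) (z : ℂ) : gpUn V (z • Y) = z • gpUn V Y := by
  have : (Matrix.of fun k l => (z • Y) (k, l)) = z • Matrix.of fun k l => Y (k, l) := by ext; simp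
  rw [gpUn, this, Matrix.mul_smul, Matrix.smul_mul]; rfl
theorem gpCo_Un {V : Matrix α α ℂ} (h : Vᴴ * V = 1) (Y : α × α → ℂ) : gpCo V (gpUn V Y) = Y := by
  funext kl
  have : Vᴴ * (V * (Matrix.of fun k l => Y (k, l)) * Vᴴ) * V = Matrix.of fun k l => Y (k, l) := by
    simp only [← Matrix.mul_assoc, h, Matrix.one_mul]
    rw [Matrix.mul_assoc, h, Matrix.mul_one]
  simp only [gpCo, gpUn, this, Matrix.of_apply]
theorem gpUn_Co {V : Matrix α α ℂ} (h : Vᴴ * V = 1) (Y : Matrix α α ℂ) : gpUn V (gpCo V Y) = Y := by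
  have : (Matrix.of fun k l => gpCo V Y (k, l)) = Vᴴ * Y * V := by ext; rfl
  rw [gpUn, this]
  simp only [← Matrix.mul_assoc, uni_comm h, Matrix.one_mul]
  rw [Matrix.mul_assoc, uni_comm h, Matrix.mul_one]

theorem gp_trace {V : Matrix α α ℂ} (h : Vᴴ * V = 1) (G H : Matrix α α ℂ) :
    (Gᴴ * H).trace = ∑ kl, (starRingEnd ℂ) (gpCo V G kl) * gpCo V H kl := by
  have h1 : ((Vᴴ * G * V)ᴴ * (Vᴴ * H * V)).trace = (Gᴴ * H).trace := by
    simp only [conjTranspose_mul, conjTranspose_conjTranspose, Matrix.mul_assoc]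
    rw [← Matrix.mul_assoc V Vᴴ, uni_comm h, Matrix.one_mul, trace_mul_comm]
    simp only [Matrix.mul_assoc, uni_comm h, Matrix.mul_one]
  rw [← h1, Fintype.sum_prod_type, Finset.sum_comm]
  simp only [trace, diag_apply, mul_apply (M := (Vᴴ * G * V)ᴴ), conjTranspose_apply, gpCo]
  rfl

theorem gpCo_left {ρ V : Matrix α α ℂ} {p : α → ℝ} (h : IsDiag ρ V p) (Y : Matrix α α ℂ) (kl : α × α) :
    gpCo V (ρ * Y) kl = p kl.1 * gpCo V Y kl := by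
  have : Vᴴ * (ρ * Y) * V = diagonal (fun i => (p i : ℂ)) * (Vᴴ * Y * V) := by
    rw [← h.conj]
    simp only [Matrix.mul_assoc]
    rw [← Matrix.mul_assoc V Vᴴ, h.uni', Matrix.one_mul]
  simp only [gpCo, this, diagonal_mul]

theorem gpCo_right {ρ V : Matrix α α ℂ} {p : α → ℝ} (h : IsDiag ρ V p) (Y : Matrix α α ℂ) (kl : α × α) :
    gpCo V (Y * ρ) kl = p kl.2 * gpCo V Y kl := by
  have : Vᴴ * (Y * ρ) * V = (Vᴴ * Y * V) * diagonal (fun i => (p i : ℂ)) := by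
    rw [← h.conj]
    simp only [Matrix.mul_assoc]
    rw [← Matrix.mul_assoc V Vᴴ, h.uni', Matrix.one_mul]
  simp only [gpCo, this, mul_diagonal, mul_comm]

theorem gp_re (r : ℝ) (z : ℂ) : ((starRingEnd ℂ) z * (r * z)).re = r * ‖z‖ ^ 2 := by
  rw [mul_left_comm, Complex.conj_mul', ← Complex.ofReal_pow, ← Complex.ofReal_mul, Complex.ofReal_re]

theorem gp_R {ρ V : Matrix α α ℂ} {p : α → ℝ} (h : IsDiag ρ V p) (Y : Matrix α α ℂ) :
    (ρ * (Yᴴ * Y)).trace.re = ∑ kl : α × α, p kl.2 * ‖gpCo V Y kl‖ ^ 2 := by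
  rw [trace_mul_comm, Matrix.mul_assoc, gp_trace h.uni, Complex.re_sum]
  exact Finset.sum_congr rfl fun kl _ => by rw [gpCo_right h, gp_re]

theorem gp_L {ρ V : Matrix α α ℂ} {p : α → ℝ} (h : IsDiag ρ V p) (Y : Matrix α α ℂ) :
    (ρ * (Y * Yᴴ)).trace.re = ∑ kl : α × α, p kl.1 * ‖gpCo V Y kl‖ ^ 2 := by
  rw [← Matrix.mul_assoc, trace_mul_comm, gp_trace h.uni, Complex.re_sum]
  exact Finset.sum_congr rfl fun kl _ => by rw [gpCo_left h, gp_re]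

theorem gp_bkm (V : Matrix α α ℂ) (p : α → ℝ) (Y : Matrix α α ℂ) :
    bkm V p Y = ∑ kl : α × α, lm (p kl.2) (p kl.1) * ‖gpCo V Y kl‖ ^ 2 := by
  rw [bkm, Fintype.sum_prod_type]
  exact Finset.sum_congr rfl fun k _ => Finset.sum_congr rfl fun l _ => by rw [lm_comm]; rfl

/-- `s - t` -/
def gpM (t x y : ℝ) : ℝ := Tm t * x / lm x y - t
/-- `t' - s'` -/
def gpN (t x y : ℝ) : ℝ := t + 1 - Tm t * y / lm x y
/-- the current -/
def gpJ (t x y : ℝ) : ℝ := (t + 1) * x - t * y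
/-- the four metrics -/
def gpX (t x y : ℝ) : Fin 4 → ℝ := ![x, y, t * (lm x y / Tm t), (t + 1) * (lm x y / Tm t)]

section scalar
variable {t x y : ℝ}

theorem gpX_pos (ht : 0 < t) (hx : 0 < x) (hy : 0 < y) (j : Fin 4) : 0 < gpX t x y j := by
  have h1 := lm_pos hx hy
  have h2 := Tm_pos ht
  fin_cases j <;> simp only [gpX] <;> simp <;> positivity

theorem gp_sum (hx : 0 < x) (hy : 0 < y) :
    Tm t * (Real.log x - Real.log y) + 1 = gpM t x y + gpN t x y := by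
  have h1 := lm_pos hx hy
  have h2 := lm_mul_log hx hy
  unfold gpM gpN
  field_simp
  linear_combination Tm t * h2

theorem gp_kap (ht : 0 < t) (hx : 0 < x) (hy : 0 < y) :
    (gpX t x y 1 + gpX t x y 3) * gpM t x y - kap (gpX t x y) * (gpN t x y - gpM t x y) = gpJ t x y ∧
    (gpX t x y 0 + gpX t x y 2) * gpN t x y + kap (gpX t x y) * (gpN t x y - gpM t x y) = gpJ t x y ∧
    y * gpM t x y + x * gpN t x y = gpJ t x y := by
  have h1 := lm_pos hx hy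
  have h2 := Tm_pos ht
  have hr : 0 < lm x y / Tm t := div_pos h1 h2
  have h3 : lm x y = lm (t * (lm x y / Tm t)) ((t + 1) * (lm x y / Tm t)) := by
    rw [mul_comm t, mul_comm (t + 1), lm_smul hr ht (by linarith), lm_Tm ht, div_mul_cancel₀ _ h2.ne']
  have h4 := kap_id hx hy (mul_pos ht hr) (mul_pos (by linarith) hr) h3
  have e1 : Tm t * x / lm x y = x / (lm x y / Tm t) := by field_simp
  have e2 : Tm t * y / lm x y = y / (lm x y / Tm t) := by field_simp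
  simp only [gpX, gpM, gpN, gpJ, e1, e2, Matrix.cons_val_zero, Matrix.cons_val_one, Matrix.cons_val]
  generalize lm x y / Tm t = r at hr h4
  generalize kap ![x, y, t * r, (t + 1) * r] = κ at h4
  refine ⟨?_, ?_, ?_⟩
  · field_simp
    linear_combination (-1 : ℝ) * h4
  · field_simp
    linear_combination h4
  · field_simp
    ring

theorem gp_cs {A B κ m n j : ℝ} (hA : 0 ≤ A) (hB : 0 ≤ B) (hκ : 0 ≤ κ) (h1 : A * m - κ * (n - m) = j)
    (h2 : B * n + κ * (n - m) = j) (l : ℝ) (a z₁ z₂ : ℂ) :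
    0 ≤ A * ‖z₁‖ ^ 2 + B * ‖z₂‖ ^ 2 + κ * ‖z₂ - z₁‖ ^ 2 +
      (2 * l * ((starRingEnd ℂ) ((-j : ℝ) * a) * (z₁ + z₂)).re + l ^ 2 * (j * (m + n) * ‖a‖ ^ 2)) := by
  have key : A * ‖z₁‖ ^ 2 + B * ‖z₂‖ ^ 2 + κ * ‖z₂ - z₁‖ ^ 2 +
      (2 * l * ((starRingEnd ℂ) ((-j : ℝ) * a) * (z₁ + z₂)).re + l ^ 2 * (j * (m + n) * ‖a‖ ^ 2)) =
      A * ((z₁.re - l * m * a.re) ^ 2 + (z₁.im - l * m * a.im) ^ 2) +
      B * ((z₂.re - l * n * a.re) ^ 2 + (z₂.im - l * n * a.im) ^ 2) +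
      κ * ((z₂.re - z₁.re - l * (n - m) * a.re) ^ 2 + (z₂.im - z₁.im - l * (n - m) * a.im) ^ 2) := by
    simp only [Complex.sq_norm, Complex.normSq_apply, map_mul, Complex.conj_ofReal, Complex.mul_re,
      Complex.mul_im, Complex.ofReal_re, Complex.ofReal_im, Complex.conj_re, Complex.conj_im,
      Complex.add_re, Complex.add_im, Complex.sub_re, Complex.sub_im]
    linear_combination
      (2 * l * (a.re * z₁.re + a.im * z₁.im) - l ^ 2 * (a.re * a.re + a.im * a.im) * m) * h1 +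
      (2 * l * (a.re * z₂.re + a.im * z₂.im) - l ^ 2 * (a.re * a.re + a.im * a.im) * n) * h2
  rw [key]
  positivity

end scalar

theorem gpCo_sc {ρ V : Matrix α α ℂ} {p : α → ℝ} (h : IsDiag ρ V p) (hp : ∀ k, 0 < p k) (t : ℝ)
    (a : Matrix α α ℂ) (kl : α × α) : gpCo V (sc ρ t a) kl =
      ((gpM t (p kl.2) (p kl.1) + gpN t (p kl.2) (p kl.1) : ℝ) : ℂ) * gpCo V a kl := by
  rw [sc, gpCo_add, gpCo_smul, gpCo_sub, ← gp_sum (hp _) (hp _)]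
  simp only [Pi.add_apply, Pi.smul_apply, Pi.sub_apply, gpCo_left (isDiag_mlog h),
    gpCo_right (isDiag_mlog h), smul_eq_mul]
  push_cast
  ring

theorem gpCo_df {ρ V : Matrix α α ℂ} {p : α → ℝ} (h : IsDiag ρ V p) (t : ℝ)
    (a : Matrix α α ℂ) (kl : α × α) : gpCo V (df ρ t a) kl =
      ((-gpJ t (p kl.2) (p kl.1) : ℝ) : ℂ) * gpCo V a kl := by
  rw [df, gpCo_sub, gpCo_smul, gpCo_smul]
  simp only [Pi.smul_apply, Pi.sub_apply, gpCo_left h, gpCo_right h, smul_eq_mul, gpJ]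
  push_cast
  ring

theorem gp_fi {ρ V : Matrix α α ℂ} {p : α → ℝ} (h : IsDiag ρ V p) (hp : ∀ k, 0 < p k) (t : ℝ)
    (a : Matrix α α ℂ) : fi ρ t a = ∑ kl : α × α, gpJ t (p kl.2) (p kl.1) *
      (gpM t (p kl.2) (p kl.1) + gpN t (p kl.2) (p kl.1)) * ‖gpCo V a kl‖ ^ 2 := by
  rw [fi, gp_trace h.uni, Complex.re_sum, ← Finset.sum_neg_distrib]
  refine Finset.sum_congr rfl fun kl _ => ?_
  rw [gpCo_df h, gpCo_sc h hp, map_mul, Complex.conj_ofReal, mul_assoc, Complex.re_ofReal_mul, gp_re]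
  ring

/-- the input side -/
theorem gp_side {ρ V : Matrix α α ℂ} {p : α → ℝ} (h : IsDiag ρ V p) (hp : ∀ k, 0 < p k) {t : ℝ}
    (ht : 0 < t) (a Z : Matrix α α ℂ) (l : ℝ) (z₁ z₂ z₃ : α × α → ℂ) (hz : z₁ + z₂ = gpCo V Z)
    (hz' : z₃ = z₂ - z₁) :
    0 ≤ (∑ kl : α × α, gpX t (p kl.2) (p kl.1) 1 * ‖z₁ kl‖ ^ 2 +
        ∑ kl : α × α, gpX t (p kl.2) (p kl.1) 3 * ‖z₁ kl‖ ^ 2) +
      (∑ kl : α × α, gpX t (p kl.2) (p kl.1) 0 * ‖z₂ kl‖ ^ 2 +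
        ∑ kl : α × α, gpX t (p kl.2) (p kl.1) 2 * ‖z₂ kl‖ ^ 2) +
      ∑ kl : α × α, kap (gpX t (p kl.2) (p kl.1)) * ‖z₃ kl‖ ^ 2 +
      (2 * l * ((df ρ t a)ᴴ * Z).trace.re + l ^ 2 * fi ρ t a) := by
  rw [gp_fi h hp, gp_trace h.uni, Complex.re_sum, Finset.mul_sum, Finset.mul_sum, ← hz, hz']
  simp only [← Finset.sum_add_distrib]
  refine Finset.sum_nonneg fun kl _ => ?_
  have hX := gpX_pos ht (hp kl.2) (hp kl.1)
  obtain ⟨h1, h2, -⟩ := gp_kap ht (hp kl.2) (hp kl.1)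
  have := gp_cs (add_pos (hX 1) (hX 3)).le (add_pos (hX 0) (hX 2)).le (kap_nonneg hX) h1 h2 l
    (gpCo V a kl) (z₁ kl) (z₂ kl)
  rw [gpCo_df h, Pi.add_apply, Pi.sub_apply]
  linarith

/-- the transfer map in the eigenbases -/
def gpT (V : Matrix α α ℂ) (V' : Matrix β β ℂ) (W : Matrix γ γ ℂ)
    (cA : Matrix γ γ ℂ →ₗ[ℂ] Matrix α α ℂ) (cB : Matrix γ γ ℂ →ₗ[ℂ] Matrix β β ℂ) :
    (γ × γ → ℂ) →ₗ[ℂ] ((α × α) ⊕ (β × β) → ℂ) where
  toFun Y := Sum.elim (gpCo V (cA (gpUn W Y))) (gpCo V' (cB (gpUn W Y)))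
  map_add' Y Z := by
    funext i
    cases i <;> simp [gpUn_add, gpCo_add]
  map_smul' z Y := by
    funext i
    cases i <;> simp [gpUn_smul, gpCo_smul]

theorem gp_small {σ W : Matrix γ γ ℂ} {q : γ → ℝ} (h : IsDiag σ W q) (hq : ∀ k, 0 < q k) {t : ℝ}
    (ht : 0 < t) (c : Matrix γ γ ℂ) {w : ℝ}
    (hw : ∑ kl : γ × γ, (q kl.1 * gpM t (q kl.2) (q kl.1) ^ 2 + q kl.2 * gpN t (q kl.2) (q kl.1) ^ 2) *
      ‖gpCo W c kl‖ ^ 2 ≤ w) : Small σ t c w := by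
  intro G
  rw [gp_trace h.uni, gp_R h, gp_L h, ← Finset.sum_add_distrib]
  have h1 : ‖∑ kl, (starRingEnd ℂ) (gpCo W G kl) * gpCo W (df σ t c) kl‖ ≤
      ∑ kl : γ × γ, ‖gpCo W G kl‖ * (|gpJ t (q kl.2) (q kl.1)| * ‖gpCo W c kl‖) := by
    refine (norm_sum_le _ _).trans (Finset.sum_le_sum fun kl _ => ?_)
    rw [gpCo_df h, norm_mul, norm_mul, Complex.norm_conj, Complex.norm_real, Real.norm_eq_abs, abs_neg]
  refine (pow_le_pow_left₀ (norm_nonneg _) h1 2).trans ?_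
  have hn : ∀ kl : γ × γ, 0 ≤ q kl.2 * ‖gpCo W G kl‖ ^ 2 + q kl.1 * ‖gpCo W G kl‖ ^ 2 := fun kl => by
    have := hq kl.1
    have := hq kl.2
    positivity
  refine le_trans ?_ (mul_le_mul_of_nonneg_right hw (Finset.sum_nonneg fun kl _ => hn kl))
  refine Finset.sum_sq_le_sum_mul_sum_of_sq_le_mul _ (fun kl _ => ?_) (fun kl _ => hn kl) fun kl _ => ?_
  · have := hq kl.1
    have := hq kl.2
    positivity
  · obtain ⟨-, -, h3⟩ := gp_kap ht (hq kl.2) (hq kl.1)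
    rw [mul_pow, mul_pow, sq_abs, ← h3]
    have h4 : 0 ≤ q kl.1 * q kl.2 * (gpM t (q kl.2) (q kl.1) - gpN t (q kl.2) (q kl.1)) ^ 2 *
        (‖gpCo W c kl‖ ^ 2 * ‖gpCo W G kl‖ ^ 2) := by
      have := hq kl.1
      have := hq kl.2
      positivity
    nlinarith [h4]

theorem gap_main {ρA : Matrix α α ℂ} {ρB : Matrix β β ℂ} {σ : Matrix γ γ ℂ} (hA : ρA.PosDef)
    (hB : ρB.PosDef) (hC : σ.PosDef) {η tA tB d : ℝ} (h0 : 0 < η) (h1 : η < 1) (htA : 0 < tA)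
    (htB : 0 < tB) (hd : 0 < d) (cA : Matrix γ γ ℂ →ₗ[ℂ] Matrix α α ℂ)
    (cB : Matrix γ γ ℂ →ₗ[ℂ] Matrix β β ℂ)
    (hR : ∀ Y, (ρA * ((cA Y)ᴴ * cA Y)).trace.re + (ρB * ((cB Y)ᴴ * cB Y)).trace.re ≤
      (σ * (Yᴴ * Y)).trace.re)
    (hL : ∀ Y, (ρA * (cA Y * (cA Y)ᴴ)).trace.re + (ρB * (cB Y * (cB Y)ᴴ)).trace.re ≤
      (σ * (Y * Yᴴ)).trace.re)
    (hKA : ∀ V p W q, IsDiag ρA V p → IsDiag σ W q → ∀ Y,
      Tm (η * tA + (1 - η) * tB) * bkm V p (cA Y) ≤ (1 + d) * η * Tm tA * bkm W q Y)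
    (hKB : ∀ V p W q, IsDiag ρB V p → IsDiag σ W q → ∀ Y,
      Tm (η * tA + (1 - η) * tB) * bkm V p (cB Y) ≤ (1 + d) * (1 - η) * Tm tB * bkm W q Y)
    (a : Matrix α α ℂ) (b : Matrix β β ℂ) (c : Matrix γ γ ℂ) (lA lB : ℝ) :
    0 ≤ rhs ρA ρB σ tA tB (η * tA + (1 - η) * tB) d lA lB a b c
        (cA (sc σ (η * tA + (1 - η) * tB) c)) (cB (sc σ (η * tA + (1 - η) * tB) c)) ∧
      Small σ (η * tA + (1 - η) * tB) c
        (rhs ρA ρB σ tA tB (η * tA + (1 - η) * tB) d lA lB a b c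
          (cA (sc σ (η * tA + (1 - η) * tB) c)) (cB (sc σ (η * tA + (1 - η) * tB) c)) / d) := by
  obtain ⟨V, p, hV⟩ := exists_isDiag hA.isHermitian
  obtain ⟨V', p', hV'⟩ := exists_isDiag hB.isHermitian
  obtain ⟨W, q, hW⟩ := exists_isDiag hC.isHermitian
  have hp := isDiag_pos hV hA
  have hp' := isDiag_pos hV' hB
  have hq := isDiag_pos hW hC
  have hKA' := hKA V p W q hV hW
  have hKB' := hKB V' p' W q hV' hW
  generalize htC : η * tA + (1 - η) * tB = tC at hKA' hKB' ⊢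
  have h1' : 0 < 1 - η := by linarith
  have htC0 : 0 < tC := by rw [← htC]; positivity
  have TA := Tm_pos htA
  have TB := Tm_pos htB
  have TC := Tm_pos htC0
  set T := gpT V V' W cA cB with hT
  set ξ : (α × α) ⊕ (β × β) → Fin 4 → ℝ :=
    Sum.elim (fun kl => gpX tA (p kl.2) (p kl.1)) (fun kl => gpX tB (p' kl.2) (p' kl.1)) with hξ
  set ζ : γ × γ → Fin 4 → ℝ := fun kl => gpX tC (q kl.2) (q kl.1) with hζ
  have hξp : ∀ i j, 0 < ξ i j := by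
    rintro (kl | kl) j
    · exact gpX_pos htA (hp _) (hp _) j
    · exact gpX_pos htB (hp' _) (hp' _) j
  have hζp : ∀ k j, 0 < ζ k j := fun kl j => gpX_pos htC0 (hq _) (hq _) j
  have g0 : Good T 1 (fun i => ξ i 0) (fun k => ζ k 0) := fun Y => by
    have := hR (gpUn W Y)
    rw [gp_R hV, gp_R hV', gp_R hW, gpCo_Un hW.uni] at this
    rw [one_mul, Fintype.sum_sum_type]
    exact this
  have g1 : Good T 1 (fun i => ξ i 1) (fun k => ζ k 1) := fun Y => by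
    have := hL (gpUn W Y)
    rw [gp_L hV, gp_L hV', gp_L hW, gpCo_Un hW.uni] at this
    rw [one_mul, Fintype.sum_sum_type]
    exact this
  have gK : ∀ (eA eB eC : ℝ), 0 ≤ eA → 0 ≤ eB → η * eA + (1 - η) * eB = eC → ∀ Y : γ × γ → ℂ,
      ∑ kl : α × α, eA * (lm (p kl.2) (p kl.1) / Tm tA) * ‖gpCo V (cA (gpUn W Y)) kl‖ ^ 2 +
      ∑ kl : β × β, eB * (lm (p' kl.2) (p' kl.1) / Tm tB) * ‖gpCo V' (cB (gpUn W Y)) kl‖ ^ 2 ≤
      (1 + d) * ∑ kl : γ × γ, eC * (lm (q kl.2) (q kl.1) / Tm tC) * ‖Y kl‖ ^ 2 := by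
    intro eA eB eC hA' hB' he Y
    have k1 := hKA' (gpUn W Y)
    have k2 := hKB' (gpUn W Y)
    have e1 : ∑ kl : α × α, eA * (lm (p kl.2) (p kl.1) / Tm tA) * ‖gpCo V (cA (gpUn W Y)) kl‖ ^ 2 =
        eA / Tm tA * bkm V p (cA (gpUn W Y)) := by
      rw [gp_bkm, Finset.mul_sum]
      exact Finset.sum_congr rfl fun kl _ => by ring
    have e2 : ∑ kl : β × β, eB * (lm (p' kl.2) (p' kl.1) / Tm tB) * ‖gpCo V' (cB (gpUn W Y)) kl‖ ^ 2 =
        eB / Tm tB * bkm V' p' (cB (gpUn W Y)) := by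
      rw [gp_bkm, Finset.mul_sum]
      exact Finset.sum_congr rfl fun kl _ => by ring
    have e3 : ∑ kl : γ × γ, eC * (lm (q kl.2) (q kl.1) / Tm tC) * ‖Y kl‖ ^ 2 =
        eC / Tm tC * bkm W q (gpUn W Y) := by
      rw [gp_bkm, Finset.mul_sum, gpCo_Un hW.uni]
      exact Finset.sum_congr rfl fun kl _ => by ring
    rw [e1, e2, e3, ← he]
    have k3 := mul_le_mul_of_nonneg_left k1 (show 0 ≤ eA / Tm tA / Tm tC by positivity)
    have k4 := mul_le_mul_of_nonneg_left k2 (show 0 ≤ eB / Tm tB / Tm tC by positivity)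
    have k5 : eA / Tm tA / Tm tC * (Tm tC * bkm V p (cA (gpUn W Y))) =
        eA / Tm tA * bkm V p (cA (gpUn W Y)) := by field_simp
    have k6 : eB / Tm tB / Tm tC * (Tm tC * bkm V' p' (cB (gpUn W Y))) =
        eB / Tm tB * bkm V' p' (cB (gpUn W Y)) := by field_simp
    have k7 : eA / Tm tA / Tm tC * ((1 + d) * η * Tm tA * bkm W q (gpUn W Y)) +
        eB / Tm tB / Tm tC * ((1 + d) * (1 - η) * Tm tB * bkm W q (gpUn W Y)) =
        (1 + d) * ((η * eA + (1 - η) * eB) / Tm tC * bkm W q (gpUn W Y)) := by field_simp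
    linarith
  have g2 : Good T (1 + d) (fun i => ξ i 2) (fun k => ζ k 2) := fun Y => by
    rw [Fintype.sum_sum_type]
    exact gK tA tB tC htA.le htB.le htC Y
  have g3 : Good T (1 + d) (fun i => ξ i 3) (fun k => ζ k 3) := fun Y => by
    rw [Fintype.sum_sum_type]
    exact gK (tA + 1) (tB + 1) (tC + 1) (by linarith) (by linarith) (by rw [← htC]; ring) Y
  have up : ∀ j, Good T 1 (fun i => ξ i j) (fun k => ζ k j) →
      Good T (1 + d) (fun i => ξ i j) (fun k => ζ k j) := fun j hj Y =>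
    (hj Y).trans (mul_le_mul_of_nonneg_right (by linarith)
      (Finset.sum_nonneg fun k _ => mul_nonneg (hζp k j).le (sq_nonneg _)))
  have gk : Good T (1 + d) (fun i => kap (ξ i)) (fun k => kap (ζ k)) :=
    kap_good T (1 + d) hξp hζp (by linarith) fun j => by
      fin_cases j
      · exact up 0 g0
      · exact up 1 g1
      · exact g2
      · exact g3
  set Y₁ : γ × γ → ℂ := fun kl => ((gpM tC (q kl.2) (q kl.1) : ℝ) : ℂ) * gpCo W c kl with hY₁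
  set Y₂ : γ × γ → ℂ := fun kl => ((gpN tC (q kl.2) (q kl.1) : ℝ) : ℂ) * gpCo W c kl with hY₂
  have hY : gpUn W (Y₁ + Y₂) = sc σ tC c := by
    rw [← gpUn_Co hW.uni (sc σ tC c)]
    congr 1
    funext kl
    rw [gpCo_sc hW hq, Pi.add_apply, Complex.ofReal_add, add_mul]
  have sA := gp_side hV hp htA a (cA (sc σ tC c)) lA (fun kl => T Y₁ (.inl kl)) (fun kl => T Y₂ (.inl kl))
    (fun kl => T (Y₂ - Y₁) (.inl kl))
    (by rw [← hY, gpUn_add, map_add, gpCo_add]; rfl) (by rw [map_sub]; rfl)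
  have sB := gp_side hV' hp' htB b (cB (sc σ tC c)) lB (fun kl => T Y₁ (.inr kl)) (fun kl => T Y₂ (.inr kl))
    (fun kl => T (Y₂ - Y₁) (.inr kl))
    (by rw [← hY, gpUn_add, map_add, gpCo_add]; rfl) (by rw [map_sub]; rfl)
  have a1 := g1 Y₁
  have a3 := g3 Y₁
  have a0 := g0 Y₂
  have a2 := g2 Y₂
  have ak := gk (Y₂ - Y₁)
  rw [Fintype.sum_sum_type] at a1 a3 a0 a2 ak
  simp only [hξ, Sum.elim_inl, Sum.elim_inr] at a1 a3 a0 a2 ak
  have hfi : fi σ tC c = (∑ k, ζ k 1 * ‖Y₁ k‖ ^ 2 + ∑ k, ζ k 3 * ‖Y₁ k‖ ^ 2) +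
      (∑ k, ζ k 0 * ‖Y₂ k‖ ^ 2 + ∑ k, ζ k 2 * ‖Y₂ k‖ ^ 2) + ∑ k, kap (ζ k) * ‖(Y₂ - Y₁) k‖ ^ 2 := by
    rw [gp_fi hW hq]
    simp only [← Finset.sum_add_distrib]
    refine Finset.sum_congr rfl fun kl _ => ?_
    obtain ⟨k1, k2, -⟩ := gp_kap htC0 (hq kl.2) (hq kl.1)
    simp only [hY₁, hY₂, hζ, Pi.sub_apply, ← sub_mul, ← Complex.ofReal_sub, norm_mul, mul_pow,
      Complex.norm_real, Real.norm_eq_abs, sq_abs]
    linear_combination (-(gpM tC (q kl.2) (q kl.1) * ‖gpCo W c kl‖ ^ 2)) * k1 -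
      (gpN tC (q kl.2) (q kl.1) * ‖gpCo W c kl‖ ^ 2) * k2
  have hWw : ∑ kl : γ × γ, (q kl.1 * gpM tC (q kl.2) (q kl.1) ^ 2 +
      q kl.2 * gpN tC (q kl.2) (q kl.1) ^ 2) * ‖gpCo W c kl‖ ^ 2 =
      ∑ k, ζ k 1 * ‖Y₁ k‖ ^ 2 + ∑ k, ζ k 0 * ‖Y₂ k‖ ^ 2 := by
    rw [← Finset.sum_add_distrib]
    refine Finset.sum_congr rfl fun kl _ => ?_
    simp only [hY₁, hY₂, hζ, gpX, norm_mul, mul_pow, Complex.norm_real, Real.norm_eq_abs, sq_abs,
      Matrix.cons_val_zero, Matrix.cons_val_one]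
    ring
  have hn : 0 ≤ ∑ k, ζ k 1 * ‖Y₁ k‖ ^ 2 + ∑ k, ζ k 0 * ‖Y₂ k‖ ^ 2 :=
    add_nonneg (Finset.sum_nonneg fun k _ => mul_nonneg (hζp k 1).le (sq_nonneg _))
      (Finset.sum_nonneg fun k _ => mul_nonneg (hζp k 0).le (sq_nonneg _))
  have main : d * (∑ k, ζ k 1 * ‖Y₁ k‖ ^ 2 + ∑ k, ζ k 0 * ‖Y₂ k‖ ^ 2) ≤
      rhs ρA ρB σ tA tB tC d lA lB a b c (cA (sc σ tC c)) (cB (sc σ tC c)) := by
    rw [rhs, hfi]
    linarith
  refine ⟨(mul_nonneg hd.le hn).trans main, gp_small hW hq htC0 c ?_⟩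
  rw [hWw, le_div_iff₀ hd, mul_comm]
  exact main

end Crest.Agent.R331

end
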