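import Crest.Agent.R331.I.StatS

/-! Row 331, block Stat: `stat_cov`. -/

set_option autoImplicit false

noncomputable section

namespace Crest.Agent.R331

open Matrix Crest.MathPhysics.Bosonic Crest.Agent.Lib.QEnt
open scoped ComplexOrder Kronecker

variable {α β γ δ : Type*} [Fintype α] [Fintype β] [Fintype γ] [Fintype δ]
  [DecidableEq α] [DecidableEq β] [DecidableEq γ] [DecidableEq δ]

theorem stc_trace_df {ρ : Matrix α α ℂ} (hρ : ρ.IsHermitian) (t : ℝ) (a : Matrix α α ℂ) :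
    (df ρ t a)ᴴ.trace = -star (ρ * a).trace := by
  rw [df_conjTranspose hρ, trace_sub, trace_smul, trace_smul, ← trace_conjTranspose,
    conjTranspose_mul, hρ.eq, trace_mul_comm ρ aᴴ, smul_eq_mul, smul_eq_mul]
  push_cast
  ring

theorem stat_cov' {U : Matrix (γ × δ) (α × β) ℂ} {a QA : Matrix α α ℂ} {b QB : Matrix β β ℂ}
    {c : Matrix γ γ ℂ} {c' : Matrix δ δ ℂ} {rA rB : ℝ} (h : BS U a QA b QB c c' rA rB)
    {ρA : Matrix α α ℂ} {ρB : Matrix β β ℂ} (hA : Dens ρA) (hB : Dens ρB) {σ : Matrix γ γ ℂ}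
    {θ tA tB tC κ L : ℝ} (hθ : 0 < θ) (hσ : σ = out U ρA ρB + (θ : ℂ) • (1 : Matrix γ γ ℂ))
    (htA : 0 < tA) (htB : 0 < tB) (htC : tC = rA ^ 2 * tA + rB ^ 2 * tB) (hκ : 0 ≤ κ) (hL : 0 ≤ L)
    (hc : Bd c κ) (hc' : Bd c' κ) (hl : Bd (mlog σ) L) :
    fi σ tC c + rA * ((df ρA tA a)ᴴ * cen U ρA ρB (sc σ tC c)).trace.re +
        rB * ((df ρB tB b)ᴴ * cen (sw U) ρB ρA (sc σ tC c)).trace.re ≤
      ‖(ρA * a).trace‖ ^ 2 + ‖(ρB * b).trace‖ ^ 2 + κ ^ 2 * (2 * Tm tC * L + 1) *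
        (θ * Fintype.card γ + 2 * (tA * Real.sqrt (ρA * QA).trace.re +
          tB * Real.sqrt (ρB * QB).trace.re)) := by
  have hC0 : 0 < tC := by
    have hs := h.sq
    rw [htC]
    rcases le_total tA tB with h1 | h1
    · nlinarith [sq_nonneg rA, sq_nonneg rB]
    · nlinarith [sq_nonneg rA, sq_nonneg rB]
  have hT := Tm_pos hC0
  have hO := out_posSemidef U hA.1 hB.1
  have hH : σ.IsHermitian := by
    rw [hσ]
    exact hO.1.add (isHermitian_one.smul (by simp [IsSelfAdjoint]))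
  set Y := sc σ tC c with hY
  have hYb : Bd Y (κ * (2 * Tm tC * L + 1)) := by
    have h1 := Bd.smul (Tm tC : ℂ) (Bd.sub (by positivity) (by positivity) (hc.mul hl) (hl.mul hc))
    rw [Complex.norm_real, Real.norm_of_nonneg hT.le] at h1
    have h2 := Bd.add (by positivity) hκ h1 hc
    have e : Tm tC * (κ * L + L * κ) + κ = κ * (2 * Tm tC * L + 1) := by ring
    rwa [e] at h2
  have e1 : (out U ρA ρB * (c * mlog σ - mlog σ * c)).trace = 0 := by
    have h1 := sts_trace_comm hH c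
    have h2 : out U ρA ρB = σ - (θ : ℂ) • (1 : Matrix γ γ ℂ) := by rw [hσ, add_sub_cancel_right]
    rw [h2, Matrix.sub_mul, trace_sub, h1, Matrix.smul_mul, Matrix.one_mul, trace_smul, trace_sub,
      trace_mul_comm, sub_self, smul_zero, sub_zero]
  have e2 : (out U ρA ρB * Y).trace = (rA : ℂ) * (ρA * a).trace + (rB : ℂ) * (ρB * b).trace := by
    rw [hY, sc, Matrix.mul_add, Matrix.mul_smul, trace_add, trace_smul, e1, smul_zero, zero_add,
      h.trace_out_c hA.2 hB.2]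
  have e3 : (df σ tC c)ᴴ = (df (out U ρA ρB) tC c)ᴴ - (θ : ℂ) • cᴴ := by
    rw [df_conjTranspose hH, df_conjTranspose hO.1, hσ]
    simp only [Matrix.mul_add, Matrix.add_mul, Matrix.mul_smul, Matrix.smul_mul, Matrix.mul_one,
      Matrix.one_mul]
    push_cast
    module
  have hcur := h.current hA.1 hB.1 tA tB Y
  rw [← htC] at hcur
  set g : ℂ := (rA : ℂ) * (ρA * a).trace + (rB : ℂ) * (ρB * b).trace with hg
  have key : -((df σ tC c)ᴴ * Y).trace + rA * ((df ρA tA a)ᴴ * cen U ρA ρB Y).trace +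
      rB * ((df ρB tB b)ᴴ * cen (sw U) ρB ρA Y).trace =
      θ * (cᴴ * Y).trace - (rA * tA : ℝ) * bcur U QA c c' rA rB ρA ρB Y -
        (rB * tB : ℝ) * bcur (sw U) QB c (-c') rB rA ρB ρA Y + g * star g := by
    rw [e3, Matrix.sub_mul, trace_sub, hcur, cen, cen, out_sw, e2]
    simp only [Matrix.mul_sub, Matrix.mul_smul, Matrix.smul_mul, trace_sub, trace_smul,
      Matrix.mul_one, smul_eq_mul, stc_trace_df hA.1.1, stc_trace_df hB.1.1, hg, star_add, star_mul',
      Complex.star_def, Complex.conj_ofReal]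
    push_cast
    ring
  have k := congrArg Complex.re key
  simp only [Complex.add_re, Complex.sub_re, Complex.neg_re, Complex.re_ofReal_mul] at k
  have b1 := h.norm_bcur_le hA hB hκ hc hc' (by positivity) hYb
  have b2 := h.exch.norm_bcur_le hB hA hκ hc hc'.neg (by positivity) hYb
  have b3 := Bd.norm_trace_le (by positivity) (hc.conjTranspose.mul hYb)
  have b4 : (g * star g).re ≤ ‖(ρA * a).trace‖ ^ 2 + ‖(ρB * b).trace‖ ^ 2 := by
    rw [Complex.star_def, Complex.mul_conj, Complex.ofReal_re, Complex.normSq_eq_norm_sq]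
    have h1 : ‖g‖ ≤ |rA| * ‖(ρA * a).trace‖ + |rB| * ‖(ρB * b).trace‖ := by
      refine (norm_add_le _ _).trans ?_
      rw [norm_mul, norm_mul, Complex.norm_real, Complex.norm_real, Real.norm_eq_abs, Real.norm_eq_abs]
    have h2 : |rA| ^ 2 + |rB| ^ 2 = 1 := by rw [sq_abs, sq_abs]; exact h.sq
    have h3 := pow_le_pow_left₀ (norm_nonneg _) h1 2
    nlinarith [sq_nonneg (|rA| * ‖(ρB * b).trace‖ - |rB| * ‖(ρA * a).trace‖)]
  have aux : ∀ (r t M : ℝ) (z : ℂ), |r| ≤ 1 → 0 < t → ‖z‖ ≤ M → -(r * t * z.re) ≤ t * M := by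
    intro r t M z hr ht hz
    have h1 : |r * z.re| ≤ M := by
      rw [abs_mul]
      have := Complex.abs_re_le_norm z
      nlinarith [abs_nonneg r, abs_nonneg z.re, norm_nonneg z]
    have h2 := neg_le_of_abs_le h1
    nlinarith
  have c1 := aux rA tA _ _ h.abs_le_one.1 htA b1
  have c2 := aux rB tB _ _ h.abs_le_one.2 htB b2
  have c3 := mul_le_mul_of_nonneg_left ((Complex.re_le_norm _).trans b3) hθ.le
  unfold fi
  rw [← hY]
  nlinarith

end Crest.Agent.R331

end
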