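import Crest.Agent.R331.Stat0

/-! Row 331, block Stat: `stat_side` (helper54). -/

set_option autoImplicit false

noncomputable section

namespace Crest.Agent.R331

open Matrix Crest.MathPhysics.Bosonic Crest.Agent.Lib.QEnt
open scoped ComplexOrder Kronecker

variable {α β γ δ : Type*} [Fintype α] [Fintype β] [Fintype γ] [Fintype δ]
  [DecidableEq α] [DecidableEq β] [DecidableEq γ] [DecidableEq δ]

theorem sts_comm {ρ : Matrix α α ℂ} (hρ : ρ.IsHermitian) : mlog ρ * ρ = ρ * mlog ρ := by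
  have h := cfc_commute_cfc Real.log (id : ℝ → ℝ) ρ
  have e : cfc (id : ℝ → ℝ) ρ = ρ := cfc_id ℝ ρ hρ
  rw [e] at h
  exact h.eq

theorem sts_trace_comm {ρ : Matrix α α ℂ} (hρ : ρ.IsHermitian) (a : Matrix α α ℂ) :
    (ρ * (a * mlog ρ - mlog ρ * a)).trace = 0 := by
  rw [Matrix.mul_sub, trace_sub, ← Matrix.mul_assoc ρ a, trace_mul_comm, ← Matrix.mul_assoc, sts_comm hρ,
    Matrix.mul_assoc, sub_self]

theorem sts_cen {U : Matrix (γ × δ) (α × β) ℂ} {a QA : Matrix α α ℂ} {b QB : Matrix β β ℂ}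
    {c : Matrix γ γ ℂ} {c' : Matrix δ δ ℂ} {rA rB : ℝ} (h : BS U a QA b QB c c' rA rB)
    {ρA : Matrix α α ℂ} {ρB : Matrix β β ℂ} (hA : Dens ρA) (hB : Dens ρB) {σ : Matrix γ γ ℂ}
    {θ tA tC d ε cA : ℝ} (hσ : σ = out U ρA ρB + (θ : ℂ) • (1 : Matrix γ γ ℂ)) {NA FA : Matrix α α ℂ}
    (hN : a * NA - NA * a = a)
    (hEL : (((1 + d) * rA ^ 2 * Tm tA : ℝ) : ℂ) • mlog ρA = (Tm tC : ℂ) • adj U ρB (mlog σ) -
      ((rA ^ 2 : ℝ) : ℂ) • ((d : ℂ) • NA + (ε : ℂ) • FA) + (cA : ℂ) • (1 : Matrix α α ℂ)) :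
    (rA : ℂ) • cen U ρA ρB (sc σ tC c) = (((1 + d) * rA ^ 2 : ℝ) : ℂ) • sc ρA tA a +
      ((rA ^ 2 * ε : ℝ) : ℂ) • (a * FA - FA * a) +
      (Tm tC : ℂ) • (QA * ptr2 (((1 : Matrix α α ℂ) ⊗ₖ ρB) * bdy U c c' rA rB (mlog σ))) -
      (((rA ^ 2 : ℝ) : ℂ) * (ρA * a).trace) • (1 : Matrix α α ℂ) := by
  have hH : σ.IsHermitian := by
    rw [hσ]
    exact (out_posSemidef U hA.1 hB.1).1.add (isHermitian_one.smul (by simp [IsSelfAdjoint]))
  have e1 : (out U ρA ρB * (c * mlog σ - mlog σ * c)).trace = 0 := by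
    have h1 := sts_trace_comm hH c
    have h2 : out U ρA ρB = σ - (θ : ℂ) • (1 : Matrix γ γ ℂ) := by rw [hσ, add_sub_cancel_right]
    rw [h2, Matrix.sub_mul, trace_sub, h1, Matrix.smul_mul, Matrix.one_mul, trace_smul, trace_sub,
      trace_mul_comm, sub_self, smul_zero, sub_zero]
  have e2 : (out U ρA ρB * sc σ tC c).trace = (rA : ℂ) * (ρA * a).trace + (rB : ℂ) * (ρB * b).trace := by
    rw [sc, Matrix.mul_add, Matrix.mul_smul, trace_add, trace_smul, e1, smul_zero, zero_add, h.trace_out_c hA.2 hB.2]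
  have e3 : (Tm tC : ℂ) • adj U ρB (mlog σ) = (((1 + d) * rA ^ 2 * Tm tA : ℝ) : ℂ) • mlog ρA +
      ((rA ^ 2 : ℝ) : ℂ) • ((d : ℂ) • NA + (ε : ℂ) • FA) - (cA : ℂ) • (1 : Matrix α α ℂ) := by
    rw [hEL]; abel
  have e4 : (Tm tC : ℂ) • (a * adj U ρB (mlog σ) - adj U ρB (mlog σ) * a) =
      (((1 + d) * rA ^ 2 * Tm tA : ℝ) : ℂ) • (a * mlog ρA - mlog ρA * a) +
        ((rA ^ 2 : ℝ) : ℂ) • ((d : ℂ) • (a * NA - NA * a) + (ε : ℂ) • (a * FA - FA * a)) := by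
    rw [smul_sub, ← Matrix.mul_smul, ← Matrix.smul_mul, e3]
    simp only [Matrix.mul_sub, Matrix.sub_mul, Matrix.mul_add, Matrix.add_mul, Matrix.mul_smul, Matrix.smul_mul,
      Matrix.mul_one, Matrix.one_mul]
    module
  rw [cen, e2, sc, adj_add, adj_smul, smul_sub, smul_add, smul_comm (rA : ℂ) (Tm tC : ℂ), h.adj_comm, h.adj_c hB.2,
    smul_add (Tm tC : ℂ), e4, hN, sc]
  push_cast
  module

theorem stat_side' {U : Matrix (γ × δ) (α × β) ℂ} {a QA : Matrix α α ℂ} {b QB : Matrix β β ℂ}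
    {c : Matrix γ γ ℂ} {c' : Matrix δ δ ℂ} {rA rB : ℝ} (h : BS U a QA b QB c c' rA rB)
    {ρA : Matrix α α ℂ} {ρB : Matrix β β ℂ} (hA : Dens ρA) (hB : Dens ρB) {σ : Matrix γ γ ℂ}
    {θ tA tC d ε κ L cA : ℝ} (hσ : σ = out U ρA ρB + (θ : ℂ) • (1 : Matrix γ γ ℂ))
    (htA : 0 < tA) (htC : 0 < tC) (hκ : 0 ≤ κ) (hL : 0 ≤ L) {NA FA : Matrix α α ℂ}
    (hN : a * NA - NA * a = a)
    (hEL : (((1 + d) * rA ^ 2 * Tm tA : ℝ) : ℂ) • mlog ρA = (Tm tC : ℂ) • adj U ρB (mlog σ) -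
      ((rA ^ 2 : ℝ) : ℂ) • ((d : ℂ) • NA + (ε : ℂ) • FA) + (cA : ℂ) • (1 : Matrix α α ℂ))
    (ha : Bd a κ) (hc : Bd c κ) (hc' : Bd c' κ) (hl : Bd (mlog σ) L) :
    (1 + d) * rA ^ 2 * fi ρA tA a + rA * ((df ρA tA a)ᴴ * cen U ρA ρB (sc σ tC c)).trace.re ≤
        rA ^ 2 * ε * ((df ρA tA a)ᴴ * (a * FA - FA * a)).trace.re + rA ^ 2 * ‖(ρA * a).trace‖ ^ 2 +
          2 * Tm tC * tA * κ ^ 2 * L * Real.sqrt (ρA * QA).trace.re ∧
      rA ^ 2 * |d| * ‖(ρA * a).trace‖ ≤ rA ^ 2 * |ε| * ‖(ρA * (a * FA - FA * a)).trace‖ +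
        2 * Tm tC * κ * L * Real.sqrt (ρA * QA).trace.re := by
  have key := sts_cen h hA hB hσ hN hEL
  have hT := Tm_pos htC
  have hbd := h.bd_bdy hκ hc hc' hl
  set B := bdy U c c' rA rB (mlog σ) with hBdef
  set P := ptr2 (((1 : Matrix α α ℂ) ⊗ₖ ρB) * B) with hP
  set G := a * FA - FA * a with hG
  constructor
  · have k1 := congrArg (fun Z => ((df ρA tA a)ᴴ * Z).trace.re) key
    simp only [Matrix.mul_smul, Matrix.mul_sub, Matrix.mul_add, trace_smul, trace_sub, trace_add, smul_eq_mul,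
      Matrix.mul_one, Complex.add_re, Complex.sub_re, Complex.re_ofReal_mul, mul_assoc] at k1
    have t1 : (df ρA tA a)ᴴ.trace = -star (ρA * a).trace := by
      rw [df_conjTranspose hA.1.1, trace_sub, trace_smul, trace_smul, ← trace_conjTranspose, conjTranspose_mul,
        hA.1.1.eq, trace_mul_comm ρA aᴴ, smul_eq_mul, smul_eq_mul]
      push_cast
      ring
    have t2 : ((ρA * a).trace * (df ρA tA a)ᴴ.trace).re = -‖(ρA * a).trace‖ ^ 2 := by
      rw [t1, mul_neg, Complex.neg_re, Complex.star_def, Complex.mul_conj, Complex.ofReal_re, Complex.normSq_eq_norm_sq]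
    have hq : aᴴ * QA = 0 := by
      have := congrArg conjTranspose h.QAa
      rwa [conjTranspose_mul, h.QAh, conjTranspose_zero] at this
    have t3 : ((df ρA tA a)ᴴ * (QA * P)).trace = (tA : ℂ) * ((ρA ⊗ₖ ρB) * ((QA ⊗ₖ (1 : Matrix β β ℂ)) *
        (B * (aᴴ ⊗ₖ (1 : Matrix β β ℂ))))).trace := by
      rw [df_conjTranspose hA.1.1, ← Matrix.mul_assoc, Matrix.sub_mul, Matrix.smul_mul, Matrix.smul_mul,
        Matrix.mul_assoc ρA, hq, Matrix.mul_zero, smul_zero, sub_zero, Matrix.smul_mul, trace_smul, smul_eq_mul, hP,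
        trace_mul_ptr2_kron, ← Matrix.mul_assoc, ← Matrix.mul_assoc, trace_mul_comm _ (aᴴ ⊗ₖ (1 : Matrix β β ℂ)),
        ← Matrix.mul_assoc, ← mul_kronecker_mul, ← mul_kronecker_mul, Matrix.mul_one, Matrix.one_mul,
        Matrix.mul_assoc aᴴ]
    have t4 := norm_trace_Q_mul_le hA hB h.QAh h.QAi (by positivity)
      (hbd.mul (ha.conjTranspose.kron_one (β := β)))
    have t5 : ((df ρA tA a)ᴴ * (QA * P)).trace.re ≤ tA * (2 * κ * L * κ * Real.sqrt (ρA * QA).trace.re) := by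
      rw [t3, Complex.re_ofReal_mul]
      exact mul_le_mul_of_nonneg_left ((Complex.re_le_norm _).trans t4) htA.le
    have t6 := mul_le_mul_of_nonneg_left t5 hT.le
    rw [t2] at k1
    rw [fi]
    nlinarith
  · have k1 := congrArg (fun Z => (ρA * Z).trace) key
    have t1 : (ρA * sc ρA tA a).trace = (ρA * a).trace := by
      rw [sc, Matrix.mul_add, Matrix.mul_smul, trace_add, trace_smul, sts_trace_comm hA.1.1, smul_zero, zero_add]
    simp only [Matrix.mul_smul, Matrix.mul_sub (ρA), Matrix.mul_add, trace_smul, trace_sub, trace_add, smul_eq_mul,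
      Matrix.mul_one, trace_mul_cen U hA.2, t1, hA.2] at k1
    have t2 : ((rA ^ 2 * d : ℝ) : ℂ) * (ρA * a).trace =
        -(((rA ^ 2 * ε : ℝ) : ℂ) * (ρA * G).trace + (Tm tC : ℂ) * (ρA * (QA * P)).trace) := by
      push_cast at k1 ⊢
      linear_combination -k1
    have t3 : (ρA * (QA * P)).trace = ((ρA ⊗ₖ ρB) * ((QA ⊗ₖ (1 : Matrix β β ℂ)) * B)).trace := by
      rw [← Matrix.mul_assoc, hP, trace_mul_ptr2_kron, ← Matrix.mul_assoc, ← mul_kronecker_mul, Matrix.mul_one]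
    have t4 := norm_trace_Q_mul_le hA hB h.QAh h.QAi (by positivity) hbd
    have t5 := congrArg norm t2
    rw [norm_neg, norm_mul, Complex.norm_real, Real.norm_eq_abs, abs_mul, abs_of_nonneg (sq_nonneg rA)] at t5
    rw [t5]
    refine (norm_add_le _ _).trans (add_le_add (le_of_eq ?_) ?_)
    · rw [norm_mul, Complex.norm_real, Real.norm_eq_abs, abs_mul, abs_of_nonneg (sq_nonneg rA)]
    · rw [norm_mul, Complex.norm_real, Real.norm_eq_abs, abs_of_pos hT, t3]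
      exact (mul_le_mul_of_nonneg_left t4 hT.le).trans_eq (by ring)

end Crest.Agent.R331

end
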