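import Crest.Agent.R331.I.Basic
import Crest.Agent.R331.I.StatS
import Crest.Agent.R331.I.StatC

/-!
Row 331, block Stat: commutation relations, for one mode.  Notation: `𝔞 = rA c⊗1 - rB 1⊗c'`,
`𝔟 = rB c⊗1 + rA 1⊗c'`, `B_A = 𝔞ᴴ U (QA⊗1)`, so `𝔞ᴴ U = U (aᴴ⊗1) + B_A`; `Uᴴ (c⊗1) U = rA a⊗1 + rB 1⊗b`.
`α = tr ρA a`, `β = tr ρB b`, `γ = tr ρC c = rA α + rB β`.  The B side is the A side for `sw U` with
`(rA, rB, c')` replaced by `(rB, rA, -c')` (`BS.swap`).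
* `stat_comm`: `rA adj [c,Y] = [a, adj Y] + Ξ`, `Ξ = ptr2 ((1⊗ρB) B_Aᴴ (Y⊗1) U)`.
* `stat_side`: with the EL equation, `rA Z = rA² ((1+d) sc ρA + ε G - α) + T_C Ξ`, `Z = cen (sc σ c)`,
  `G = [a,F]` (the mean of `sc σ c` in `ρC` is `γ`).  Pair with `(df ρA)ᴴ` (trace `-conj α`,
  `(df ρA)ᴴ QA = tA aᴴ ρA QA`) and with `ρA` (`trace_mul_cen`); errors by `cs_state` in `ρA ⊗ ρB`.
* `stat_cov`: `rA out (df ρA)ᴴ ρB + rB out ρA (df ρB)ᴴ = (df σ)ᴴ + θ cᴴ - boundary`, the `c'` terms cancel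
  under `ptr2_cyc` because `tC = rA² tA + rB² tB`.
-/

set_option autoImplicit false

noncomputable section

namespace Crest.Agent.R331

open Matrix Crest.MathPhysics.Bosonic Crest.Agent.Lib.QEnt
open scoped ComplexOrder Kronecker

variable {α β γ δ : Type*} [Fintype α] [Fintype β] [Fintype γ] [Fintype δ]
  [DecidableEq α] [DecidableEq β] [DecidableEq γ] [DecidableEq δ]

theorem BS.swap {U : Matrix (γ × δ) (α × β) ℂ} {a QA : Matrix α α ℂ} {b QB : Matrix β β ℂ}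
    {c : Matrix γ γ ℂ} {c' : Matrix δ δ ℂ} {rA rB : ℝ} (h : BS U a QA b QB c c' rA rB) :
    BS (sw U) b QB a QA c (-c') rB rA := by
  exact h.exch

theorem BS.conj_c {U : Matrix (γ × δ) (α × β) ℂ} {a QA : Matrix α α ℂ} {b QB : Matrix β β ℂ}
    {c : Matrix γ γ ℂ} {c' : Matrix δ δ ℂ} {rA rB : ℝ} (h : BS U a QA b QB c c' rA rB) :
    (c ⊗ₖ (1 : Matrix δ δ ℂ)) * U =
      U * ((rA : ℂ) • (a ⊗ₖ (1 : Matrix β β ℂ)) + (rB : ℂ) • ((1 : Matrix α α ℂ) ⊗ₖ b)) := by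
  exact h.c_mul

/-- energy of the output -/
theorem stat_energy {U : Matrix (γ × δ) (α × β) ℂ} {a QA : Matrix α α ℂ} {b QB : Matrix β β ℂ}
    {c : Matrix γ γ ℂ} {c' : Matrix δ δ ℂ} {rA rB : ℝ} (h : BS U a QA b QB c c' rA rB)
    {ρA : Matrix α α ℂ} {ρB : Matrix β β ℂ} (hA : Dens ρA) (hB : Dens ρB) :
    |(out U ρA ρB * (cᴴ * c)).trace.re -
        (rA ^ 2 * (ρA * (aᴴ * a)).trace.re + rB ^ 2 * (ρB * (bᴴ * b)).trace.re)| ≤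
      ‖(ρA * a).trace‖ * ‖(ρB * b).trace‖ := by
  have e : (out U ρA ρB * (cᴴ * c)).trace =
      ((rA ^ 2 : ℝ) : ℂ) * (ρA * (aᴴ * a)).trace + ((rB ^ 2 : ℝ) : ℂ) * (ρB * (bᴴ * b)).trace +
        ((rA * rB : ℝ) : ℂ) * (star (ρA * a).trace * (ρB * b).trace +
          star (ρB * b).trace * (ρA * a).trace) := by
    have t1 : (ρA * aᴴ).trace = star (ρA * a).trace := by
      rw [← trace_conjTranspose, conjTranspose_mul, hA.1.1.eq, trace_mul_comm]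
    have t2 : (ρB * bᴴ).trace = star (ρB * b).trace := by
      rw [← trace_conjTranspose, conjTranspose_mul, hB.1.1.eq, trace_mul_comm]
    rw [h.trace_out_cH, h.adj_c hB.2, h.exch.adj_c hA.2]
    simp only [Matrix.mul_add, Matrix.mul_smul, Matrix.mul_one, trace_add, trace_smul, smul_eq_mul,
      t1, t2]
    push_cast
    ring
  rw [e]
  simp only [Complex.add_re, Complex.re_ofReal_mul, add_sub_cancel_left, abs_mul]
  have h1 : |rA| * |rB| ≤ 1 / 2 := by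
    have h2 : |rA| ^ 2 + |rB| ^ 2 = 1 := by rw [sq_abs, sq_abs]; exact h.sq
    nlinarith [sq_nonneg (|rA| - |rB|)]
  have h3 := Complex.abs_re_le_norm (star (ρA * a).trace * (ρB * b).trace)
  have h4 := Complex.abs_re_le_norm (star (ρB * b).trace * (ρA * a).trace)
  rw [norm_mul, norm_star] at h3 h4
  have h5 := (abs_add_le _ _).trans (add_le_add h3 h4)
  have h6 := mul_le_mul h1 h5 (abs_nonneg _) (by norm_num)
  linarith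

theorem stat_comm {U : Matrix (γ × δ) (α × β) ℂ} {a QA : Matrix α α ℂ} {b QB : Matrix β β ℂ}
    {c : Matrix γ γ ℂ} {c' : Matrix δ δ ℂ} {rA rB : ℝ} (h : BS U a QA b QB c c' rA rB)
    (ρB : Matrix β β ℂ) (Y : Matrix γ γ ℂ) :
    (rA : ℂ) • adj U ρB (c * Y - Y * c) = a * adj U ρB Y - adj U ρB Y * a +
      ptr2 (((1 : Matrix α α ℂ) ⊗ₖ ρB) * ((QA ⊗ₖ (1 : Matrix β β ℂ)) * Uᴴ *
        ((rA : ℂ) • (c ⊗ₖ (1 : Matrix δ δ ℂ)) - (rB : ℂ) • ((1 : Matrix γ γ ℂ) ⊗ₖ c')) *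
        (Y ⊗ₖ (1 : Matrix δ δ ℂ)) * U)) := by
  rw [h.adj_comm, ← ptr2_mul_left, ← kron_swap_mul]
  simp only [bdy, alp, Matrix.mul_assoc]

theorem stat_side {U : Matrix (γ × δ) (α × β) ℂ} {a QA : Matrix α α ℂ} {b QB : Matrix β β ℂ}
    {c : Matrix γ γ ℂ} {c' : Matrix δ δ ℂ} {rA rB : ℝ} (h : BS U a QA b QB c c' rA rB)
    {ρA : Matrix α α ℂ} {ρB : Matrix β β ℂ} (hA : Dens ρA) (hB : Dens ρB) {σ : Matrix γ γ ℂ}
    {θ tA tC d ε κ L cA : ℝ} (hθ : 0 < θ) (hσ : σ = out U ρA ρB + (θ : ℂ) • (1 : Matrix γ γ ℂ))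
    (htA : 0 < tA) (htC : 0 < tC) (hκ : 0 ≤ κ) (hL : 0 ≤ L) {NA FA : Matrix α α ℂ}
    (hN : a * NA - NA * a = a)
    (hEL : (((1 + d) * rA ^ 2 * Tm tA : ℝ) : ℂ) • mlog ρA = (Tm tC : ℂ) • adj U ρB (mlog σ) -
      ((rA ^ 2 : ℝ) : ℂ) • ((d : ℂ) • NA + (ε : ℂ) • FA) + (cA : ℂ) • (1 : Matrix α α ℂ))
    (ha : Bd a κ) (hc : Bd c κ) (hc' : Bd c' κ) (hl : Bd (mlog σ) L) :
    (1 + d) * rA ^ 2 * fi ρA tA a + rA * ((df ρA tA a)ᴴ * cen U ρA ρB (sc σ tC c)).trace.re ≤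
        rA ^ 2 * ε * ((df ρA tA a)ᴴ * (a * FA - FA * a)).trace.re + rA ^ 2 * ‖(ρA * a).trace‖ ^ 2 +
          2 * Tm tC * tA * κ ^ 2 * L * Real.sqrt (ρA * QA).trace.re ∧
      rA ^ 2 * |d| * ‖(ρA * a).trace‖ ≤ rA ^ 2 * |ε| * ‖(ρA * (a * FA - FA * a)).trace‖ +
        2 * Tm tC * κ * L * Real.sqrt (ρA * QA).trace.re := by
  exact stat_side' h hA hB hσ htA htC hκ hL hN hEL ha hc hc' hl

theorem stat_cov {U : Matrix (γ × δ) (α × β) ℂ} {a QA : Matrix α α ℂ} {b QB : Matrix β β ℂ}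
    {c : Matrix γ γ ℂ} {c' : Matrix δ δ ℂ} {rA rB : ℝ} (h : BS U a QA b QB c c' rA rB)
    {ρA : Matrix α α ℂ} {ρB : Matrix β β ℂ} (hA : Dens ρA) (hB : Dens ρB) {σ : Matrix γ γ ℂ}
    {θ tA tB tC κ L : ℝ} (hθ : 0 < θ) (hσ : σ = out U ρA ρB + (θ : ℂ) • (1 : Matrix γ γ ℂ))
    (htA : 0 < tA) (htB : 0 < tB) (htC : tC = rA ^ 2 * tA + rB ^ 2 * tB) (hκ : 0 ≤ κ) (hL : 0 ≤ L)
    (hc : Bd c κ) (hc' : Bd c' κ) (hl : Bd (mlog σ) L) :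
    fi σ tC c + rA * ((df ρA tA a)ᴴ * cen U ρA ρB (sc σ tC c)).trace.re +
        rB * ((df ρB tB b)ᴴ * cen (sw U) ρB ρA (sc σ tC c)).trace.re ≤
      ‖(ρA * a).trace‖ ^ 2 + ‖(ρB * b).trace‖ ^ 2 + κ ^ 2 * (2 * Tm tC * L + 1) *
        (θ * Fintype.card γ + 2 * (tA * Real.sqrt (ρA * QA).trace.re +
          tB * Real.sqrt (ρB * QB).trace.re)) := by
  exact stat_cov' h hA hB hθ hσ htA htB htC hκ hL hc hc' hl

end Crest.Agent.R331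

end
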