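import Crest.Agent.R331.I.Var
import Crest.Agent.R331.I.Anova
import Crest.Agent.R331.I.Gap
import Crest.Agent.R331.I.Stat
import Crest.Agent.R331.I.Apr

/-!
Row 331, block Key: the defect bound at a maximiser, with explicit error terms.  `var_main` for A
(`lam = (1+d) η Tm tA`, `F = η (d N + ε pen)`) and for B (through `sw`, `out_sw`); `anova_*` plus
`σ ≥ out`; `gap_main` with `lA = (1+d) √η`, `lB = (1+d) √(1-η)`; `rhs = (1+d) (cov + sideA + sideB)`;
each `rhs_j ≥ 0`, so `rhs_j ≤ ∑_i rhs_i`; `κ = √(2K)`.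
-/

set_option autoImplicit false

noncomputable section

namespace Crest.Agent.R331

open Matrix Crest.MathPhysics.Bosonic Crest.Agent.Lib.QEnt
open scoped ComplexOrder Kronecker

theorem Small.mono {α : Type*} [Fintype α] [DecidableEq α] {σ : Matrix α α ℂ} (hσ : σ.PosSemidef)
    {t : ℝ} {c : Matrix α α ℂ} {w w' : ℝ} (h : Small σ t c w) (hw : w ≤ w') : Small σ t c w' := by
  intro G
  refine (h G).trans (mul_le_mul_of_nonneg_right hw (add_nonneg ?_ ?_))
  · exact trace_mul_nonneg hσ (posSemidef_conjTranspose_mul_self G)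
  · exact trace_mul_nonneg hσ (posSemidef_self_mul_conjTranspose G)

theorem key_dN_herm (n K : ℕ) (f : ℕ → ℝ) : (dN n K f).IsHermitian := by
  unfold dN
  refine isHermitian_diagonal_of_self_adjoint _ ?_
  funext k
  simp

theorem key_F_herm (n K : ℕ) (e d ε : ℝ) :
    (((e : ℝ) : ℂ) • ((d : ℂ) • dN n K (fun m => (m : ℝ)) + (ε : ℂ) • dN n K pen)).IsHermitian := by
  unfold IsHermitian
  rw [conjTranspose_smul, conjTranspose_add, conjTranspose_smul, conjTranspose_smul, (key_dN_herm n K _).eq,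
    (key_dN_herm n K _).eq]
  simp

theorem key_F_trace {n K : ℕ} (ρ : Mt n K) (e d ε : ℝ) :
    (ρ * (((e : ℝ) : ℂ) • ((d : ℂ) • dN n K (fun m => (m : ℝ)) + (ε : ℂ) • dN n K pen))).trace.re =
      e * (d * en ρ + ε * ev pen ρ) := by
  rw [Matrix.mul_smul, Matrix.mul_add, Matrix.mul_smul, Matrix.mul_smul, trace_smul, trace_add, trace_smul, trace_smul,
    smul_eq_mul, smul_eq_mul, smul_eq_mul, Complex.re_ofReal_mul, Complex.add_re, Complex.re_ofReal_mul,
    Complex.re_ofReal_mul, ev_eq_trace, ev_eq_trace]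
  rfl

theorem key_sig_ge {γ : Type*} [Fintype γ] [DecidableEq γ] (M : Matrix γ γ ℂ) {θ : ℝ} (hθ : 0 ≤ θ) {X : Matrix γ γ ℂ}
    (hX : X.PosSemidef) : (M * X).trace.re ≤ ((M + (θ : ℂ) • (1 : Matrix γ γ ℂ)) * X).trace.re := by
  rw [Matrix.add_mul, trace_add, Complex.add_re, Matrix.smul_mul, trace_smul, smul_eq_mul, Complex.re_ofReal_mul]
  exact le_add_of_nonneg_right (mul_nonneg hθ (trace_mul_nonneg PosSemidef.one hX))

theorem key_main {n K : ℕ} {η d ε L tA tB : ℝ} (h0 : 0 < η) (h1 : η < 1) (hd : 0 < d) (hε : 0 ≤ ε)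
    (hL : 1 ≤ L) (htA : 0 < tA) (htB : 0 < tB)
    (hc : Real.exp (-L) * Fintype.card (Bl n (2 * K)) ≤ 1) {ρA ρB : Mt n K} (hA : Dens ρA)
    (hB : Dens ρB) (hmax : ∀ ρA' ρB' : Mt n K, Dens ρA' → Dens ρB' →
      Phi η d ε (Real.exp (-L)) tA tB ρA' ρB' ≤ Phi η d ε (Real.exp (-L)) tA tB ρA ρB) :
    (∀ j, η * d * ‖(ρA * low n K j).trace‖ ≤
      η * ε * ‖(ρA * (low n K j * dN n K pen - dN n K pen * low n K j)).trace‖ +
        2 * Tm (η * tA + (1 - η) * tB) * Real.sqrt (2 * K) * L *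
          Real.sqrt (ρA * topQ n K).trace.re) ∧
    (∀ j, (1 - η) * d * ‖(ρB * low n K j).trace‖ ≤
      (1 - η) * ε * ‖(ρB * (low n K j * dN n K pen - dN n K pen * low n K j)).trace‖ +
        2 * Tm (η * tA + (1 - η) * tB) * Real.sqrt (2 * K) * L *
          Real.sqrt (ρB * topQ n K).trace.re) ∧
    ∀ j, Small (sig η (Real.exp (-L)) ρA ρB) (η * tA + (1 - η) * tB) (low n (2 * K) j)
      ((1 + d) / d * (2 * ∑ i, ‖(ρA * low n K i).trace‖ ^ 2 + 2 * ∑ i, ‖(ρB * low n K i).trace‖ ^ 2 +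
        ε * (η * ∑ i, ((df ρA tA (low n K i))ᴴ *
            (low n K i * dN n K pen - dN n K pen * low n K i)).trace.re +
          (1 - η) * ∑ i, ((df ρB tB (low n K i))ᴴ *
            (low n K i * dN n K pen - dN n K pen * low n K i)).trace.re) +
        n * (2 * K) * (2 * Tm (η * tA + (1 - η) * tB) * L + 1) *
          (Real.exp (-L) * Fintype.card (Bl n (2 * K)) +
            3 * (tA * Real.sqrt (ρA * topQ n K).trace.re +
              tB * Real.sqrt (ρB * topQ n K).trace.re)))) := by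
  have h1' : 0 < 1 - η := sub_pos.2 h1
  have htC : 0 < η * tA + (1 - η) * tB := by positivity
  have hT := Tm_pos htC
  have hθ : 0 < Real.exp (-L) := Real.exp_pos _
  have hL0 : 0 ≤ L := zero_le_one.trans hL
  have hU := bs_iso h0.le h1.le n K
  have eA : Real.sqrt η ^ 2 = η := Real.sq_sqrt h0.le
  have eB : Real.sqrt (1 - η) ^ 2 = 1 - η := Real.sq_sqrt h1'.le
  have eK : Real.sqrt (2 * K) ^ 2 = 2 * K := Real.sq_sqrt (by positivity)
  have hσA : sig η (Real.exp (-L)) ρA ρB = out (bsU η n K) ρA ρB + (Real.exp (-L) : ℂ) • (1 : Mt n (2 * K)) := rfl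
  have hσB : sig η (Real.exp (-L)) ρA ρB =
      out (sw (bsU η n K)) ρB ρA + (Real.exp (-L) : ℂ) • (1 : Mt n (2 * K)) := by rw [out_sw]; rfl
  obtain ⟨pA, ⟨cA, elA⟩, kA⟩ := var_main hU hA hB hθ (lam := (1 + d) * η * Tm tA)
    (by have := Tm_pos htA; positivity) hT (key_F_herm n K η d ε) fun ρ' hρ' => by
      have h := hmax ρ' ρB hρ' hB
      unfold Phi sig at h
      rw [key_F_trace, key_F_trace]
      linarith
  obtain ⟨pB, ⟨cB, elB⟩, kB⟩ := var_main (sw_iso hU) hB hA hθ (lam := (1 + d) * (1 - η) * Tm tB)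
    (by have := Tm_pos htB; positivity) hT (key_F_herm n K (1 - η) d ε) fun ρ' hρ' => by
      have h := hmax ρA ρ' hA hρ'
      unfold Phi sig at h
      rw [key_F_trace, key_F_trace, out_sw, out_sw]
      linarith
  rw [← hσA] at elA kA
  rw [← hσB] at elB kB
  have hl := bd_mlog_sig h0.le h1.le hL hc hA hB
  have hκ : 0 ≤ Real.sqrt (2 * K) := Real.sqrt_nonneg _
  have ha : ∀ j, Bd (low n K j) (Real.sqrt (2 * K)) := fun j =>
    (low_bd n K j).mono (Real.sqrt_nonneg _) (Real.sqrt_le_sqrt (by linarith [(Nat.cast_nonneg K : (0 : ℝ) ≤ K)]))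
  have hcc : ∀ j, Bd (low n (2 * K) j) (Real.sqrt (2 * K)) := fun j => by
    have := low_bd n (2 * K) j
    rwa [Nat.cast_mul, Nat.cast_ofNat] at this
  have hcn : ∀ j, Bd (-low n (2 * K) j) (Real.sqrt (2 * K)) := fun j => by
    have := (hcc j).smul (-1)
    rwa [neg_one_smul, norm_neg, norm_one, one_mul] at this
  have sA := fun j => stat_side (bs_BS h0.le h1.le n K j) hA hB hθ hσA htA htC hκ hL0 (low_comm_num n K j)
    (FA := dN n K pen) (d := d) (ε := ε) (cA := cA) (by rw [eA]; exact elA) (ha j) (hcc j) (hcc j) hl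
  have sB := fun j => stat_side (bs_BS h0.le h1.le n K j).swap hB hA hθ hσB htB htC hκ hL0 (low_comm_num n K j)
    (FA := dN n K pen) (d := d) (ε := ε) (cA := cB) (by rw [eB]; exact elB) (ha j) (hcc j) (hcn j) hl
  have sC := fun j => stat_cov (bs_BS h0.le h1.le n K j) hA hB hθ hσA htA htB
    (tC := η * tA + (1 - η) * tB) (by rw [eA, eB]) hκ hL0 (hcc j) (hcc j) hl
  simp only [eA, eB, eK, abs_of_pos hd, abs_of_nonneg hε] at sA sB sC
  refine ⟨fun j => (sA j).2, fun j => (sB j).2, fun j => ?_⟩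
  have hσ := sig_posDef η hθ hA hB
  have g := fun i => gap_main pA pB hσ h0 h1 htA htB hd (cenL (bsU η n K) ρA ρB) (cenL (sw (bsU η n K)) ρB ρA)
    (fun Y => (anova_right hU hA hB Y).trans (key_sig_ge _ hθ.le (posSemidef_conjTranspose_mul_self Y)))
    (fun Y => (anova_left hU hA hB Y).trans (key_sig_ge _ hθ.le (posSemidef_self_mul_conjTranspose Y)))
    (fun V p W q hV hW Y => kA V p W q hV hW Y) (fun V p W q hV hW Y => kB V p W q hV hW Y)
    (low n K i) (low n K i) (low n (2 * K) i) ((1 + d) * Real.sqrt η) ((1 + d) * Real.sqrt (1 - η))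
  refine Small.mono hσ.posSemidef (g j).2 ?_
  rw [div_mul_eq_mul_div]
  refine div_le_div_of_nonneg_right ?_ hd.le
  refine (Finset.single_le_sum (fun i _ => (g i).1) (Finset.mem_univ j)).trans ?_
  set wA := Real.sqrt (ρA * topQ n K).trace.re with hwA
  set wB := Real.sqrt (ρB * topQ n K).trace.re with hwB
  have hwA0 : 0 ≤ wA := Real.sqrt_nonneg _
  have hwB0 : 0 ≤ wB := Real.sqrt_nonneg _
  set T := Tm (η * tA + (1 - η) * tB) with hTdef
  set E := 2 * K * (2 * T * L + 1) * (Real.exp (-L) * Fintype.card (Bl n (2 * K)) + 3 * (tA * wA + tB * wB)) with hE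
  have key : ∀ i, rhs ρA ρB (sig η (Real.exp (-L)) ρA ρB) tA tB (η * tA + (1 - η) * tB) d ((1 + d) * Real.sqrt η)
      ((1 + d) * Real.sqrt (1 - η)) (low n K i) (low n K i) (low n (2 * K) i)
      (cenL (bsU η n K) ρA ρB (sc (sig η (Real.exp (-L)) ρA ρB) (η * tA + (1 - η) * tB) (low n (2 * K) i)))
      (cenL (sw (bsU η n K)) ρB ρA (sc (sig η (Real.exp (-L)) ρA ρB) (η * tA + (1 - η) * tB) (low n (2 * K) i))) ≤
      (1 + d) * (2 * ‖(ρA * low n K i).trace‖ ^ 2 + 2 * ‖(ρB * low n K i).trace‖ ^ 2 +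
        ε * (η * ((df ρA tA (low n K i))ᴴ * (low n K i * dN n K pen - dN n K pen * low n K i)).trace.re +
          (1 - η) * ((df ρB tB (low n K i))ᴴ * (low n K i * dN n K pen - dN n K pen * low n K i)).trace.re) + E) := by
    intro i
    have a1 := (sA i).1
    have a2 := (sB i).1
    have a3 := sC i
    unfold rhs
    simp only [cenL, LinearMap.coe_mk, AddHom.coe_mk]
    rw [mul_pow, mul_pow, eA, eB]
    generalize ((df ρA tA (low n K i))ᴴ * cen (bsU η n K) ρA ρB
      (sc (sig η (Real.exp (-L)) ρA ρB) (η * tA + (1 - η) * tB) (low n (2 * K) i))).trace.re = XA at *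
    generalize ((df ρB tB (low n K i))ᴴ * cen (sw (bsU η n K)) ρB ρA
      (sc (sig η (Real.exp (-L)) ρA ρB) (η * tA + (1 - η) * tB) (low n (2 * K) i))).trace.re = XB at *
    generalize ((df ρA tA (low n K i))ᴴ * (low n K i * dN n K pen - dN n K pen * low n K i)).trace.re = GA at *
    generalize ((df ρB tB (low n K i))ᴴ * (low n K i * dN n K pen - dN n K pen * low n K i)).trace.re = GB at *
    generalize fi (sig η (Real.exp (-L)) ρA ρB) (η * tA + (1 - η) * tB) (low n (2 * K) i) = FC at *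
    generalize fi ρA tA (low n K i) = FA at *
    generalize fi ρB tB (low n K i) = FB at *
    have b1 : η * ‖(ρA * low n K i).trace‖ ^ 2 ≤ ‖(ρA * low n K i).trace‖ ^ 2 :=
      mul_le_of_le_one_left (sq_nonneg _) h1.le
    have b2 : (1 - η) * ‖(ρB * low n K i).trace‖ ^ 2 ≤ ‖(ρB * low n K i).trace‖ ^ 2 :=
      mul_le_of_le_one_left (sq_nonneg _) (by linarith)
    generalize ‖(ρA * low n K i).trace‖ ^ 2 = mA at *
    generalize ‖(ρB * low n K i).trace‖ ^ 2 = mB at *
    have b3 : 0 ≤ 2 * (K : ℝ) * (tA * wA + tB * wB) := by positivity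
    have b4 : FC + (Real.sqrt η * XA + Real.sqrt (1 - η) * XB) + ((1 + d) * η * FA + Real.sqrt η * XA) +
        ((1 + d) * (1 - η) * FB + Real.sqrt (1 - η) * XB) ≤
        2 * mA + 2 * mB + ε * (η * GA + (1 - η) * GB) + E := by
      rw [hE]
      linarith
    calc _ = (1 + d) * (FC + (Real.sqrt η * XA + Real.sqrt (1 - η) * XB) + ((1 + d) * η * FA + Real.sqrt η * XA) +
        ((1 + d) * (1 - η) * FB + Real.sqrt (1 - η) * XB)) := by ring
      _ ≤ _ := mul_le_mul_of_nonneg_left b4 (by linarith)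
  refine (Finset.sum_le_sum fun i _ => key i).trans (le_of_eq ?_)
  rw [← Finset.mul_sum]
  congr 1
  simp only [Finset.sum_add_distrib, ← Finset.mul_sum, Finset.sum_const, Finset.card_univ, Fintype.card_fin,
    nsmul_eq_mul, hE]
  ring

end Crest.Agent.R331

end
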