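import Crest.Agent.R331.I.Basic
import Crest.Agent.R331.M3b

/-!
Row 331, block M3: the mean `kap`.  For `b : Fin 4 → ℕ`, `w_b = ∏ (l + ξ j)^{-b j}`,
`I_a(b) = ∫ l^a w_b`, `ρ(b) = I_1/I_0`: `I_0(b) = I_1(b+e_j) + ξ_j I_0(b+e_j)`,
`(|b|-2) I_1(b) = ∑ b_j ξ_j I_1(b+e_j)`, so `(|b|-2) ρ(b) = ∑ b_j (ξ_j : ρ(b+e_j))` (parallel sum).
`Good` is closed under sums, scalars, parallel sums; start at depth `N` from `1/∑ (b_j/ξ_j)`.
-/

set_option autoImplicit false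

noncomputable section

namespace Crest.Agent.R331

open Matrix Crest.MathPhysics.Bosonic Crest.Agent.Lib.QEnt
open scoped ComplexOrder Kronecker

theorem kap_nonneg {ξ : Fin 4 → ℝ} (hξ : ∀ j, 0 < ξ j) : 0 ≤ kap ξ := by
  exact (kap_pos' hξ).le

theorem kap_id {x y u v : ℝ} (hx : 0 < x) (hy : 0 < y) (hu : 0 < u) (hv : 0 < v)
    (h : lm x y = lm u v) : kap ![x, y, u, v] * (u + v - x - y) = x * y - u * v := by
  have key := kap_var' (ξ := ![x, y, u, v]) (fun j => by fin_cases j <;> simp [*]) (by simpa using h)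
  simp only [Matrix.cons_val_zero, Matrix.cons_val_one, Matrix.cons_val] at key
  linarith

theorem kap_good {ι κ : Type*} [Fintype ι] [Fintype κ] (T : (κ → ℂ) →ₗ[ℂ] (ι → ℂ)) (c : ℝ)
    {ξ : ι → Fin 4 → ℝ} {ζ : κ → Fin 4 → ℝ} (hξ : ∀ i j, 0 < ξ i j) (hζ : ∀ k j, 0 < ζ k j)
    (hc : 0 ≤ c) (h : ∀ j, Good T c (fun i => ξ i j) (fun k => ζ k j)) :
    Good T c (fun i => kap (ξ i)) (fun k => kap (ζ k)) := by
  exact kap_good' hc hξ hζ h

end Crest.Agent.R331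

end
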