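import Crest.Agent.R331.I.Key
import Crest.Agent.R331.I.Close

/-!
Row 331, block Max: `ε = 1/K`, `θ = e^{-K}`, `L = K`.  Take a maximiser; if `Phi < 0` there is nothing to
do, otherwise `apriori` holds, the top masses are `≤ 7 C/K^6`, all error terms of `key_main` tend to `0`
uniformly (`max_small`), and `Phi ≤ (η E_A + (1-η) E_B - n tC) - T_C (ent σ - n g tC)` by `gibbs`;
`stat_energy`, `close_energy`, `close_ent`.
-/

set_option autoImplicit false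

noncomputable section

namespace Crest.Agent.R331

open Matrix Crest.MathPhysics.Bosonic Crest.Agent.Lib.QEnt
open scoped ComplexOrder Kronecker

theorem ms_top {n K : ℕ} (hK : 1 ≤ K) {ρ : Mt n K} (hρ : Dens ρ) {C : ℝ} (hC : 0 < C)
    (hp : 1 / (K : ℝ) * ev pen ρ ≤ C) :
    Real.sqrt (ρ * topQ n K).trace.re ≤ Real.sqrt (7 * C) / (K : ℝ) ^ 3 := by
  have hK0 : (0 : ℝ) < K := by exact_mod_cast hK
  have h1 := top_mass hρ
  rw [one_div, inv_mul_le_iff₀ hK0] at hp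
  refine Real.sqrt_le_iff.2 ⟨by positivity, ?_⟩
  rw [div_pow, Real.sq_sqrt (by positivity), le_div_iff₀ (by positivity)]
  refine le_of_mul_le_mul_left ?_ hK0
  calc (K : ℝ) * ((ρ * topQ n K).trace.re * ((K : ℝ) ^ 3) ^ 2) = (K : ℝ) ^ 7 * (ρ * topQ n K).trace.re := by ring
    _ ≤ _ := by linarith

theorem ms_mean {K : ℕ} (hK : 1 ≤ K) {e d ε T s q m P δ : ℝ} (he : 0 < e) (hd : 0 < d) (hT : 0 < T) (hs : 0 ≤ s)
    (hq : q ≤ s / (K : ℝ) ^ 3) (hP : ε * P ≤ d * δ / 2) (hK' : 4 * T * s / K ≤ e * d * δ / 2)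
    (h : e * d * m ≤ e * ε * P + 2 * T * Real.sqrt (2 * K) * K * q) : m ≤ δ := by
  have hK1 : (1 : ℝ) ≤ K := by exact_mod_cast hK
  have h1 : Real.sqrt (2 * K) ≤ 2 * K := Real.sqrt_le_iff.2 ⟨by positivity, by nlinarith⟩
  have h2 : 2 * T * Real.sqrt (2 * K) * K * q ≤ 4 * T * s / K := by
    calc 2 * T * Real.sqrt (2 * K) * K * q ≤ 2 * T * Real.sqrt (2 * K) * K * (s / (K : ℝ) ^ 3) := by gcongr
      _ ≤ 2 * T * (2 * K) * K * (s / (K : ℝ) ^ 3) := by gcongr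
      _ = _ := by field_simp; ring
  have h3 := mul_le_mul_of_nonneg_left hP he.le
  refine le_of_mul_le_mul_left ?_ (mul_pos he hd)
  linarith [mul_assoc e ε P]

theorem ms_sum {n : ℕ} {f : Fin n → ℝ} {δ : ℝ} (h0 : ∀ j, 0 ≤ f j) (h : ∀ j, f j ≤ δ) (h1 : δ ≤ 1) : ∑ j, f j ^ 2 ≤ n * δ := by
  calc ∑ j, f j ^ 2 ≤ ∑ _j : Fin n, δ := Finset.sum_le_sum fun j _ => by nlinarith [h0 j, h j]
    _ = _ := by simp

theorem max_small (n : ℕ) {η d tA tB : ℝ} (h0 : 0 < η) (h1 : η < 1) (hd : 0 < d) (htA : 0 < tA)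
    (htB : 0 < tB) {C : ℝ} (hC : 0 < C) {w : ℝ} (hw : 0 < w) :
    ∃ K₀ : ℕ, ∀ K : ℕ, K₀ ≤ K → ∀ ρA ρB : Mt n K, Dens ρA → Dens ρB →
      (∀ ρA' ρB' : Mt n K, Dens ρA' → Dens ρB' →
        Phi η d (1 / K) (Real.exp (-K)) tA tB ρA' ρB' ≤ Phi η d (1 / K) (Real.exp (-K)) tA tB ρA ρB) →
      1 / (K : ℝ) * ev pen ρA ≤ C → 1 / (K : ℝ) * ev pen ρB ≤ C →
      (∀ j, ‖(ρA * low n K j).trace‖ ≤ w) ∧ (∀ j, ‖(ρB * low n K j).trace‖ ≤ w) ∧
      ∀ j, Small (sig η (Real.exp (-K)) ρA ρB) (η * tA + (1 - η) * tB) (low n (2 * K) j) w := by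
  have h1' : 0 < 1 - η := by linarith
  have hT := Tm_pos (t := η * tA + (1 - η) * tB) (by positivity)
  obtain ⟨δ, hδ, hδw, hδ1, hδn⟩ : ∃ δ : ℝ, 0 < δ ∧ δ ≤ w ∧ δ ≤ 1 ∧ (1 + d) / d * (4 * n * δ) ≤ w / 2 := by
    have ha : 0 < (1 + d) / d * (4 * n) + 1 := by positivity
    refine ⟨min (min w 1) (w / 2 / ((1 + d) / d * (4 * n) + 1)), by positivity, (min_le_left _ _).trans (min_le_left _ _),
      (min_le_left _ _).trans (min_le_right _ _), ?_⟩
    have hb := min_le_right (min w 1) (w / 2 / ((1 + d) / d * (4 * n) + 1))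
    have hc : 0 < min (min w 1) (w / 2 / ((1 + d) / d * (4 * n) + 1)) := by positivity
    rw [le_div_iff₀ ha] at hb
    linarith
  obtain ⟨CA, hCA0, hCA⟩ := pen_drift n htA
  obtain ⟨CB, hCB0, hCB⟩ := pen_drift n htB
  obtain ⟨ε₀, hε₀, hpm⟩ := pen_mean hC (δ := d * δ / 2) (by positivity)
  have hs : 0 ≤ Real.sqrt (7 * C) := Real.sqrt_nonneg _
  have t1 := tendsto_const_div_atTop_nhds_zero_nat (1 : ℝ)
  have t2 := tendsto_const_div_atTop_nhds_zero_nat (4 * Tm (η * tA + (1 - η) * tB) * Real.sqrt (7 * C))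
  have t3 := tendsto_card_exp n 0
  have t4 := (((tendsto_const_div_atTop_nhds_zero_nat (CA + CB)).add
    ((tendsto_card_exp n 2).const_mul (2 * n * (2 * Tm (η * tA + (1 - η) * tB) + 1)))).add
    (tendsto_const_div_atTop_nhds_zero_nat
      (6 * n * (2 * Tm (η * tA + (1 - η) * tB) + 1) * (tA + tB) * Real.sqrt (7 * C)))).const_mul ((1 + d) / d)
  simp only [mul_zero, add_zero] at t4
  obtain ⟨K₀, hK₀⟩ := Filter.eventually_atTop.1 ((Filter.eventually_ge_atTop 1).and ((t1.eventually (ge_mem_nhds hε₀)).and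
    ((t2.eventually (ge_mem_nhds (show 0 < η * d * δ / 2 by positivity))).and
    ((t2.eventually (ge_mem_nhds (show 0 < (1 - η) * d * δ / 2 by positivity))).and
    ((t3.eventually (ge_mem_nhds one_pos)).and (t4.eventually (ge_mem_nhds (half_pos hw))))))))
  refine ⟨K₀, fun K hK ρA ρB hA hB hmax hpA hpB => ?_⟩
  obtain ⟨k1, k2, k3, k4, k5, k6⟩ := hK₀ K hK
  have hK1 : (1 : ℝ) ≤ K := by exact_mod_cast k1
  have hε : (0 : ℝ) ≤ 1 / K := by positivity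
  rw [pow_zero, mul_one] at k5
  obtain ⟨mA, mB, mS⟩ := key_main h0 h1 hd hε hK1 htA htB k5 hA hB hmax
  have qA := ms_top k1 hA hC hpA
  have qB := ms_top k1 hB hC hpB
  have bA : ∀ j, ‖(ρA * low n K j).trace‖ ≤ δ := fun j =>
    ms_mean k1 h0 hd hT hs qA (hpm _ hε k2 n K ρA hA hpA j) k3 (mA j)
  have bB : ∀ j, ‖(ρB * low n K j).trace‖ ≤ δ := fun j =>
    ms_mean k1 h1' hd hT hs qB (hpm _ hε k2 n K ρB hB hpB j) k4 (mB j)
  refine ⟨fun j => (bA j).trans hδw, fun j => (bB j).trans hδw, fun j =>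
    (mS j).mono (sig_posDef η (Real.exp_pos _) hA hB).posSemidef ?_⟩
  have sA := ms_sum (fun j => norm_nonneg _) bA hδ1
  have sB := ms_sum (fun j => norm_nonneg _) bB hδ1
  have dA := hCA K ρA hA
  have dB := hCB K ρB hB
  generalize (∑ i, ((df ρA tA (low n K i))ᴴ * (low n K i * dN n K pen - dN n K pen * low n K i)).trace.re) = xA at dA ⊢
  generalize (∑ i, ((df ρB tB (low n K i))ᴴ * (low n K i * dN n K pen - dN n K pen * low n K i)).trace.re) = xB at dB ⊢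
  generalize (∑ i, ‖(ρA * low n K i).trace‖ ^ 2) = yA at sA ⊢
  generalize (∑ i, ‖(ρB * low n K i).trace‖ ^ 2) = yB at sB ⊢
  generalize Real.sqrt (ρA * topQ n K).trace.re = zA at qA ⊢
  generalize Real.sqrt (ρB * topQ n K).trace.re = zB at qB ⊢
  have hD : 0 ≤ Real.exp (-(K : ℝ)) * Fintype.card (Bl n (2 * K)) := by positivity
  generalize Real.exp (-(K : ℝ)) * Fintype.card (Bl n (2 * K)) = D at hD k6 ⊢
  generalize Tm (η * tA + (1 - η) * tB) = T at hT k6 ⊢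
  generalize Real.sqrt (7 * C) = s at hs qA qB k6
  have e1 : 1 / (K : ℝ) * (η * xA + (1 - η) * xB) ≤ (CA + CB) / K := by
    rw [div_eq_inv_mul (CA + CB), one_div]
    refine mul_le_mul_of_nonneg_left ?_ (by positivity)
    nlinarith
  have e2 : (n : ℝ) * (2 * K) * (2 * T * K + 1) * (D + 3 * (tA * zA + tB * zB)) ≤
      2 * n * (2 * T + 1) * (D * ((K : ℝ) + 1) ^ 2) + 6 * n * (2 * T + 1) * (tA + tB) * s / K := by
    calc (n : ℝ) * (2 * K) * (2 * T * K + 1) * (D + 3 * (tA * zA + tB * zB))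
        ≤ n * (2 * K) * (2 * T * K + 1) * (D + 3 * (tA * (s / (K : ℝ) ^ 3) + tB * (s / (K : ℝ) ^ 3))) := by gcongr
      _ ≤ n * (2 * K) * (2 * T * K + K) * (D + 3 * (tA * (s / (K : ℝ) ^ 3) + tB * (s / (K : ℝ) ^ 3))) := by gcongr
      _ = 2 * n * (2 * T + 1) * (D * (K : ℝ) ^ 2) + 6 * n * (2 * T + 1) * (tA + tB) * s / K := by
        field_simp
        ring
      _ ≤ _ := by gcongr; linarith
  have e3 : 0 ≤ (1 + d) / d := by positivity
  have e4 := mul_le_mul_of_nonneg_left (add_le_add (add_le_add (show 2 * yA + 2 * yB ≤ 4 * n * δ by linarith) e1) e2) e3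
  linarith

theorem mm_ev_pen_nonneg {n K : ℕ} {ρ : Mt n K} (hρ : Dens ρ) : 0 ≤ ev pen ρ := by
  have h := ev_mono (n := n) (K := K) (f := fun _ => 0) (g := pen)
    (fun m _ => Finset.sum_nonneg fun i _ => by positivity) hρ.1
  rw [ev_const] at h
  simpa using h

theorem mm_energy {η : ℝ} (h0 : 0 < η) (h1 : η < 1) {n K : ℕ} {ρA ρB : Mt n K} (hA : Dens ρA)
    (hB : Dens ρB) {w : ℝ} (ha : ∀ j, ‖(ρA * low n K j).trace‖ ≤ w)
    (hb : ∀ j, ‖(ρB * low n K j).trace‖ ≤ w) :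
    |en (out (bsU η n K) ρA ρB) - (η * en ρA + (1 - η) * en ρB)| ≤ n * w ^ 2 := by
  rw [← sum_trace_low, ← sum_trace_low ρA, ← sum_trace_low ρB, Finset.mul_sum, Finset.mul_sum,
    ← Finset.sum_add_distrib, ← Finset.sum_sub_distrib]
  refine (Finset.abs_sum_le_sum_abs _ _).trans ?_
  have : ∀ j : Fin n, |(out (bsU η n K) ρA ρB * ((low n (2 * K) j)ᴴ * low n (2 * K) j)).trace.re -
      (η * (ρA * ((low n K j)ᴴ * low n K j)).trace.re +
        (1 - η) * (ρB * ((low n K j)ᴴ * low n K j)).trace.re)| ≤ w ^ 2 := by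
    intro j
    have h := stat_energy (bs_BS h0.le h1.le n K j) hA hB
    rw [Real.sq_sqrt h0.le, Real.sq_sqrt (by linarith)] at h
    refine h.trans ?_
    rw [sq]
    exact mul_le_mul (ha j) (hb j) (norm_nonneg _) ((norm_nonneg _).trans (ha j))
  refine (Finset.sum_le_sum fun j _ => this j).trans ?_
  simp

theorem mm_exists_w (n : ℕ) (t E w₁ : ℝ) (hw₁ : 0 < w₁) {δ : ℝ} (hδ : 0 < δ) :
    ∃ w : ℝ, 0 < w ∧ w ≤ w₁ ∧ w ≤ 1 ∧
      n * t * w + n * Real.sqrt (w * (2 * E + 2)) + n * w ^ 2 ≤ δ := by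
  have hc : Continuous fun w : ℝ => n * t * w + n * Real.sqrt (w * (2 * E + 2)) + n * w ^ 2 := by
    fun_prop
  have h1 : ∀ᶠ w in nhds (0 : ℝ),
      n * t * w + n * Real.sqrt (w * (2 * E + 2)) + n * w ^ 2 < δ := by
    refine (hc.tendsto 0).eventually (gt_mem_nhds ?_)
    simpa using hδ
  have h2 : ∀ᶠ w in nhds (0 : ℝ), w < w₁ := gt_mem_nhds hw₁
  have h3 : ∀ᶠ w in nhds (0 : ℝ), w < 1 := gt_mem_nhds one_pos
  have h4 : ∀ᶠ w in nhdsWithin (0 : ℝ) (Set.Ioi 0), 0 < w := self_mem_nhdsWithin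
  obtain ⟨w, hw⟩ := (((h1.and (h2.and h3)).filter_mono nhdsWithin_le_nhds).and h4).exists
  exact ⟨w, hw.2, hw.1.2.1.le, hw.1.2.2.le, hw.1.1.le⟩

theorem max_main (n : ℕ) {η d tA tB : ℝ} (h0 : 0 < η) (h1 : η < 1) (hd : 0 < d) (htA : 0 < tA)
    (htB : 0 < tB) {δ : ℝ} (hδ : 0 < δ) :
    ∃ K₀ : ℕ, ∀ K : ℕ, K₀ ≤ K → ∀ ρA ρB : Mt n K, Dens ρA → Dens ρB →
      Phi η d (1 / K) (Real.exp (-K)) tA tB ρA ρB ≤ δ := by
  have h1' : 0 < 1 - η := by linarith
  have htC : 0 < η * tA + (1 - η) * tB := by positivity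
  have hT := Tm_pos htC
  obtain ⟨C, hC, hapr⟩ := apriori n h0 h1 hd htA htB
  obtain ⟨w₁, hw₁, M, hcl⟩ := close_ent n htC (C + n + 1)
    (δ := δ / (2 * Tm (η * tA + (1 - η) * tB))) (by positivity)
  obtain ⟨w, hw, hww, hw1, hwδ⟩ := mm_exists_w n (η * tA + (1 - η) * tB) (C + n + 1) w₁ hw₁
    (half_pos hδ)
  obtain ⟨K₁, hK₁⟩ := max_small n h0 h1 hd htA htB hC hw
  obtain ⟨K₂, hK₂⟩ := Filter.eventually_atTop.1
    ((tendsto_card_exp n 1).eventually (gt_mem_nhds (half_pos hw)))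
  refine ⟨max K₁ (max K₂ M), fun K hK ρA' ρB' hA' hB' => ?_⟩
  have hK1 : K₁ ≤ K := le_trans (le_max_left _ _) hK
  have hK2 : K₂ ≤ K := le_trans (le_trans (le_max_left _ _) (le_max_right _ _)) hK
  have hKM : M ≤ K := le_trans (le_trans (le_max_right _ _) (le_max_right _ _)) hK
  set θ := Real.exp (-(K : ℝ)) with hθ
  have hθ0 : 0 < θ := Real.exp_pos _
  have hK0 : (0 : ℝ) ≤ K := Nat.cast_nonneg K
  have hcard : θ * Fintype.card (Bl n (2 * K)) * ((K : ℝ) + 1) < w / 2 := by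
    simpa using hK₂ K hK2
  set D := θ * Fintype.card (Bl n (2 * K)) with hD
  have hD0 : 0 ≤ D := by positivity
  have hDw : D ≤ w := by nlinarith
  have hDK : D * (2 * K) ≤ 1 := by nlinarith
  obtain ⟨ρA, ρB, hA, hB, hmax⟩ := exists_max η d (1 / K) θ tA tB hθ0.le n K
  refine (hmax ρA' ρB' hA' hB').trans ?_
  by_cases hneg : Phi η d (1 / K) θ tA tB ρA ρB < 0
  · linarith
  have hε : (0 : ℝ) ≤ 1 / K := by positivity
  obtain ⟨hEA, hEB, hpA, hpB⟩ := hapr K (1 / K) θ hε hθ0.le (hDw.trans hw1) ρA ρB hA hB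
    (not_lt.1 hneg)
  obtain ⟨ha, hb, hs⟩ := hK₁ K hK1 ρA ρB hA hB hmax hpA hpB
  have hen := abs_le.1 (mm_energy h0 h1 hA hB ha hb)
  obtain ⟨hs1, hs2⟩ := en_sig η θ hθ0.le ρA ρB
  have hσ := (sig_posDef η hθ0 hA hB).posSemidef
  have htr := trace_sig h0.le h1.le θ hA hB
  have hn : (0 : ℝ) ≤ n := Nat.cast_nonneg n
  have hw2 : w ^ 2 ≤ 1 := by nlinarith
  have hE0 : en (sig η θ ρA ρB) ≤ C + n + 1 := by
    have : η * en ρA + (1 - η) * en ρB ≤ C := by nlinarith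
    have : (n : ℝ) * w ^ 2 ≤ n := by nlinarith
    linarith [hen.2]
  have hent := hcl (2 * K) (by omega) (sig η θ ρA ρB) hσ (by rw [htr]; linarith)
    (by rw [htr]; linarith) hE0 fun j => (hs j).mono hσ hww
  have hce := close_energy hσ htC hw.le hs
  have hsq : Real.sqrt (w * (2 * en (sig η θ ρA ρB) + (sig η θ ρA ρB).trace.re)) ≤
      Real.sqrt (w * (2 * (C + n + 1) + 2)) := by
    refine Real.sqrt_le_sqrt (mul_le_mul_of_nonneg_left ?_ hw.le)
    rw [htr]; linarith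
  have hgA := gibbs hA htA
  have hgB := gibbs hB htB
  have hpA0 := mm_ev_pen_nonneg hA
  have hpB0 := mm_ev_pen_nonneg hB
  have e1 : (1 + d) * (η * Tm tA * (ent ρA - n * gBose tA) +
      (1 - η) * Tm tB * (ent ρB - n * gBose tB)) ≤
      (1 + d) * (η * (en ρA - n * tA) + (1 - η) * (en ρB - n * tB)) := by
    refine mul_le_mul_of_nonneg_left ?_ (by linarith)
    have := mul_le_mul_of_nonneg_left hgA h0.le
    have := mul_le_mul_of_nonneg_left hgB h1'.le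
    linarith [mul_assoc η (Tm tA) (ent ρA - n * gBose tA),
      mul_assoc (1 - η) (Tm tB) (ent ρB - n * gBose tB)]
  have e2 : -(Tm (η * tA + (1 - η) * tB) *
      (ent (sig η θ ρA ρB) - n * gBose (η * tA + (1 - η) * tB))) ≤ δ / 2 := by
    have := mul_le_mul_of_nonneg_left hent hT.le
    have e : Tm (η * tA + (1 - η) * tB) * (δ / (2 * Tm (η * tA + (1 - η) * tB))) = δ / 2 := by
      field_simp
    nlinarith
  have e3 : 0 ≤ 1 / (K : ℝ) * (η * ev pen ρA + (1 - η) * ev pen ρB) := by positivity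
  have e4 : (n : ℝ) * (η * tA + (1 - η) * tB) * (sig η θ ρA ρB).trace.re ≤
      n * (η * tA + (1 - η) * tB) * (1 + w) := by
    refine mul_le_mul_of_nonneg_left ?_ (by positivity)
    rw [htr]; linarith
  have e5 := mul_le_mul_of_nonneg_left hsq hn
  unfold Phi
  linarith [hen.1]

end Crest.Agent.R331

end
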