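import Crest.Agent.R331.I.Basic
import Crest.Agent.R331.Second

/-!
Row 331, block Var: Klein's inequality with its equality case, Gibbs states, second-order comparison.
-/

set_option autoImplicit false

noncomputable section

namespace Crest.Agent.R331

open Matrix Filter Topology Crest.Agent.Lib.QEnt
open scoped ComplexOrder Kronecker

variable {α : Type*} [Fintype α] [DecidableEq α]

theorem vk_scalar {p : ℝ} (hp : 0 ≤ p) (h : ℝ) : 0 ≤ Real.exp h - p - Real.negMulLog p - p * h ∧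
    (Real.exp h - p - Real.negMulLog p - p * h = 0 → p = Real.exp h) := by
  rcases hp.eq_or_lt with rfl | hp
  · simp [Real.exp_nonneg]
  · have e : Real.exp h - p - Real.negMulLog p - p * h = p * (Real.exp (h - Real.log p) - (h - Real.log p + 1)) := by
      rw [Real.exp_sub, Real.exp_log hp, Real.negMulLog]
      field_simp
      ring
    rw [e]
    refine ⟨mul_nonneg hp.le (sub_nonneg.2 (Real.add_one_le_exp _)), fun h0 => ?_⟩
    by_contra hne
    have h1 : h - Real.log p ≠ 0 := fun h2 => hne (by rw [sub_eq_zero.1 h2, Real.exp_log hp])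
    exact (mul_pos hp (sub_pos.2 (Real.add_one_lt_exp h1))).ne' h0

theorem vk_trace_mul {A V : Matrix α α ℂ} {p : α → ℝ} (h : IsDiag A V p) (X : Matrix α α ℂ) :
    (A * X).trace.re = ∑ k, p k * dg V X k := by
  conv_lhs => rw [h.eq, Matrix.mul_assoc, Matrix.mul_assoc, trace_mul_comm, Matrix.mul_assoc, Matrix.mul_assoc,
    ← Matrix.mul_assoc Vᴴ]
  simp only [Matrix.trace, diag_apply, diagonal_mul, Complex.re_sum, dg, Complex.re_ofReal_mul]

theorem vk_sum {A V H W : Matrix α α ℂ} {p h : α → ℝ} (hA : IsDiag A V p) (hH : IsDiag H W h) :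
    trf Real.exp H - A.trace.re - ent A - (A * H).trace.re =
      ∑ k, ∑ m, Complex.normSq ((Wᴴ * V) m k) * (Real.exp (h m) - p k - Real.negMulLog (p k) - p k * h m) := by
  have hU := sec_uni hH.uni hA.uni
  rw [hH.trf, hA.trace_re, isDiag_ent hA, vk_trace_mul hA]
  simp only [hH.dg_eq, mul_sub, Finset.sum_sub_distrib, ← Finset.sum_mul, sum_normSq_col hU, one_mul]
  rw [Finset.sum_comm]
  simp only [← Finset.sum_mul, sum_normSq_row hU, one_mul, Finset.mul_sum, mul_left_comm]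

/-- Klein's inequality -/
theorem vk_klein {A H : Matrix α α ℂ} (hA : A.PosSemidef) (hH : H.IsHermitian) :
    ent A + (A * H).trace.re + A.trace.re ≤ trf Real.exp H := by
  obtain ⟨V, p, h1⟩ := exists_isDiag hA.isHermitian
  obtain ⟨W, h, h2⟩ := exists_isDiag hH
  have := vk_sum h1 h2
  have h3 : 0 ≤ ∑ k, ∑ m, Complex.normSq ((Wᴴ * V) m k) *
      (Real.exp (h m) - p k - Real.negMulLog (p k) - p k * h m) :=
    Finset.sum_nonneg fun k _ => Finset.sum_nonneg fun m _ =>
      mul_nonneg (Complex.normSq_nonneg _) (vk_scalar (h1.nonneg hA k) _).1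
  linarith

/-- its equality case -/
theorem vk_klein_eq {A H W : Matrix α α ℂ} {h : α → ℝ} (hA : A.PosSemidef) (hH : IsDiag H W h)
    (he : trf Real.exp H ≤ ent A + (A * H).trace.re + A.trace.re) : IsDiag A W fun m => Real.exp (h m) := by
  obtain ⟨V, p, h1⟩ := exists_isDiag hA.isHermitian
  have h0 : ∀ k m, 0 ≤ Complex.normSq ((Wᴴ * V) m k) * (Real.exp (h m) - p k - Real.negMulLog (p k) - p k * h m) :=
    fun k m => mul_nonneg (Complex.normSq_nonneg _) (vk_scalar (h1.nonneg hA k) _).1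
  have h3 : ∑ k, ∑ m, Complex.normSq ((Wᴴ * V) m k) *
      (Real.exp (h m) - p k - Real.negMulLog (p k) - p k * h m) = 0 :=
    le_antisymm (by rw [← vk_sum h1 hH]; linarith) (Finset.sum_nonneg fun k _ => Finset.sum_nonneg fun m _ => h0 k m)
  have h4 : Wᴴ * V * diagonal (fun k => (p k : ℂ)) = diagonal (fun m => (Real.exp (h m) : ℂ)) * (Wᴴ * V) := by
    ext m k
    rw [mul_diagonal, diagonal_mul, mul_comm]
    have h5 := (Finset.sum_eq_zero_iff_of_nonneg fun m _ => h0 k m).1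
      ((Finset.sum_eq_zero_iff_of_nonneg fun k _ => Finset.sum_nonneg fun m _ => h0 k m).1 h3 k (Finset.mem_univ _))
      m (Finset.mem_univ _)
    rcases mul_eq_zero.1 h5 with h6 | h6
    · rw [Complex.normSq_eq_zero.1 h6, mul_zero, mul_zero]
    · rw [(vk_scalar (h1.nonneg hA k) _).2 h6]
  refine ⟨hH.uni, ?_⟩
  calc A = W * Wᴴ * A := by rw [hH.uni', Matrix.one_mul]
    _ = W * (Wᴴ * V * diagonal (fun k => (p k : ℂ))) * Vᴴ := by
      conv_lhs => rw [h1.eq]
      simp only [Matrix.mul_assoc]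
    _ = W * diagonal (fun m => (Real.exp (h m) : ℂ)) * Wᴴ * (V * Vᴴ) := by rw [h4]; simp only [Matrix.mul_assoc]
    _ = _ := by rw [h1.uni', Matrix.mul_one]

theorem vk_pos [Nonempty α] {H : Matrix α α ℂ} (hH : H.IsHermitian) : 0 < trf Real.exp H := by
  obtain ⟨W, h, h2⟩ := exists_isDiag hH
  rw [h2.trf]
  exact Finset.sum_pos (fun _ _ => Real.exp_pos _) Finset.univ_nonempty

/-- the Gibbs state -/
theorem vk_gibbs [Nonempty α] {H : Matrix α α ℂ} (hH : H.IsHermitian) :
    ∃ ρ : Matrix α α ℂ, Dens ρ ∧ ent ρ + (ρ * H).trace.re = Real.log (trf Real.exp H) := by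
  have hZ := vk_pos hH
  obtain ⟨W, h, h2⟩ := exists_isDiag hH
  set Z := trf Real.exp H
  have h3 : IsDiag (W * diagonal (fun m => ((Real.exp (h m) / Z : ℝ) : ℂ)) * Wᴴ) W fun m => Real.exp (h m) / Z :=
    ⟨h2.uni, rfl⟩
  have h4 : ∑ m, Real.exp (h m) / Z = 1 := by rw [← Finset.sum_div, ← h2.trf, div_self hZ.ne']
  refine ⟨_, ⟨isDiag_posSemidef h3 fun m => by positivity, by rw [h3.trace, h4, Complex.ofReal_one]⟩, ?_⟩
  rw [isDiag_ent h3, vk_trace_mul h3, ← Finset.sum_add_distrib, ← one_mul (Real.log Z), ← h4, Finset.sum_mul]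
  refine Finset.sum_congr rfl fun m _ => ?_
  rw [h2.dg_self, Real.negMulLog, Real.log_div (Real.exp_pos _).ne' hZ.ne', Real.log_exp]
  ring

theorem vk_ent_mlog {A V : Matrix α α ℂ} {p : α → ℝ} (h : IsDiag A V p) : ent A + (A * mlog A).trace.re = 0 := by
  rw [isDiag_ent h, vk_trace_mul h, ← Finset.sum_add_distrib]
  refine Finset.sum_eq_zero fun k _ => ?_
  rw [(isDiag_mlog h).dg_self, Real.negMulLog]
  ring

theorem vk_exp_mlog {A V : Matrix α α ℂ} {p : α → ℝ} (h : IsDiag A V p) (hp : ∀ k, 0 < p k) :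
    trf Real.exp (mlog A) = A.trace.re := by
  rw [(isDiag_mlog h).trf, h.trace_re]
  exact Finset.sum_congr rfl fun k _ => Real.exp_log (hp k)

/-- second-order expansion of `tr exp (log A + s Y)` -/
theorem vk_second {A V Y : Matrix α α ℂ} {p : α → ℝ} (h : IsDiag A V p) (hp : ∀ k, 0 < p k) (hY : Y.IsHermitian) :
    Tendsto (fun s : ℝ => (trf Real.exp (mlog A + (s : ℂ) • Y) - A.trace.re - s * (A * Y).trace.re) / s ^ 2) (𝓝[≠] 0)
      (𝓝 (bkm V p Y / 2)) := by
  have := trf_exp_second_order (isDiag_mlog h) hY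
  simp only [Real.exp_log (hp _), vk_exp_mlog h hp, ← vk_trace_mul h] at this
  convert this using 3
  refine Finset.sum_congr rfl fun k _ => Finset.sum_congr rfl fun m _ => ?_
  rw [Complex.normSq_eq_norm_sq, mul_comm, lm, divDiff, Real.exp_log (hp _), Real.exp_log (hp _)]
  simp only [(Real.log_injOn_pos.eq_iff (hp k) (hp m))]

theorem vk_cmp {f g : ℝ → ℝ} {a b : ℝ} (hf : Tendsto (fun s => (f s - 1) / s ^ 2) (𝓝[≠] 0) (𝓝 a))
    (hg : Tendsto (fun s => g s / s ^ 2) (𝓝[≠] 0) (𝓝 b)) (h0 : ∀ s, 0 < f s) (h : ∀ s, Real.log (f s) ≤ g s) :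
    a ≤ b := by
  have h1 : Tendsto f (𝓝[≠] 0) (𝓝 1) := by
    have h2 : Tendsto (fun s : ℝ => s ^ 2) (𝓝[≠] 0) (𝓝 0) :=
      ((continuous_pow 2).tendsto' 0 0 (by simp)).mono_left nhdsWithin_le_nhds
    have h3 := (hf.mul h2).add_const 1
    rw [mul_zero, zero_add] at h3
    refine h3.congr' (eventually_mem_nhdsWithin.mono fun s hs => ?_)
    rw [div_mul_cancel₀ _ (pow_ne_zero 2 hs), sub_add_cancel]
  have h4 := hf.div h1 one_ne_zero
  rw [div_one] at h4
  refine le_of_tendsto_of_tendsto' h4 hg fun s => ?_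
  rw [Pi.div_apply, div_right_comm]
  refine div_le_div_of_nonneg_right (le_trans ?_ (h s)) (sq_nonneg _)
  rw [sub_div, div_self (h0 s).ne', one_div]
  exact Real.one_sub_inv_le_log_of_pos (h0 s)

theorem vk_bkm_smul (V : Matrix α α ℂ) (p : α → ℝ) (t : ℝ) (Y : Matrix α α ℂ) :
    bkm V p ((t : ℂ) • Y) = t ^ 2 * bkm V p Y := by
  simp only [bkm, Matrix.mul_smul, Matrix.smul_mul, Matrix.smul_apply, norm_smul, Complex.norm_real, Real.norm_eq_abs, mul_pow,
    sq_abs, Finset.mul_sum, mul_left_comm]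

theorem vk_bkm_add (V : Matrix α α ℂ) (p : α → ℝ) {X Y : Matrix α α ℂ} (hX : X.IsHermitian) (hY : Y.IsHermitian) :
    bkm V p (X + Complex.I • Y) = bkm V p X + bkm V p Y := by
  have h1 := (isHermitian_conjTranspose_mul_mul V hX).apply
  have h2 := (isHermitian_conjTranspose_mul_mul V hY).apply
  have h3 : bkm V p (X + Complex.I • Y) = ∑ k, ∑ l, lm (p k) (p l) * ‖(Vᴴ * (X + Complex.I • Y) * V) l k‖ ^ 2 := by
    rw [bkm, Finset.sum_comm]
    simp only [lm_comm]
  have h4 : bkm V p (X + Complex.I • Y) + bkm V p (X + Complex.I • Y) = 2 * (bkm V p X + bkm V p Y) := by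
    conv_lhs => rw [h3]; arg 1; rw [← h3]
    simp only [bkm, ← Finset.sum_add_distrib, Finset.mul_sum]
    refine Finset.sum_congr rfl fun k _ => Finset.sum_congr rfl fun l _ => ?_
    simp only [Matrix.mul_add, Matrix.add_mul, Matrix.mul_smul, Matrix.smul_mul, Matrix.add_apply, Matrix.smul_apply]
    rw [← h1 l k, ← h2 l k]
    simp only [← Complex.normSq_eq_norm_sq, Complex.normSq_apply, smul_eq_mul, Complex.star_def, Complex.add_re, Complex.add_im,
      Complex.mul_re, Complex.mul_im, Complex.I_re, Complex.I_im, Complex.conj_re, Complex.conj_im]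
    ring
  linarith

theorem vk_split (Y : Matrix α α ℂ) : ∃ X Z : Matrix α α ℂ, X.IsHermitian ∧ Z.IsHermitian ∧ Y = X + Complex.I • Z := by
  refine ⟨(1 / 2 : ℂ) • (Y + Yᴴ), (Complex.I / 2) • (Yᴴ - Y), ?_, ?_, ?_⟩
  · simp [IsHermitian, add_comm]
  · simp only [IsHermitian, conjTranspose_smul, conjTranspose_sub, conjTranspose_conjTranspose, star_div₀, Complex.star_def,
      Complex.conj_I, map_ofNat]
    rw [neg_div, neg_smul, ← smul_neg, neg_sub]
  · ext i j
    simp only [Matrix.add_apply, Matrix.smul_apply, Matrix.sub_apply, smul_eq_mul]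
    linear_combination (Y i j - Yᴴ i j) / 2 * Complex.I_mul_I

theorem vk_real {A Y : Matrix α α ℂ} (hA : A.IsHermitian) (hY : Y.IsHermitian) :
    (A * Y).trace = ((A * Y).trace.re : ℂ) := by
  refine (Complex.conj_eq_iff_re.1 ?_).symm
  rw [← Complex.star_def, ← trace_conjTranspose, conjTranspose_mul, hA.eq, hY.eq, trace_mul_comm]

theorem vk_herm_smul {Y : Matrix α α ℂ} (hY : Y.IsHermitian) (t : ℝ) : ((t : ℂ) • Y).IsHermitian := by
  rw [IsHermitian, conjTranspose_smul, hY.eq, Complex.star_def, Complex.conj_ofReal]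

end Crest.Agent.R331

end
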