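import Crest.Agent.R331.I.Basic
import Crest.Agent.R331.I.VarK

/-!
Row 331, block Var: Euler-Lagrange equation and second variation at a maximiser, without derivatives
of the entropy.  Klein: for `σ' ≥ 0`, `H` Hermitian, `-ent σ' ≥ tr σ' H + tr σ' - tr exp H`, equality
iff `σ' = exp H` (double sum over two eigenbases).  Put `σ = out U ρA ρB + θ`, `H = log σ + Y`,
`σ' = out U ρ' ρB + θ` (same trace as `σ`), `G = (T adj(log σ) - F)/lam`, `μ = T/lam`.  `Y = 0`,
`ρ' = e^G/Z` gives `D(ρA | e^G/Z) ≤ 0`, so `ρA = e^G/Z`.  General Hermitian `Y`, `ρ'` the Gibbs state of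
`log ρA + μ adj Y`: `log tr exp (log ρA + μ adj Y) ≤ μ (tr exp (log σ + Y) - tr σ - θ tr Y)`.
Replace `Y` by `x Y` and compare the `x²` terms: `tr exp (H + x Y) = tr e^H + x tr e^H Y +
x²/2 bkm + o(x²)` (Duhamel twice, or power series).  General `Y = Y₁ + i Y₂`: `bkm` is additive because
`lm` is symmetric, and `cen` commutes with the adjoint.
-/

set_option autoImplicit false

noncomputable section

namespace Crest.Agent.R331

open Matrix Crest.MathPhysics.Bosonic Crest.Agent.Lib.QEnt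
open scoped ComplexOrder Kronecker

variable {α β γ δ : Type*} [Fintype α] [Fintype β] [Fintype γ] [Fintype δ]
  [DecidableEq α] [DecidableEq β] [DecidableEq γ] [DecidableEq δ]

theorem var_cen_herm (U : Matrix (γ × δ) (α × β) ℂ) {ρA : Matrix α α ℂ} {ρB : Matrix β β ℂ} (hA : Dens ρA)
    (hB : Dens ρB) {Y : Matrix γ γ ℂ} (hY : Y.IsHermitian) : (cen U ρA ρB Y).IsHermitian := by
  rw [cen, vk_real (out_posSemidef U hA.1 hB.1).isHermitian hY]
  exact IsHermitian.sub ((adj_conjTranspose U hB.1.isHermitian Y).trans (by rw [hY.eq])) (vk_herm_smul isHermitian_one _)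

theorem var_main {U : Matrix (γ × δ) (α × β) ℂ} (hU : Uᴴ * U = 1) {ρA : Matrix α α ℂ}
    {ρB : Matrix β β ℂ} (hA : Dens ρA) (hB : Dens ρB) {θ lam T : ℝ} (hθ : 0 < θ) (hlam : 0 < lam)
    (hT : 0 < T) {F : Matrix α α ℂ} (hF : F.IsHermitian)
    (hmax : ∀ ρ' : Matrix α α ℂ, Dens ρ' →
      lam * ent ρ' - T * ent (out U ρ' ρB + (θ : ℂ) • (1 : Matrix γ γ ℂ)) - (ρ' * F).trace.re ≤
        lam * ent ρA - T * ent (out U ρA ρB + (θ : ℂ) • (1 : Matrix γ γ ℂ)) - (ρA * F).trace.re) :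
    ρA.PosDef ∧
    (∃ c : ℝ, (lam : ℂ) • mlog ρA =
      (T : ℂ) • adj U ρB (mlog (out U ρA ρB + (θ : ℂ) • (1 : Matrix γ γ ℂ))) - F +
        (c : ℂ) • (1 : Matrix α α ℂ)) ∧
    ∀ (V : Matrix α α ℂ) (p : α → ℝ) (W : Matrix γ γ ℂ) (q : γ → ℝ), IsDiag ρA V p →
      IsDiag (out U ρA ρB + (θ : ℂ) • (1 : Matrix γ γ ℂ)) W q →
      ∀ Y : Matrix γ γ ℂ, T * bkm V p (cen U ρA ρB Y) ≤ lam * bkm W q Y := by
  haveI : Nonempty α := by
    by_contra h
    rw [not_nonempty_iff] at h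
    simpa [Matrix.trace] using hA.2
  set σ := out U ρA ρB + (θ : ℂ) • (1 : Matrix γ γ ℂ) with hσ
  have hps : ∀ ρ : Matrix α α ℂ, Dens ρ → (out U ρ ρB + (θ : ℂ) • (1 : Matrix γ γ ℂ)).PosDef := fun ρ hρ =>
    PosDef.posSemidef_add (out_posSemidef U hρ.1 hB.1) (PosDef.one.smul (Complex.zero_lt_real.2 hθ))
  obtain ⟨W₀, q₀, hW₀⟩ := exists_isDiag (hps ρA hA).isHermitian
  have hL : (mlog σ).IsHermitian := (isDiag_mlog hW₀).isHermitian
  have hadj : ∀ {Y : Matrix γ γ ℂ}, Y.IsHermitian → (adj U ρB Y).IsHermitian := fun {Y} hY =>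
    (adj_conjTranspose U hB.1.isHermitian Y).trans (by rw [hY.eq])
  -- the basic inequality
  have key : ∀ Y : Matrix γ γ ℂ, Y.IsHermitian → ∀ ρ : Matrix α α ℂ, Dens ρ →
      lam * ent ρ + T * ((ρ * adj U ρB (mlog σ)).trace.re + (ρ * adj U ρB Y).trace.re) - (ρ * F).trace.re -
        T * (trf Real.exp (mlog σ + Y) - σ.trace.re - θ * Y.trace.re) ≤
      lam * ent ρA + T * (ρA * adj U ρB (mlog σ)).trace.re - (ρA * F).trace.re := fun Y hY ρ hρ => by
    have h1 := vk_klein (hps ρ hρ).posSemidef (hL.add hY)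
    have h2 := vk_ent_mlog hW₀
    have h3 := hmax ρ hρ
    have h4 : (out U ρ ρB + (θ : ℂ) • (1 : Matrix γ γ ℂ)).trace = σ.trace := by
      rw [hσ, trace_add, trace_add, trace_out hU, trace_out hU, hρ.2, hA.2]
    rw [h4] at h1
    rw [← hσ] at h2
    nth_rewrite 2 [hσ] at h2
    simp only [Matrix.add_mul, Matrix.mul_add, trace_add, Complex.add_re, Matrix.smul_mul, Matrix.one_mul, trace_smul,
      smul_eq_mul, Complex.re_ofReal_mul, ← trace_mul_adj] at h1 h2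
    nlinarith [mul_le_mul_of_nonneg_left h1 hT.le]
  -- Euler-Lagrange
  obtain ⟨G, hG⟩ : ∃ G, G = (lam⁻¹ : ℝ) • ((T : ℂ) • adj U ρB (mlog σ) - F) := ⟨_, rfl⟩
  have hGh : G.IsHermitian := hG ▸ vk_herm_smul ((vk_herm_smul (hadj hL) T).sub hF) _
  have hGt : ∀ ρ : Matrix α α ℂ, lam * (ρ * G).trace.re = T * (ρ * adj U ρB (mlog σ)).trace.re - (ρ * F).trace.re :=
    fun ρ => by
      rw [hG, Matrix.mul_smul, trace_smul, Complex.real_smul, Complex.re_ofReal_mul, mul_inv_cancel_left₀ hlam.ne',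
        Matrix.mul_sub, Matrix.mul_smul, trace_sub, trace_smul, Complex.sub_re, smul_eq_mul, Complex.re_ofReal_mul]
  obtain ⟨V₀, g, hV₀⟩ := exists_isDiag hGh
  set c := Real.log (trf Real.exp G) with hc
  have hH := hV₀.add_smul_one (-c)
  have hZ := vk_pos hGh
  have hEL : IsDiag ρA V₀ fun m => Real.exp (-c + g m) := by
    refine vk_klein_eq hA.1 hH ?_
    obtain ⟨ρ, hρ, e⟩ := vk_gibbs hGh
    have h1 := key 0 isHermitian_zero ρ hρ
    have h0 : adj U ρB (0 : Matrix γ γ ℂ) = 0 := by simpa using adj_smul U ρB 0 0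
    rw [add_zero, vk_exp_mlog hW₀ (isDiag_pos hW₀ (hps ρA hA)), h0] at h1
    have h2 : trf Real.exp (((-c : ℝ) : ℂ) • (1 : Matrix α α ℂ) + G) = 1 := by
      rw [hH.trf]
      simp only [Real.exp_add, ← Finset.mul_sum, ← hV₀.trf]
      rw [Real.exp_neg, hc, Real.exp_log hZ, inv_mul_cancel₀ hZ.ne']
    rw [h2, Matrix.mul_add, Matrix.mul_smul, Matrix.mul_one, trace_add, trace_smul, hA.2]
    simp only [Matrix.mul_zero, trace_zero, Complex.zero_re, Complex.add_re, smul_eq_mul, mul_one, Complex.ofReal_re,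
      Complex.one_re] at h1 ⊢
    have h3 := hGt ρ
    have h4 := hGt ρA
    have h5 : lam * c ≤ lam * (ent ρA + (ρA * G).trace.re) := by rw [hc, ← e]; linarith
    linarith [le_of_mul_le_mul_left h5 hlam]
  have hpd : ρA.PosDef := isDiag_posDef hEL fun _ => Real.exp_pos _
  have hLA : mlog ρA = ((-c : ℝ) : ℂ) • (1 : Matrix α α ℂ) + G := by
    rw [(isDiag_mlog hEL).eq, hH.eq]
    simp only [Real.log_exp]
  refine ⟨hpd, ⟨-(lam * c), ?_⟩, fun V p W q hV hW Y => ?_⟩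
  · rw [hLA, hG, smul_add, smul_smul, ← Complex.coe_smul, smul_smul, ← Complex.ofReal_mul, ← Complex.ofReal_mul,
      mul_inv_cancel₀ hlam.ne', Complex.ofReal_one, one_smul, add_comm, mul_neg]
  suffices hh : ∀ Y : Matrix γ γ ℂ, Y.IsHermitian → T * bkm V p (cen U ρA ρB Y) ≤ lam * bkm W q Y by
    obtain ⟨X, Z, hX, hZ, rfl⟩ := vk_split Y
    rw [cen_add, cen_smul, vk_bkm_add _ _ hX hZ, vk_bkm_add _ _ (var_cen_herm U hA hB hX) (var_cen_herm U hA hB hZ)]
    linarith [hh X hX, hh Z hZ]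
  intro Y hY
  have hC := vk_herm_smul (var_cen_herm U hA hB hY) (T / lam)
  have h1 := vk_second hV (isDiag_pos hV hpd) hC
  have h2 := (vk_second hW (isDiag_pos hW (hps ρA hA)) hY).const_mul (T / lam)
  simp only [Matrix.mul_smul, trace_smul, trace_mul_cen U hA.2, smul_zero, Complex.zero_re, mul_zero, sub_zero, hA.2,
    Complex.one_re, vk_bkm_smul] at h1
  simp only [← mul_div_assoc (T / lam)] at h2
  have hs : ∀ s : ℝ, (mlog ρA + (s : ℂ) • ((T / lam : ℝ) : ℂ) • cen U ρA ρB Y).IsHermitian := fun s =>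
    (isDiag_mlog hV).isHermitian.add (vk_herm_smul hC s)
  have h3 := vk_cmp h1 h2 (fun s => vk_pos (hs s)) fun s => ?_
  · have h4 : T / lam * (T / lam * bkm V p (cen U ρA ρB Y)) ≤ T / lam * bkm W q Y := by linarith
    have h5 := le_of_mul_le_mul_left h4 (div_pos hT hlam)
    rwa [div_mul_eq_mul_div, div_le_iff₀' hlam] at h5
  obtain ⟨ρ, hρ, e⟩ := vk_gibbs (hs s)
  have h4 := key _ (vk_herm_smul hY s) ρ hρ
  have h5 := vk_ent_mlog hV
  have h6 := hGt ρ
  have h7 := hGt ρA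
  rw [← e]
  nth_rewrite 3 [hσ]
  rw [hLA] at h5 ⊢
  rw [cen, vk_real (out_posSemidef U hA.1 hB.1).isHermitian hY]
  simp only [Matrix.add_mul, Matrix.mul_add, Matrix.mul_sub, trace_add, trace_sub, Complex.add_re, Complex.sub_re,
    Matrix.smul_mul, Matrix.mul_smul, Matrix.one_mul, Matrix.mul_one, trace_smul, smul_eq_mul, Complex.re_ofReal_mul, hρ.2, hA.2,
    Complex.one_re, adj_smul] at h4 h5 ⊢
  refine le_of_mul_le_mul_left ?_ hlam
  field_simp
  nlinarith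

end Crest.Agent.R331

end
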